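/-
P063 base layer: the p-biased cube on `E → Bool`, characters, Fourier inversion, Parseval,
Bonami's lemma for the biased measure, the Hoelder lemma.
-/
import Mathlib

open Finset

namespace Vale.Agent.P063

set_option linter.unusedSectionVars false
set_option linter.unusedVariables false

variable {E : Type} [Fintype E] [DecidableEq E]

/-- Weight of one coordinate. -/
noncomputable def w1 (p : ℝ) (b : Bool) : ℝ := if b then p else 1 - p

/-- Product weight of a point. -/
noncomputable def wt (p : ℝ) (x : E → Bool) : ℝ := ∏ e, w1 p (x e)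

/-- Expectation under the product measure. -/
noncomputable def Ep (p : ℝ) (F : (E → Bool) → ℝ) : ℝ := ∑ x, wt p x * F x

lemma w1_true (p : ℝ) : w1 p true = p := by simp [w1]
lemma w1_false (p : ℝ) : w1 p false = 1 - p := by simp [w1]

lemma w1_pos {p : ℝ} (h0 : 0 < p) (h1 : p < 1) (b : Bool) : 0 < w1 p b := by
  cases b <;> simp [w1, h0, h1]

lemma wt_pos {p : ℝ} (h0 : 0 < p) (h1 : p < 1) (x : E → Bool) : 0 < wt p x :=
  Finset.prod_pos fun e _ => w1_pos h0 h1 (x e)

lemma Ep_add (p : ℝ) (F G : (E → Bool) → ℝ) :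
    Ep p (fun x => F x + G x) = Ep p F + Ep p G := by
  simp only [Ep, mul_add, Finset.sum_add_distrib]

lemma Ep_sub (p : ℝ) (F G : (E → Bool) → ℝ) :
    Ep p (fun x => F x - G x) = Ep p F - Ep p G := by
  simp only [Ep, mul_sub, Finset.sum_sub_distrib]

lemma Ep_mul_left (p c : ℝ) (F : (E → Bool) → ℝ) :
    Ep p (fun x => c * F x) = c * Ep p F := by
  simp only [Ep, Finset.mul_sum]
  exact Finset.sum_congr rfl fun x _ => by ring

lemma Ep_sum {ι : Type*} (p : ℝ) (s : Finset ι) (F : ι → (E → Bool) → ℝ) :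
    Ep p (fun x => ∑ i ∈ s, F i x) = ∑ i ∈ s, Ep p (F i) := by
  simp only [Ep, Finset.mul_sum]
  rw [Finset.sum_comm]

lemma Ep_nonneg {p : ℝ} (h0 : 0 < p) (h1 : p < 1) {F : (E → Bool) → ℝ} (hF : ∀ x, 0 ≤ F x) :
    0 ≤ Ep p F :=
  Finset.sum_nonneg fun x _ => mul_nonneg (wt_pos h0 h1 x).le (hF x)

lemma Ep_mono {p : ℝ} (h0 : 0 < p) (h1 : p < 1) {F G : (E → Bool) → ℝ} (h : ∀ x, F x ≤ G x) :
    Ep p F ≤ Ep p G :=
  Finset.sum_le_sum fun x _ => mul_le_mul_of_nonneg_left (h x) (wt_pos h0 h1 x).le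

/-- Product formula. -/
lemma Ep_prod (p : ℝ) (g : E → Bool → ℝ) :
    Ep p (fun x => ∏ e, g e (x e)) = ∏ e, ∑ b, w1 p b * g e b := by
  have := (Finset.prod_univ_sum (fun _ : E => (Finset.univ : Finset Bool))
    (fun e b => w1 p b * g e b))
  rw [this, Fintype.piFinset_univ]
  simp only [Ep, wt, Finset.prod_mul_distrib]

lemma Ep_one (p : ℝ) : Ep p (fun _ : E → Bool => (1 : ℝ)) = 1 := by
  have := Ep_prod (E := E) p (fun _ _ => 1)
  simp only [Finset.prod_const_one, mul_one] at this
  rw [this]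
  apply Finset.prod_eq_one
  intro e _
  simp [w1]

lemma Ep_const (p c : ℝ) : Ep p (fun _ : E → Bool => c) = c := by
  have := Ep_mul_left (E := E) p c (fun _ => 1)
  simp only [mul_one] at this
  rw [this, Ep_one, mul_one]

/-- Cauchy-Schwarz. -/
lemma Ep_cs {p : ℝ} (h0 : 0 < p) (h1 : p < 1) (F G : (E → Bool) → ℝ) :
    Ep p (fun x => F x * G x) ^ 2 ≤ Ep p (fun x => F x ^ 2) * Ep p (fun x => G x ^ 2) := by
  have hw : ∀ x : E → Bool, 0 ≤ wt p x := fun x => (wt_pos h0 h1 x).le
  have := Finset.sum_mul_sq_le_sq_mul_sq (Finset.univ : Finset (E → Bool))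
    (fun x => Real.sqrt (wt p x) * F x) (fun x => Real.sqrt (wt p x) * G x)
  have e : ∀ x, Real.sqrt (wt p x) * Real.sqrt (wt p x) = wt p x :=
    fun x => Real.mul_self_sqrt (hw x)
  have e1 : ∑ x, (Real.sqrt (wt p x) * F x) * (Real.sqrt (wt p x) * G x)
      = Ep p (fun x => F x * G x) := by
    apply Finset.sum_congr rfl
    intro x _
    linear_combination (F x * G x) * e x
  have e2 : ∑ x, (Real.sqrt (wt p x) * F x) ^ 2 = Ep p (fun x => F x ^ 2) := by
    apply Finset.sum_congr rfl
    intro x _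
    linear_combination (F x ^ 2) * e x
  have e3 : ∑ x, (Real.sqrt (wt p x) * G x) ^ 2 = Ep p (fun x => G x ^ 2) := by
    apply Finset.sum_congr rfl
    intro x _
    linear_combination (G x ^ 2) * e x
  rw [e1, e2, e3] at this
  exact this

/-! ### Resampling one coordinate -/

/-- Flip a coordinate. -/
def flip (a : E) (x : E → Bool) : E → Bool := Function.update x a (!x a)

lemma flip_flip (a : E) (x : E → Bool) : flip a (flip a x) = x := by
  funext j
  by_cases h : j = a
  · subst h; simp [flip]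
  · simp [flip, Function.update_of_ne h]

/-- The flip as an equivalence. -/
def flipEquiv (a : E) : (E → Bool) ≃ (E → Bool) where
  toFun := flip a
  invFun := flip a
  left_inv := flip_flip a
  right_inv := flip_flip a

lemma sum_flip_sym (a : E) (g : (E → Bool) → ℝ) :
    ∑ x, g x = ∑ x, (g x + g (flip a x)) / 2 := by
  have h : ∑ x, g (flip a x) = ∑ x, g x := Equiv.sum_comp (flipEquiv a) g
  rw [← Finset.sum_div, Finset.sum_add_distrib, h]
  ring

/-- The weight of the other coordinates. -/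
noncomputable def wtR (p : ℝ) (a : E) (x : E → Bool) : ℝ := ∏ e ∈ Finset.univ.erase a, w1 p (x e)

lemma wt_eq (p : ℝ) (a : E) (x : E → Bool) : wt p x = w1 p (x a) * wtR p a x := by
  unfold wt wtR
  exact (Finset.mul_prod_erase Finset.univ (fun e => w1 p (x e)) (Finset.mem_univ a)).symm

lemma wtR_update (p : ℝ) (a : E) (x : E → Bool) (b : Bool) :
    wtR p a (Function.update x a b) = wtR p a x := by
  unfold wtR
  apply Finset.prod_congr rfl
  intro e he
  rw [Function.update_of_ne (Finset.ne_of_mem_erase he)]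

lemma update_self_eq (a : E) (x : E → Bool) : Function.update x a (x a) = x := by
  simp

lemma update_update_same (a : E) (x : E → Bool) (b c : Bool) :
    Function.update (Function.update x a b) a c = Function.update x a c := by
  simp

/-- Resampling: the expectation is unchanged if coordinate `a` is rerandomised. -/
lemma Ep_resample (p : ℝ) (a : E) (F : (E → Bool) → ℝ) :
    Ep p F = Ep p (fun x => p * F (Function.update x a true)
      + (1 - p) * F (Function.update x a false)) := by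
  unfold Ep
  rw [sum_flip_sym a (fun x => wt p x * F x),
    sum_flip_sym a (fun x => wt p x * (p * F (Function.update x a true)
      + (1 - p) * F (Function.update x a false)))]
  apply Finset.sum_congr rfl
  intro x _
  have hf : wtR p a (flip a x) = wtR p a x := wtR_update p a x _
  have h1 : Function.update (flip a x) a true = Function.update x a true :=
    update_update_same a x _ _
  have h2 : Function.update (flip a x) a false = Function.update x a false :=
    update_update_same a x _ _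
  rw [h1, h2, wt_eq p a x, wt_eq p a (flip a x), hf]
  have hfa : flip a x a = !x a := by simp [flip]
  rw [hfa]
  cases hx : x a
  · have hu : Function.update x a false = x := by
      rw [← hx]; exact update_self_eq a x
    have hu' : flip a x = Function.update x a true := by
      unfold flip; rw [hx]; rfl
    simp only [Bool.not_false, w1_true, w1_false]
    rw [hu', hu]
    ring
  · have hu : Function.update x a true = x := by
      rw [← hx]; exact update_self_eq a x
    have hu' : flip a x = Function.update x a false := by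
      unfold flip; rw [hx]; rfl
    simp only [Bool.not_true, w1_true, w1_false]
    rw [hu', hu]
    ring

/-- Independence of one coordinate from a function not depending on it. -/
lemma Ep_indep (p : ℝ) (a : E) (ψ : Bool → ℝ) (Φ : (E → Bool) → ℝ)
    (hΦ : ∀ x b, Φ (Function.update x a b) = Φ x) :
    Ep p (fun x => ψ (x a) * Φ x) = (p * ψ true + (1 - p) * ψ false) * Ep p Φ := by
  rw [Ep_resample p a]
  have : (fun x => p * (ψ (Function.update x a true a) * Φ (Function.update x a true))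
      + (1 - p) * (ψ (Function.update x a false a) * Φ (Function.update x a false)))
      = fun x => (p * ψ true + (1 - p) * ψ false) * Φ x := by
    funext x
    simp only [Function.update_self, hΦ]
    ring
  rw [this, Ep_mul_left]

/-! ### Characters -/

/-- Normalised coordinate. -/
noncomputable def chi1 (p : ℝ) (b : Bool) : ℝ :=
  if b then (1 - p) / Real.sqrt (p * (1 - p)) else - p / Real.sqrt (p * (1 - p))

/-- The character of a set. -/
noncomputable def chi (p : ℝ) (S : Finset E) (x : E → Bool) : ℝ := ∏ e ∈ S, chi1 p (x e)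

section moments
variable {p : ℝ} (h0 : 0 < p) (h1 : p < 1)
include h0 h1

lemma r_pos : 0 < Real.sqrt (p * (1 - p)) := Real.sqrt_pos.2 (mul_pos h0 (by linarith))

lemma r_sq : Real.sqrt (p * (1 - p)) ^ 2 = p * (1 - p) :=
  Real.sq_sqrt (mul_pos h0 (by linarith)).le

lemma chi1_mean : p * chi1 p true + (1 - p) * chi1 p false = 0 := by
  simp only [chi1, if_true, Bool.false_eq_true, if_false]
  have hr := r_pos h0 h1
  field_simp
  ring

lemma chi1_sq_mean : p * chi1 p true ^ 2 + (1 - p) * chi1 p false ^ 2 = 1 := by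
  simp only [chi1, if_true, Bool.false_eq_true, if_false]
  have hr := r_pos h0 h1
  have hr2 := r_sq h0 h1
  have hq : 0 < 1 - p := by linarith
  rw [div_pow, neg_div, neg_sq, div_pow, hr2]
  field_simp
  ring

/-- The third moment squared and the fourth moment. -/
lemma chi1_m3_sq : (p * chi1 p true ^ 3 + (1 - p) * chi1 p false ^ 3) ^ 2 ≤ 1 / (p * (1 - p)) := by
  have hq : 0 < 1 - p := by linarith
  have hpq : 0 < p * (1 - p) := mul_pos h0 hq
  have hr := r_pos h0 h1
  have hr2 := r_sq h0 h1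
  set r := Real.sqrt (p * (1 - p)) with hrdef
  have e : p * chi1 p true ^ 3 + (1 - p) * chi1 p false ^ 3 = (1 - 2 * p) / r := by
    simp only [chi1, if_true, Bool.false_eq_true, if_false, ← hrdef]
    have hr3 : r ^ 3 = p * (1 - p) * r := by rw [pow_succ, hr2]
    rw [div_pow, neg_div, Odd.neg_pow (by decide), div_pow, hr3]
    field_simp
    ring
  rw [e, div_pow, hr2]
  apply div_le_div_of_nonneg_right _ hpq.le
  nlinarith

lemma chi1_m4 : p * chi1 p true ^ 4 + (1 - p) * chi1 p false ^ 4 ≤ 1 / (p * (1 - p)) := by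
  have hq : 0 < 1 - p := by linarith
  have hpq : 0 < p * (1 - p) := mul_pos h0 hq
  have hr := r_pos h0 h1
  have hr2 := r_sq h0 h1
  set r := Real.sqrt (p * (1 - p)) with hrdef
  have hr4 : r ^ 4 = (p * (1 - p)) ^ 2 := by rw [← hr2]; ring
  have e : p * chi1 p true ^ 4 + (1 - p) * chi1 p false ^ 4
      = ((1 - p) ^ 3 + p ^ 3) / (p * (1 - p)) := by
    simp only [chi1, if_true, Bool.false_eq_true, if_false, ← hrdef]
    rw [div_pow, neg_div, Even.neg_pow (by decide), div_pow, hr4]
    field_simp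
  rw [e]
  apply div_le_div_of_nonneg_right _ hpq.le
  nlinarith [mul_pos h0 hq]

/-- Products of the normalised coordinate: diagonal identity. -/
lemma one_add_chi1_mul (a b : Bool) :
    1 + chi1 p a * chi1 p b = if a = b then 1 / w1 p a else 0 := by
  have hq : 0 < 1 - p := by linarith
  have hr := r_pos h0 h1
  have hr2 := r_sq h0 h1
  set r := Real.sqrt (p * (1 - p)) with hrdef
  have hff : chi1 p false = - p / r := by simp [chi1, ← hrdef]
  have htt : chi1 p true = (1 - p) / r := by simp [chi1, ← hrdef]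
  have hpne : p ≠ 0 := h0.ne'
  have hqne : 1 - p ≠ 0 := hq.ne'
  cases a <;> cases b <;> simp only [hff, htt, w1_true, w1_false, if_true, reduceCtorEq, if_false]
  · have : (-p / r) * (-p / r) = p ^ 2 / r ^ 2 := by field_simp
    rw [this, hr2]
    field_simp
    ring
  · have : (-p / r) * ((1 - p) / r) = - (p * (1 - p)) / r ^ 2 := by field_simp
    rw [this, hr2]
    field_simp
    ring
  · have : ((1 - p) / r) * (-p / r) = - (p * (1 - p)) / r ^ 2 := by field_simp
    rw [this, hr2]
    field_simp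
    ring
  · have : ((1 - p) / r) * ((1 - p) / r) = (1 - p) ^ 2 / r ^ 2 := by field_simp
    rw [this, hr2]
    field_simp
    ring

end moments

/-! ### Characters: elementary facts -/

lemma chi_empty (p : ℝ) (x : E → Bool) : chi p (∅ : Finset E) x = 1 := by simp [chi]

lemma chi_insert (p : ℝ) {a : E} {S : Finset E} (ha : a ∉ S) (x : E → Bool) :
    chi p (insert a S) x = chi1 p (x a) * chi p S x := by
  simp [chi, Finset.prod_insert ha]

lemma chi_update_of_not_mem (p : ℝ) {a : E} {S : Finset E} (ha : a ∉ S) (x : E → Bool) (b : Bool) :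
    chi p S (Function.update x a b) = chi p S x := by
  unfold chi
  apply Finset.prod_congr rfl
  intro e he
  have : e ≠ a := fun h => ha (h ▸ he)
  rw [Function.update_of_ne this]

/-- The character as a product over all coordinates. -/
lemma chi_eq_prod (p : ℝ) (S : Finset E) (x : E → Bool) :
    chi p S x = ∏ e, (if e ∈ S then chi1 p (x e) else 1) := by
  unfold chi
  rw [Finset.prod_ite_mem]
  simp

/-- Orthonormality of characters. -/
lemma chi_orth {p : ℝ} (h0 : 0 < p) (h1 : p < 1) (S T : Finset E) :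
    Ep p (fun x => chi p S x * chi p T x) = if S = T then 1 else 0 := by
  have e : (fun x : E → Bool => chi p S x * chi p T x) = fun x => ∏ e,
      ((if e ∈ S then chi1 p (x e) else 1) * (if e ∈ T then chi1 p (x e) else 1)) := by
    funext x
    rw [chi_eq_prod, chi_eq_prod, Finset.prod_mul_distrib]
  rw [e]
  have := Ep_prod (E := E) p
    (fun e b => (if e ∈ S then chi1 p b else 1) * (if e ∈ T then chi1 p b else 1))
  rw [this]
  have hsum : ∀ g : Bool → ℝ, ∑ b, w1 p b * g b = p * g true + (1 - p) * g false := by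
    intro g
    simp [w1]
  by_cases hST : S = T
  · subst hST
    rw [if_pos rfl]
    apply Finset.prod_eq_one
    intro e _
    rw [hsum]
    by_cases he : e ∈ S
    · simp only [he, if_true]
      have := chi1_sq_mean h0 h1
      nlinarith [this]
    · simp only [he, if_false]
      ring
  · rw [if_neg hST]
    -- find a coordinate in the symmetric difference
    have : ∃ a, (a ∈ S ∧ a ∉ T) ∨ (a ∉ S ∧ a ∈ T) := by
      by_contra hcon
      push Not at hcon
      apply hST
      ext a
      have := hcon a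
      tauto
    obtain ⟨a, ha⟩ := this
    apply Finset.prod_eq_zero (Finset.mem_univ a)
    rw [hsum]
    have hm := chi1_mean h0 h1
    rcases ha with ⟨h, h'⟩ | ⟨h, h'⟩
    · simp only [h, h', if_true, if_false, mul_one]
      exact hm
    · simp only [h, h', if_true, if_false, one_mul]
      exact hm

/-! ### Fourier coefficients -/

/-- Fourier coefficient. -/
noncomputable def fhat (p : ℝ) (F : (E → Bool) → ℝ) (S : Finset E) : ℝ :=
  Ep p (fun x => F x * chi p S x)

/-- Fourier inversion. -/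
theorem fourier_inversion {p : ℝ} (h0 : 0 < p) (h1 : p < 1) (F : (E → Bool) → ℝ) (x : E → Bool) :
    ∑ S, fhat p F S * chi p S x = F x := by
  have key : ∀ y : E → Bool, ∑ S : Finset E, chi p S y * chi p S x
      = if y = x then 1 / wt p x else 0 := by
    intro y
    have e1 : ∏ e, (1 + chi1 p (y e) * chi1 p (x e))
        = ∑ S : Finset E, chi p S y * chi p S x := by
      rw [Finset.prod_one_add, Finset.powerset_univ]
      apply Finset.sum_congr rfl
      intro S _
      unfold chi
      rw [Finset.prod_mul_distrib]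
    rw [← e1]
    simp only [one_add_chi1_mul h0 h1]
    by_cases hxy : y = x
    · subst hxy
      simp only [if_true]
      unfold wt
      rw [Finset.prod_div_distrib]
      simp
    · rw [if_neg hxy]
      have : ∃ e, y e ≠ x e := by
        by_contra hcon
        push Not at hcon
        exact hxy (funext hcon)
      obtain ⟨e, he⟩ := this
      apply Finset.prod_eq_zero (Finset.mem_univ e)
      rw [if_neg he]
  unfold fhat Ep
  have : ∀ S : Finset E, (∑ y, wt p y * (F y * chi p S y)) * chi p S x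
      = ∑ y, wt p y * F y * (chi p S y * chi p S x) := by
    intro S
    rw [Finset.sum_mul]
    apply Finset.sum_congr rfl
    intro y _
    ring
  simp only [this]
  rw [Finset.sum_comm]
  simp only [← Finset.mul_sum, key]
  rw [Finset.sum_eq_single x]
  · simp only [if_true]
    have := (wt_pos h0 h1 x).ne'
    field_simp
  · intro y _ hy
    rw [if_neg hy, mul_zero]
  · simp

/-- Parseval, polarised. -/
theorem parseval_mul {p : ℝ} (h0 : 0 < p) (h1 : p < 1) (F G : (E → Bool) → ℝ) :
    Ep p (fun x => F x * G x) = ∑ S, fhat p F S * fhat p G S := by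
  have : (fun x => F x * G x) = fun x => ∑ S, fhat p F S * (G x * chi p S x) := by
    funext x
    conv_lhs => rw [← fourier_inversion h0 h1 F x]
    rw [Finset.sum_mul]
    apply Finset.sum_congr rfl
    intro S _
    ring
  rw [this, Ep_sum]
  apply Finset.sum_congr rfl
  intro S _
  rw [Ep_mul_left]
  rfl

/-- Parseval. -/
theorem parseval {p : ℝ} (h0 : 0 < p) (h1 : p < 1) (F : (E → Bool) → ℝ) :
    Ep p (fun x => F x ^ 2) = ∑ S, fhat p F S ^ 2 := by
  have := parseval_mul h0 h1 F F
  simp only [← sq] at this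
  exact this

/-- A polynomial in the characters. -/
noncomputable def polyF (p : ℝ) (𝒥 : Finset (Finset E)) (u : Finset E → ℝ) (x : E → Bool) : ℝ :=
  ∑ J ∈ 𝒥, u J * chi p J x

/-- Coefficient extraction. -/
lemma fhat_polyF {p : ℝ} (h0 : 0 < p) (h1 : p < 1) (𝒥 : Finset (Finset E)) (u : Finset E → ℝ)
    (S : Finset E) : fhat p (polyF p 𝒥 u) S = if S ∈ 𝒥 then u S else 0 := by
  unfold fhat polyF
  have : (fun x => (∑ J ∈ 𝒥, u J * chi p J x) * chi p S x)
      = fun x => ∑ J ∈ 𝒥, u J * (chi p J x * chi p S x) := by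
    funext x
    rw [Finset.sum_mul]
    apply Finset.sum_congr rfl
    intro J _
    ring
  rw [this, Ep_sum]
  simp only [Ep_mul_left, chi_orth h0 h1]
  by_cases hS : S ∈ 𝒥
  · rw [if_pos hS, Finset.sum_eq_single S]
    · simp
    · intro J _ hJ
      rw [if_neg hJ, mul_zero]
    · intro h
      exact absurd hS h
  · rw [if_neg hS]
    apply Finset.sum_eq_zero
    intro J hJ
    have : J ≠ S := fun h => hS (h ▸ hJ)
    rw [if_neg this, mul_zero]

/-- Second moment of a polynomial. -/
lemma Ep_polyF_sq {p : ℝ} (h0 : 0 < p) (h1 : p < 1) (𝒥 : Finset (Finset E)) (u : Finset E → ℝ) :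
    Ep p (fun x => polyF p 𝒥 u x ^ 2) = ∑ J ∈ 𝒥, u J ^ 2 := by
  rw [parseval h0 h1]
  simp only [fhat_polyF h0 h1]
  have : ∀ S : Finset E, (if S ∈ 𝒥 then u S else 0) ^ 2 = if S ∈ 𝒥 then u S ^ 2 else 0 := by
    intro S
    split_ifs <;> simp
  simp only [this]
  rw [Finset.sum_ite_mem]
  simp

/-! ### Bonami's lemma -/

lemma polyF_split (p : ℝ) (𝒥 : Finset (Finset E)) (u : Finset E → ℝ) (a : E) (x : E → Bool) :
    polyF p 𝒥 u x = polyF p (𝒥.filter (fun J => a ∉ J)) u x +
      chi1 p (x a) * polyF p ((𝒥.filter (fun J => a ∈ J)).image (fun J => J.erase a))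
        (fun K => u (insert a K)) x := by
  unfold polyF
  have h := Finset.sum_filter_add_sum_filter_not 𝒥 (fun J => a ∉ J) (fun J => u J * chi p J x)
  simp only [not_not] at h
  rw [← h]
  congr 1
  rw [Finset.sum_image]
  · rw [Finset.mul_sum]
    apply Finset.sum_congr rfl
    intro J hJ
    have ha : a ∈ J := (Finset.mem_filter.1 hJ).2
    beta_reduce
    rw [Finset.insert_erase ha]
    have : chi p J x = chi1 p (x a) * chi p (J.erase a) x := by
      unfold chi
      rw [Finset.mul_prod_erase J (fun e => chi1 p (x e)) ha]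
    rw [this]
    ring
  · intro J hJ J' hJ' hEq
    have ha : a ∈ J := (Finset.mem_filter.1 (Finset.mem_coe.1 hJ)).2
    have ha' : a ∈ J' := (Finset.mem_filter.1 (Finset.mem_coe.1 hJ')).2
    have := congrArg (insert a) hEq
    simpa [Finset.insert_erase ha, Finset.insert_erase ha'] using this

lemma polyF_update_of_forall (p : ℝ) {𝒥 : Finset (Finset E)} {a : E} (h : ∀ J ∈ 𝒥, a ∉ J)
    (u : Finset E → ℝ) (x : E → Bool) (b : Bool) :
    polyF p 𝒥 u (Function.update x a b) = polyF p 𝒥 u x := by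
  unfold polyF
  apply Finset.sum_congr rfl
  intro J hJ
  rw [chi_update_of_not_mem p (h J hJ)]

lemma le_of_sq_le' {x y : ℝ} (hy : 0 ≤ y) (h : x ^ 2 ≤ y ^ 2) : x ≤ y := by
  exact abs_le_of_sq_le_sq' h hy |>.2

/-- The Bonami constant. -/
noncomputable def bK (p : ℝ) : ℝ := 4 / (p * (1 - p))

lemma bK_ge {p : ℝ} (h0 : 0 < p) (h1 : p < 1) : 16 ≤ bK p := by
  unfold bK
  have hq : 0 < 1 - p := by linarith
  have hpq : 0 < p * (1 - p) := mul_pos h0 hq
  rw [le_div_iff₀ hpq]
  nlinarith [sq_nonneg (2 * p - 1)]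

lemma bK_pos {p : ℝ} (h0 : 0 < p) (h1 : p < 1) : 0 < bK p := by
  have := bK_ge h0 h1
  linarith

lemma bonami_alg1 (K X C a b A B : ℝ) (hK16 : 16 ≤ K) (hX : 0 ≤ X) (ha : 0 ≤ a) (hb : 0 ≤ b)
    (hA : A ≤ K * X * a ^ 2) (hB : B ≤ X * b ^ 2) (hBn : 0 ≤ B) (hCS : C ^ 2 ≤ A * B) :
    8 * C ≤ 2 * (K * X) * (a * b) := by
  have hKn : 0 ≤ K := by linarith
  apply le_of_sq_le' (by positivity)
  have h1 : A * B ≤ (K * X * a ^ 2) * (X * b ^ 2) :=
    mul_le_mul hA hB hBn (by positivity)
  have h2 : (8 * C) ^ 2 = 64 * C ^ 2 := by ring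
  have h3 : (2 * (K * X) * (a * b)) ^ 2 = 4 * K * (K * (X * X * a ^ 2 * b ^ 2)) := by ring
  have h4 : (K * X * a ^ 2) * (X * b ^ 2) = K * (X * X * a ^ 2 * b ^ 2) := by ring
  have h5 : 0 ≤ K * (X * X * a ^ 2 * b ^ 2) := by positivity
  rw [h2, h3]
  have h6 : 16 * (K * (X * X * a ^ 2 * b ^ 2)) ≤ K * (K * (X * X * a ^ 2 * b ^ 2)) :=
    mul_le_mul_of_nonneg_right hK16 h5
  have h7 : 4 * K * (K * (X * X * a ^ 2 * b ^ 2)) = 4 * (K * (K * (X * X * a ^ 2 * b ^ 2))) := by ring
  rw [h7]
  rw [h4] at h1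
  linarith

lemma bonami_aux {p : ℝ} (h0 : 0 < p) (h1 : p < 1) (S : Finset E) :
    ∀ (q : ℕ) (𝒥 : Finset (Finset E)) (u : Finset E → ℝ),
    (∀ J ∈ 𝒥, J ⊆ S ∧ J.card ≤ q) →
    Ep p (fun x : E → Bool => polyF p 𝒥 u x ^ 4) ≤
      bK p ^ q * (Ep p (fun x : E → Bool => polyF p 𝒥 u x ^ 2)) ^ 2 := by
  have hq' : 0 < 1 - p := by linarith
  have hpq : 0 < p * (1 - p) := mul_pos h0 hq'
  have hK16 := bK_ge h0 h1
  induction S using Finset.induction_on with
  | empty =>
    intro q 𝒥 u h
    have hconst : ∀ x : E → Bool, polyF p 𝒥 u x = ∑ J ∈ 𝒥, u J := by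
      intro x
      unfold polyF
      apply Finset.sum_congr rfl
      intro J hJ
      have : J = ∅ := Finset.subset_empty.1 (h J hJ).1
      subst this
      simp [chi]
    simp only [hconst]
    rw [Ep_const, Ep_const]
    set c := ∑ J ∈ 𝒥, u J
    have h9 : (1 : ℝ) ≤ bK p ^ q := one_le_pow₀ (by linarith)
    have hc : 0 ≤ c ^ 4 := by positivity
    nlinarith
  | insert a S' ha IH =>
    intro q 𝒥 u h
    set 𝒥₀ := 𝒥.filter (fun J => a ∉ J) with h𝒥₀
    set 𝒥₁ := (𝒥.filter (fun J => a ∈ J)).image (fun J => J.erase a) with h𝒥₁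
    set u₁ : Finset E → ℝ := fun K => u (insert a K) with hu₁
    have h0' : ∀ J ∈ 𝒥₀, a ∉ J := fun J hJ => (Finset.mem_filter.1 hJ).2
    have h1' : ∀ K ∈ 𝒥₁, a ∉ K := by
      intro K hK
      obtain ⟨J, _, rfl⟩ := Finset.mem_image.1 hK
      exact Finset.notMem_erase a J
    set F₀ : (E → Bool) → ℝ := fun x => polyF p 𝒥₀ u x with hF₀
    set F₁ : (E → Bool) → ℝ := fun x => polyF p 𝒥₁ u₁ x with hF₁
    have hF : ∀ x, polyF p 𝒥 u x = F₀ x + chi1 p (x a) * F₁ x := fun x => polyF_split p 𝒥 u a x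
    have hF₀f : ∀ x b, F₀ (Function.update x a b) = F₀ x :=
      fun x b => polyF_update_of_forall p h0' u x b
    have hF₁f : ∀ x b, F₁ (Function.update x a b) = F₁ x :=
      fun x b => polyF_update_of_forall p h1' u₁ x b
    -- moments
    have hind : ∀ (ψ : Bool → ℝ) (Φ : (E → Bool) → ℝ),
        (∀ x b, Φ (Function.update x a b) = Φ x) →
        Ep p (fun x => ψ (x a) * Φ x) = (p * ψ true + (1 - p) * ψ false) * Ep p Φ :=
      fun ψ Φ hΦ => Ep_indep p a ψ Φ hΦ
    have m1 := chi1_mean h0 h1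
    have m2 := chi1_sq_mean h0 h1
    have hE2 : Ep p (fun x => polyF p 𝒥 u x ^ 2) = Ep p (fun x => F₀ x ^ 2) + Ep p (fun x => F₁ x ^ 2) := by
      have e : (fun x => polyF p 𝒥 u x ^ 2) = fun x => F₀ x ^ 2
          + (fun b => 2 * chi1 p b) (x a) * (F₀ x * F₁ x)
          + (fun b => chi1 p b ^ 2) (x a) * (F₁ x ^ 2) := by
        funext x
        rw [hF]
        ring
      rw [e, Ep_add, Ep_add, hind (fun b => 2 * chi1 p b) (fun x => F₀ x * F₁ x) (fun x b => by simp only [hF₀f, hF₁f]),
        hind (fun b => chi1 p b ^ 2) (fun x => F₁ x ^ 2) (fun x b => by simp only [hF₁f])]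
      have e1 : p * (2 * chi1 p true) + (1 - p) * (2 * chi1 p false) = 0 := by linarith
      rw [e1, m2]
      ring
    set s3 := p * chi1 p true ^ 3 + (1 - p) * chi1 p false ^ 3 with hs3
    set s4 := p * chi1 p true ^ 4 + (1 - p) * chi1 p false ^ 4 with hs4
    have hs3le : s3 ^ 2 ≤ 1 / (p * (1 - p)) := chi1_m3_sq h0 h1
    have hs4le : s4 ≤ 1 / (p * (1 - p)) := chi1_m4 h0 h1
    have hE4 : Ep p (fun x => polyF p 𝒥 u x ^ 4) = Ep p (fun x => F₀ x ^ 4)
        + 6 * Ep p (fun x => F₀ x ^ 2 * F₁ x ^ 2) + 4 * s3 * Ep p (fun x => F₀ x * F₁ x ^ 3)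
        + s4 * Ep p (fun x => F₁ x ^ 4) := by
      have e : (fun x => polyF p 𝒥 u x ^ 4) = fun x => F₀ x ^ 4
          + (fun b => 4 * chi1 p b) (x a) * (F₀ x ^ 3 * F₁ x)
          + (fun b => 6 * chi1 p b ^ 2) (x a) * (F₀ x ^ 2 * F₁ x ^ 2)
          + (fun b => 4 * chi1 p b ^ 3) (x a) * (F₀ x * F₁ x ^ 3)
          + (fun b => chi1 p b ^ 4) (x a) * (F₁ x ^ 4) := by
        funext x
        rw [hF]
        ring
      rw [e, Ep_add, Ep_add, Ep_add, Ep_add,
        hind (fun b => 4 * chi1 p b) (fun x => F₀ x ^ 3 * F₁ x) (fun x b => by simp only [hF₀f, hF₁f]),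
        hind (fun b => 6 * chi1 p b ^ 2) (fun x => F₀ x ^ 2 * F₁ x ^ 2) (fun x b => by simp only [hF₀f, hF₁f]),
        hind (fun b => 4 * chi1 p b ^ 3) (fun x => F₀ x * F₁ x ^ 3) (fun x b => by simp only [hF₀f, hF₁f]),
        hind (fun b => chi1 p b ^ 4) (fun x => F₁ x ^ 4) (fun x b => by simp only [hF₁f])]
      have e1 : p * (4 * chi1 p true) + (1 - p) * (4 * chi1 p false) = 0 := by linarith
      have e2 : p * (6 * chi1 p true ^ 2) + (1 - p) * (6 * chi1 p false ^ 2) = 6 := by linarith
      have e3 : p * (4 * chi1 p true ^ 3) + (1 - p) * (4 * chi1 p false ^ 3) = 4 * s3 := by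
        rw [hs3]; ring
      rw [e1, e2, e3]
      ring
    have hJ0 : ∀ J ∈ 𝒥₀, J ⊆ S' ∧ J.card ≤ q := by
      intro J hJ
      have hJ' := Finset.mem_filter.1 hJ
      refine ⟨?_, (h J hJ'.1).2⟩
      intro y hy
      rcases Finset.mem_insert.1 ((h J hJ'.1).1 hy) with rfl | hy'
      · exact absurd hy hJ'.2
      · exact hy'
    have hA := IH q 𝒥₀ u hJ0
    set a0 := Ep p (fun x => F₀ x ^ 2) with ha0
    set b0 := Ep p (fun x => F₁ x ^ 2) with hb0
    have ha0n : 0 ≤ a0 := Ep_nonneg h0 h1 fun x => by positivity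
    have hb0n : 0 ≤ b0 := Ep_nonneg h0 h1 fun x => by positivity
    rw [hE2, hE4]
    set A := Ep p (fun x => F₀ x ^ 4) with hAdef
    set B := Ep p (fun x => F₁ x ^ 4) with hBdef
    set C := Ep p (fun x => F₀ x ^ 2 * F₁ x ^ 2) with hCdef
    have hAn : 0 ≤ A := Ep_nonneg h0 h1 fun x => by positivity
    have hBn : 0 ≤ B := Ep_nonneg h0 h1 fun x => by positivity
    have hCn : 0 ≤ C := Ep_nonneg h0 h1 fun x => by positivity
    have hCS : C ^ 2 ≤ A * B := by
      have := Ep_cs h0 h1 (fun x => F₀ x ^ 2) (fun x => F₁ x ^ 2)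
      have e1 : (fun x => (F₀ x ^ 2) ^ 2) = fun x => F₀ x ^ 4 := by funext x; ring
      have e2 : (fun x => (F₁ x ^ 2) ^ 2) = fun x => F₁ x ^ 4 := by funext x; ring
      rw [e1, e2] at this
      exact this
    -- the mixed third-moment term
    have hmix : 4 * s3 * Ep p (fun x => F₀ x * F₁ x ^ 3) ≤ 2 * C + 2 * s3 ^ 2 * B := by
      have e : 4 * s3 * Ep p (fun x => F₀ x * F₁ x ^ 3)
          = Ep p (fun x => 4 * s3 * (F₀ x * F₁ x ^ 3)) := (Ep_mul_left _ _ _).symm
      have e' : 2 * C + 2 * s3 ^ 2 * B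
          = Ep p (fun x => 2 * (F₀ x ^ 2 * F₁ x ^ 2) + 2 * s3 ^ 2 * F₁ x ^ 4) := by
        rw [Ep_add, Ep_mul_left, Ep_mul_left]
      rw [e, e']
      apply Ep_mono h0 h1
      intro x
      have : 0 ≤ 2 * (F₀ x * F₁ x - s3 * F₁ x ^ 2) ^ 2 := by positivity
      nlinarith [this]
    have hKbig : 3 / (p * (1 - p)) ≤ bK p := by
      unfold bK
      apply div_le_div_of_nonneg_right _ hpq.le
      norm_num
    have hs34 : s4 + 2 * s3 ^ 2 ≤ bK p := by
      have : s4 + 2 * s3 ^ 2 ≤ 3 / (p * (1 - p)) := by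
        have e : 3 / (p * (1 - p)) = 1 / (p * (1 - p)) + 2 * (1 / (p * (1 - p))) := by ring
        rw [e]
        linarith
      linarith
    have hs4n : 0 ≤ s4 := by
      rw [hs4]
      positivity
    cases q with
    | zero =>
      have hemp : 𝒥.filter (fun J => a ∈ J) = ∅ := by
        apply Finset.filter_eq_empty_iff.2
        intro J hJ haJ
        have : J.card ≤ 0 := (h J hJ).2
        have : J = ∅ := Finset.card_eq_zero.1 (by omega)
        subst this
        exact absurd haJ (Finset.notMem_empty a)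
      have hF₁0 : ∀ x, F₁ x = 0 := by
        intro x
        simp [hF₁, h𝒥₁, hemp, polyF]
      have hb00 : b0 = 0 := by
        rw [hb0]
        simp only [hF₁0]
        simp [Ep]
      have hC : C = 0 := by
        rw [hCdef]
        simp only [hF₁0]
        simp [Ep]
      have hB : B = 0 := by
        rw [hBdef]
        simp only [hF₁0]
        simp [Ep]
      have hD : Ep p (fun x => F₀ x * F₁ x ^ 3) = 0 := by
        simp only [hF₁0]
        simp [Ep]
      rw [hC, hB, hb00, hD]
      simpa using hA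
    | succ q' =>
      have hJ1 : ∀ K ∈ 𝒥₁, K ⊆ S' ∧ K.card ≤ q' := by
        intro K hK
        obtain ⟨J, hJ, rfl⟩ := Finset.mem_image.1 hK
        have hJ' := Finset.mem_filter.1 hJ
        constructor
        · intro y hy
          have hy' := Finset.mem_erase.1 hy
          rcases Finset.mem_insert.1 ((h J hJ'.1).1 hy'.2) with hya | hy''
          · exact absurd hya hy'.1
          · exact hy''
        · have := (h J hJ'.1).2
          rw [Finset.card_erase_of_mem hJ'.2]
          omega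
      have hB := IH q' 𝒥₁ u₁ hJ1
      set X : ℝ := bK p ^ q' with hX
      have hXn : 0 ≤ X := by positivity
      have h9 : bK p ^ (q' + 1) = bK p * X := by rw [hX, pow_succ]; ring
      rw [h9] at hA ⊢
      have hKn : 0 ≤ bK p := by linarith
      have hCle : 8 * C ≤ 2 * (bK p * X) * (a0 * b0) :=
        bonami_alg1 (bK p) X C a0 b0 A B hK16 hXn ha0n hb0n hA hB hBn hCS
      have hBfin : (s4 + 2 * s3 ^ 2) * B ≤ bK p * X * b0 ^ 2 := by
        have h1 : (s4 + 2 * s3 ^ 2) * B ≤ bK p * B := mul_le_mul_of_nonneg_right hs34 hBn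
        have h2 : bK p * B ≤ bK p * (X * b0 ^ 2) := mul_le_mul_of_nonneg_left hB hKn
        calc (s4 + 2 * s3 ^ 2) * B ≤ bK p * (X * b0 ^ 2) := h1.trans h2
          _ = bK p * X * b0 ^ 2 := by ring
      have hexp : bK p * X * (a0 + b0) ^ 2 = bK p * X * a0 ^ 2 + 2 * (bK p * X) * (a0 * b0)
          + bK p * X * b0 ^ 2 := by ring
      rw [hexp]
      have h5 : (s4 + 2 * s3 ^ 2) * B = s4 * B + 2 * s3 ^ 2 * B := by ring
      linarith

/-- Bonami's lemma for the biased measure. -/
theorem bonami {p : ℝ} (h0 : 0 < p) (h1 : p < 1) (q : ℕ) (𝒥 : Finset (Finset E)) (u : Finset E → ℝ)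
    (h𝒥 : ∀ J ∈ 𝒥, J.card ≤ q) :
    Ep p (fun x : E → Bool => polyF p 𝒥 u x ^ 4) ≤
      bK p ^ q * (Ep p (fun x : E → Bool => polyF p 𝒥 u x ^ 2)) ^ 2 :=
  bonami_aux h0 h1 Finset.univ q 𝒥 u fun J hJ => ⟨Finset.subset_univ J, h𝒥 J hJ⟩

/-- Hoelder reduction (Lemma H).  `B` is any `0/1`-valued function that equals `1` on the support
of `F`; `σ = E B`.  For a family `𝒥` of sets of size at most `D`,
`(∑_{J ∈ 𝒥} F̂(J)²)² ≤ K^D σ (E F²)²`. -/
theorem lemmaH {p : ℝ} (h0 : 0 < p) (h1 : p < 1) (D : ℕ) (𝒥 : Finset (Finset E))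
    (h𝒥 : ∀ J ∈ 𝒥, J.card ≤ D) (F B : (E → Bool) → ℝ)
    (hB : ∀ x, B x = 0 ∨ B x = 1) (hFB : ∀ x, F x ≠ 0 → B x = 1) :
    (∑ J ∈ 𝒥, fhat p F J ^ 2) ^ 2 ≤ bK p ^ D * Ep p B * Ep p (fun x => F x ^ 2) ^ 2 := by
  set G := polyF p 𝒥 (fhat p F) with hG
  set W := ∑ J ∈ 𝒥, fhat p F J ^ 2 with hW
  set V := Ep p (fun x => F x ^ 2) with hV
  have hWn : 0 ≤ W := Finset.sum_nonneg fun _ _ => by positivity
  have hVn : 0 ≤ V := Ep_nonneg h0 h1 fun x => by positivity
  have hG2 : Ep p (fun x => G x ^ 2) = W := Ep_polyF_sq h0 h1 𝒥 (fhat p F)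
  have hGF : Ep p (fun x => (G x * B x) * F x) = W := by
    have e : (fun x => (G x * B x) * F x) = fun x => G x * F x := by
      funext x
      by_cases hF : F x = 0
      · simp [hF]
      · rw [hFB x hF, mul_one]
    rw [e]
    have : (fun x => G x * F x) = fun x => ∑ J ∈ 𝒥, fhat p F J * (F x * chi p J x) := by
      funext x
      rw [hG]
      unfold polyF
      rw [Finset.sum_mul]
      apply Finset.sum_congr rfl
      intro J _
      ring
    rw [this, Ep_sum]
    apply Finset.sum_congr rfl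
    intro J _
    rw [Ep_mul_left, sq]
    rfl
  have hB2 : ∀ x, B x ^ 2 = B x := by
    intro x
    rcases hB x with h | h <;> simp [h]
  have hBn : 0 ≤ Ep p B := Ep_nonneg h0 h1 fun x => by
    rcases hB x with h | h <;> simp [h]
  have cs1 : W ^ 2 ≤ Ep p (fun x => (G x * B x) ^ 2) * V := by
    have := Ep_cs h0 h1 (fun x => G x * B x) F
    rw [hGF] at this
    exact this
  have e2 : (fun x => (G x * B x) ^ 2) = fun x => G x ^ 2 * B x := by
    funext x
    rw [mul_pow, hB2]
  rw [e2] at cs1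
  have cs2 : Ep p (fun x => G x ^ 2 * B x) ^ 2 ≤ Ep p (fun x => G x ^ 4) * Ep p B := by
    have := Ep_cs h0 h1 (fun x => G x ^ 2) B
    have e3 : (fun x => (G x ^ 2) ^ 2) = fun x => G x ^ 4 := by funext x; ring
    rw [e3] at this
    simpa only [hB2] using this
  have hbon : Ep p (fun x => G x ^ 4) ≤ bK p ^ D * W ^ 2 := by
    have := bonami h0 h1 D 𝒥 (fhat p F) h𝒥
    rw [← hG, hG2] at this
    exact this
  set Y := Ep p (fun x => G x ^ 2 * B x) with hY
  have hYn : 0 ≤ Y := Ep_nonneg h0 h1 fun x => by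
    rcases hB x with h | h
    · simp [h]
    · simp only [h, mul_one]; positivity
  have hKn : 0 ≤ bK p ^ D := pow_nonneg (bK_pos h0 h1).le D
  have h4 : (W ^ 2) ^ 2 ≤ (bK p ^ D * W ^ 2 * Ep p B) * V ^ 2 := by
    calc (W ^ 2) ^ 2 ≤ (Y * V) ^ 2 := by
          apply pow_le_pow_left₀ (by positivity) cs1
      _ = Y ^ 2 * V ^ 2 := by ring
      _ ≤ (Ep p (fun x => G x ^ 4) * Ep p B) * V ^ 2 := by
          apply mul_le_mul_of_nonneg_right cs2 (by positivity)
      _ ≤ (bK p ^ D * W ^ 2 * Ep p B) * V ^ 2 := by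
          apply mul_le_mul_of_nonneg_right _ (by positivity)
          exact mul_le_mul_of_nonneg_right hbon hBn
  by_cases hW0 : W = 0
  · rw [hW0]
    have : 0 ≤ bK p ^ D * Ep p B * V ^ 2 := by positivity
    simpa using this
  · have hW2 : 0 < W ^ 2 := by positivity
    have : W ^ 2 * W ^ 2 ≤ W ^ 2 * (bK p ^ D * Ep p B * V ^ 2) := by nlinarith [h4]
    exact le_of_mul_le_mul_left this hW2

end Vale.Agent.P063
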