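import Vale.Agent.P063.Fourier

namespace Vale.Agent.P063

open Finset

variable {α : Type*} [DecidableEq α]
variable {p q r : ℝ}

/-- Cauchy-Schwarz for the expectation. -/
lemma E_cs (hp : 0 ≤ p) (hq : 0 ≤ q) (A : Finset α) (F G : Finset α → ℝ) :
    (E p q A (fun x => F x * G x)) ^ 2 ≤
      E p q A (fun x => F x ^ 2) * E p q A (fun x => G x ^ 2) := by
  unfold E
  have h := Finset.sum_mul_sq_le_sq_mul_sq A.powerset
    (fun x => Real.sqrt (wt p q A x) * F x) (fun x => Real.sqrt (wt p q A x) * G x)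
  have hw : ∀ x, Real.sqrt (wt p q A x) * Real.sqrt (wt p q A x) = wt p q A x := fun x =>
    Real.mul_self_sqrt (wt_nonneg hp hq A x)
  have e1 : ∀ x, (Real.sqrt (wt p q A x) * F x) * (Real.sqrt (wt p q A x) * G x)
      = wt p q A x * (F x * G x) := fun x => by
    calc _ = (Real.sqrt (wt p q A x) * Real.sqrt (wt p q A x)) * (F x * G x) := by ring
      _ = _ := by rw [hw]
  have e2 : ∀ (H : Finset α → ℝ) x, (Real.sqrt (wt p q A x) * H x) ^ 2 = wt p q A x * H x ^ 2 :=
    fun H x => by
    calc _ = (Real.sqrt (wt p q A x) * Real.sqrt (wt p q A x)) * H x ^ 2 := by ring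
      _ = _ := by rw [hw]
  simp only [e1, e2] at h
  exact h

lemma E_nonneg (hp : 0 ≤ p) (hq : 0 ≤ q) {A : Finset α} {F : Finset α → ℝ}
    (h : ∀ x, x ⊆ A → 0 ≤ F x) : 0 ≤ E p q A F := by
  unfold E
  apply Finset.sum_nonneg
  intro x hx
  exact mul_nonneg (wt_nonneg hp hq A x) (h x (Finset.mem_powerset.mp hx))

/-- The key pointwise inequality. -/
lemma pointwise_four (P : Params p q r) (u v : ℝ) :
    p * (u + (q / r) * v) ^ 4 + q * (u + (-p / r) * v) ^ 4 ≤
      u ^ 4 + 8 * (u ^ 2 * v ^ 2) + (3 / r ^ 2) * v ^ 4 := by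
  obtain ⟨hp, hq, hr, hpq, hrr⟩ := P
  set s : ℝ := 1 / r with hs
  have hs0 : s ^ 2 * r ^ 2 = 1 := by rw [hs]; field_simp
  have h1 : p * q * s ^ 2 = 1 := by rw [← hrr]; linarith [hs0]
  have e1 : q / r = q * s := by rw [hs]; ring
  have e2 : -p / r = -p * s := by rw [hs]; ring
  have e3 : 3 / r ^ 2 = 3 * s ^ 2 := by rw [hs]; field_simp
  rw [e1, e2, e3]
  have hq' : q = 1 - p := by linarith
  have id : p * (u + q * s * v) ^ 4 + q * (u + -p * s * v) ^ 4
      = u ^ 4 + 6 * (u ^ 2 * v ^ 2) + 4 * ((q - p) * s) * u * v ^ 3 + (s ^ 2 - 3) * v ^ 4 := by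
    subst hq'
    linear_combination
      (6 * u ^ 2 * v ^ 2 + 4 * ((1 - p - p) * s) * u * v ^ 3
        + (s ^ 2 - 3 * (p * (1 - p) * s ^ 2 + 1)) * v ^ 4) * h1
  rw [id]
  have hd : (q - p) ^ 2 ≤ 1 := by
    have : (q - p) ^ 2 = 1 - 4 * (p * q) := by
      rw [hq']; ring
    rw [this]; nlinarith [mul_pos hp hq]
  have h2 : 0 ≤ (u * v - (q - p) * s * v ^ 2) ^ 2 := sq_nonneg _
  have h3 : (q - p) ^ 2 * s ^ 2 * v ^ 4 ≤ s ^ 2 * v ^ 4 := by
    have : 0 ≤ s ^ 2 * v ^ 4 := by positivity
    nlinarith [this, hd]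
  have h4 : 0 ≤ v ^ 4 := by positivity
  nlinarith [h2, h3, h4]

lemma sixteen_le (P : Params p q r) : (16 : ℝ) ≤ 4 / r ^ 2 := by
  have h := P.r_sq_le
  have hr : 0 < r ^ 2 := by have := P.hr; positivity
  rw [le_div_iff₀ hr]
  linarith

/-- Bonami lemma (2 to 4 hypercontractive form), `B = 4 / r ^ 2`. -/
theorem bonami (P : Params p q r) (A : Finset α) (d : ℕ) (I : Finset (Finset α))
    (hI : ∀ S ∈ I, S ⊆ A ∧ S.card ≤ d) (c : Finset α → ℝ) :
    E p q A (fun x => poly p q r I c x ^ 4) ≤ (4 / r ^ 2) ^ d * (∑ S ∈ I, c S ^ 2) ^ 2 := by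
  have hB := sixteen_le P
  induction A using Finset.induction_on generalizing d I c with
  | empty =>
    simp only [E_empty]
    have hsub : I ⊆ {∅} := by
      intro S hS
      have := (hI S hS).1
      simp [Finset.subset_empty.mp this]
    have hB1 : (1:ℝ) ≤ (4 / r ^ 2) ^ d := one_le_pow₀ (by linarith)
    rcases Finset.subset_singleton_iff.mp hsub with h | h
    · subst h; simp [poly]
    · subst h
      simp only [poly, Finset.sum_singleton, chi, Finset.prod_empty, mul_one]
      have : 0 ≤ (c ∅ ^ 2) ^ 2 := by positivity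
      nlinarith [this, hB1]
  | insert e A he ih =>
    -- decomposition
    classical
    set I₀ := I.filter (fun S => e ∉ S) with hI₀
    set I₁ := (I.filter (fun S => e ∈ S)).image (fun S => S.erase e) with hI₁
    set c₁ : Finset α → ℝ := fun S => c (insert e S) with hc₁
    have hsum : ∑ S ∈ I, c S ^ 2 = ∑ S ∈ I₀, c S ^ 2 + ∑ S ∈ I₁, c₁ S ^ 2 := by
      rw [← Finset.sum_filter_add_sum_filter_not I (fun S => e ∉ S)]
      congr 1
      rw [hI₁, Finset.sum_image]
      · simp only [not_not, hc₁]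
        apply Finset.sum_congr rfl
        intro S hS
        rw [Finset.insert_erase (Finset.mem_filter.mp hS).2]
      · intro S hS T hT h
        have h1 := (Finset.mem_filter.mp hS).2
        have h2 := (Finset.mem_filter.mp hT).2
        have := congrArg (insert e) h
        simpa [Finset.insert_erase h1, Finset.insert_erase h2] using this
    have hpoly : ∀ x, poly p q r I c x =
        poly p q r I₀ c x + phi p q r e x * poly p q r I₁ c₁ x := by
      intro x
      unfold poly
      rw [← Finset.sum_filter_add_sum_filter_not I (fun S => e ∉ S)]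
      congr 1
      rw [hI₁, Finset.sum_image, Finset.mul_sum]
      · simp only [not_not, hc₁]
        apply Finset.sum_congr rfl
        intro S hS
        have hSe := (Finset.mem_filter.mp hS).2
        have hchi : chi p q r S x = phi p q r e x * chi p q r (S.erase e) x := by
          conv_lhs => rw [← Finset.insert_erase hSe]
          rw [chi_insert_left (by simp)]
        rw [hchi, Finset.insert_erase hSe]
        ring
      · intro S hS T hT h
        have h1 := (Finset.mem_filter.mp hS).2
        have h2 := (Finset.mem_filter.mp hT).2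
        have := congrArg (insert e) h
        simpa [Finset.insert_erase h1, Finset.insert_erase h2] using this
    have hI₀A : ∀ S ∈ I₀, S ⊆ A ∧ S.card ≤ d := by
      intro S hS
      have h1 := Finset.mem_filter.mp hS
      refine ⟨?_, (hI S h1.1).2⟩
      intro a ha
      have := (hI S h1.1).1 ha
      rcases Finset.mem_insert.mp this with h | h
      · exact absurd (h ▸ ha) h1.2
      · exact h
    have hI₁A : ∀ S ∈ I₁, S ⊆ A ∧ S.card ≤ d - 1 ∧ 1 ≤ d ∧ e ∉ S := by
      intro S hS
      obtain ⟨S', hS', rfl⟩ := Finset.mem_image.mp hS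
      have h1 := Finset.mem_filter.mp hS'
      have hc := (hI S' h1.1).2
      have hce := Finset.card_erase_of_mem h1.2
      have hpos : 0 < S'.card := Finset.card_pos.mpr ⟨e, h1.2⟩
      refine ⟨?_, by omega, by omega, by simp⟩
      intro a ha
      have ha' := Finset.mem_erase.mp ha
      have := (hI S' h1.1).1 ha'.2
      rcases Finset.mem_insert.mp this with h | h
      · exact absurd h ha'.1
      · exact h
    have he₀ : ∀ S ∈ I₀, e ∉ S := fun S hS => (Finset.mem_filter.mp hS).2
    have hinv₀ : ∀ x, poly p q r I₀ c (insert e x) = poly p q r I₀ c x := by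
      intro x
      unfold poly
      apply Finset.sum_congr rfl
      intro S hS
      rw [chi_insert_of_not_mem_right (he₀ S hS)]
    have hinv₁ : ∀ x, poly p q r I₁ c₁ (insert e x) = poly p q r I₁ c₁ x := by
      intro x
      unfold poly
      apply Finset.sum_congr rfl
      intro S hS
      rw [chi_insert_of_not_mem_right (hI₁A S hS).2.2.2]
    set u := poly p q r I₀ c with hu
    set v := poly p q r I₁ c₁ with hv
    set U := ∑ S ∈ I₀, c S ^ 2 with hU
    set V := ∑ S ∈ I₁, c₁ S ^ 2 with hV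
    have hU0 : 0 ≤ U := Finset.sum_nonneg fun _ _ => sq_nonneg _
    have hV0 : 0 ≤ V := Finset.sum_nonneg fun _ _ => sq_nonneg _
    have hp := P.hp.le
    have hq := P.hq.le
    -- expectation
    rw [E_insert p q he]
    have e1 : E p q A (fun x => poly p q r I c (insert e x) ^ 4)
        = E p q A (fun x => (u x + (q / r) * v x) ^ 4) := by
      apply E_congr
      intro x _
      rw [hpoly, hinv₀, hinv₁, phi_insert_self]
    have e2 : E p q A (fun x => poly p q r I c x ^ 4)
        = E p q A (fun x => (u x + (-p / r) * v x) ^ 4) := by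
      apply E_congr
      intro x hx
      rw [hpoly, phi_of_not_mem (fun h => he (hx h))]
    rw [e1, e2, ← E_const_mul, ← E_const_mul, ← E_add]
    have hpt : E p q A (fun x => p * (u x + (q / r) * v x) ^ 4 + q * (u x + (-p / r) * v x) ^ 4)
        ≤ E p q A (fun x => u x ^ 4 + 8 * (u x ^ 2 * v x ^ 2) + (3 / r ^ 2) * v x ^ 4) :=
      E_mono hp hq fun x _ => pointwise_four P (u x) (v x)
    refine hpt.trans ?_
    rw [E_add, E_add, E_const_mul, E_const_mul]
    have hu4 : E p q A (fun x => u x ^ 4) ≤ (4 / r ^ 2) ^ d * U ^ 2 :=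
      ih d I₀ hI₀A c
    set Xu := E p q A (fun x => u x ^ 4) with hXu
    set Xv := E p q A (fun x => v x ^ 4) with hXv
    set X := E p q A (fun x => u x ^ 2 * v x ^ 2) with hX
    have hXu0 : 0 ≤ Xu := E_nonneg hp hq fun x _ => by positivity
    have hXv0 : 0 ≤ Xv := E_nonneg hp hq fun x _ => by positivity
    have hX0 : 0 ≤ X := E_nonneg hp hq fun x _ => by positivity
    have hcs : X ^ 2 ≤ Xu * Xv := by
      have := E_cs hp hq A (fun x => u x ^ 2) (fun x => v x ^ 2)
      simp only [← pow_mul] at this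
      exact this
    set B : ℝ := 4 / r ^ 2 with hBdef
    rw [hsum]
    rcases Nat.eq_zero_or_pos d with hd | hd
    · -- `d = 0`: no sets through `e`
      subst hd
      have hI₁e : I₁ = ∅ := by
        apply Finset.eq_empty_of_forall_notMem
        intro S hS
        have := (hI₁A S hS).2.2.1
        omega
      have hv0 : ∀ x, v x = 0 := by
        intro x; rw [hv, hI₁e]; simp [poly]
      have hV00 : V = 0 := by rw [hV, hI₁e]; simp
      have hXv00 : Xv = 0 := by
        rw [hXv]; simp [hv0, E]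
      have hX00 : X = 0 := by
        rw [hX]; simp [hv0, E]
      rw [hXv00, hX00, hV00]
      simpa using hu4
    · obtain ⟨d', rfl⟩ : ∃ d', d = d' + 1 := ⟨d - 1, by omega⟩
      have hv4 : Xv ≤ B ^ d' * V ^ 2 :=
        ih d' I₁ (fun S hS => ⟨(hI₁A S hS).1, by have := (hI₁A S hS).2.1; omega⟩) c₁
      have hBd0 : 0 < B ^ d' := by positivity
      have hstep : 8 * X ≤ 2 * (B ^ (d' + 1) * (U * V)) := by
        have hsq : (8 * X) ^ 2 ≤ (2 * (B ^ (d' + 1) * (U * V))) ^ 2 := by
          have h1 : Xu * Xv ≤ (B ^ (d' + 1) * U ^ 2) * (B ^ d' * V ^ 2) :=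
            mul_le_mul hu4 hv4 hXv0 (by positivity)
          have h2 : (8 * X) ^ 2 = 64 * X ^ 2 := by ring
          have h3 : (2 * (B ^ (d' + 1) * (U * V))) ^ 2
              = 4 * B * (B ^ d' * B ^ d' * (U ^ 2 * V ^ 2)) * B := by
            rw [pow_succ]; ring
          rw [h2, h3]
          have h4 : X ^ 2 ≤ B * (B ^ d' * B ^ d' * (U ^ 2 * V ^ 2)) := by
            calc X ^ 2 ≤ _ := hcs
              _ ≤ _ := h1
              _ = _ := by rw [pow_succ]; ring
          have h5 : 0 ≤ B * (B ^ d' * B ^ d' * (U ^ 2 * V ^ 2)) := by positivity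
          nlinarith [h4, h5, hB]
        have h6 : 0 ≤ 2 * (B ^ (d' + 1) * (U * V)) := by positivity
        exact (pow_le_pow_iff_left₀ (by positivity) h6 (by norm_num)).mp hsq
      have h3v : (3 / r ^ 2) * Xv ≤ B ^ (d' + 1) * V ^ 2 := by
        have hr2 : 0 < 3 / r ^ 2 := by have := P.hr; positivity
        have h7 : (3 / r ^ 2) ≤ B := by
          rw [hBdef]
          have hr3 : 0 < r ^ 2 := by have := P.hr; positivity
          apply div_le_div_of_nonneg_right _ hr3.le
          norm_num
        calc (3 / r ^ 2) * Xv ≤ B * (B ^ d' * V ^ 2) :=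
              mul_le_mul h7 hv4 hXv0 (by positivity)
          _ = _ := by rw [pow_succ]; ring
      calc Xu + 8 * X + 3 / r ^ 2 * Xv
          ≤ B ^ (d' + 1) * U ^ 2 + 2 * (B ^ (d' + 1) * (U * V)) + B ^ (d' + 1) * V ^ 2 := by
            linarith
        _ = B ^ (d' + 1) * (U + V) ^ 2 := by ring

end Vale.Agent.P063
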