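import Vale.Agent.P063.Statement

/-!
Russo's formula for `μ_p`, and the threshold width from a lower bound on the derivative.
-/

open Finset

namespace Vale.Agent.P063.Thr

section Russo

variable {I : Type} [Fintype I] [DecidableEq I]

/-- The total influence: the sum over coordinates of the expected discrete derivative. -/
noncomputable def totalInf (p : ℝ) (A : Set (I → Bool)) : ℝ :=
  ∑ e, ∑ x, wt p x * (A.indicator 1 (Function.update x e true) - A.indicator 1 (Function.update x e false))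

lemma sum_split (e : I) (G : (I → Bool) → ℝ) :
    ∑ x, G x = ∑ x ∈ univ.filter (fun x : I → Bool => x e = true),
      (G x + G (Function.update x e false)) := by
  rw [Finset.sum_add_distrib, ← Finset.sum_filter_add_sum_filter_not univ (fun x : I → Bool => x e = true)]
  congr 1
  refine Finset.sum_nbij' (fun x => Function.update x e true) (fun x => Function.update x e false) ?_ ?_ ?_ ?_ ?_
  · intro x hx; simp
  · intro x hx; simp
  · intro x hx
    simp only [mem_filter, mem_univ, true_and, Bool.not_eq_true] at hx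
    funext j
    by_cases h : j = e
    · subst h; simp [hx]
    · simp [h]
  · intro x hx
    simp only [mem_filter, mem_univ, true_and] at hx
    funext j
    by_cases h : j = e
    · subst h; simp [hx]
    · simp [h]
  · intro x hx
    simp only [mem_filter, mem_univ, true_and, Bool.not_eq_true] at hx
    congr 1
    funext j
    by_cases h : j = e
    · subst h; simp [hx]
    · simp [h]

/-- The product over the coordinates other than `e`. -/
noncomputable def wtE (e : I) (p : ℝ) (x : I → Bool) : ℝ :=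
  ∏ i ∈ univ.erase e, if x i = true then p else 1 - p

lemma wt_eq (e : I) (p : ℝ) (x : I → Bool) :
    wt p x = (if x e = true then p else 1 - p) * wtE e p x := by
  unfold wt wtE
  exact (Finset.mul_prod_erase univ (fun i => if x i = true then p else 1 - p) (mem_univ e)).symm

lemma wtE_update (e : I) (p : ℝ) (x : I → Bool) (b : Bool) :
    wtE e p (Function.update x e b) = wtE e p x := by
  unfold wtE
  refine Finset.prod_congr rfl ?_
  intro i hi
  have : i ≠ e := (mem_erase.mp hi).1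
  simp [this]

lemma russo_term (e : I) (p : ℝ) (A : Set (I → Bool)) :
    ∑ x : I → Bool, wtE e p x * (if x e = true then 1 else -1) * A.indicator 1 x
      = ∑ x, wt p x * (A.indicator 1 (Function.update x e true) - A.indicator 1 (Function.update x e false)) := by
  rw [sum_split e, sum_split e (fun x => wt p x * _)]
  refine Finset.sum_congr rfl ?_
  intro x hx
  have hxe : x e = true := (mem_filter.mp hx).2
  have hup : Function.update x e true = x := by
    funext j
    by_cases h : j = e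
    · subst h; simp [hxe]
    · simp [h]
  rw [wt_eq e p x, wt_eq e p (Function.update x e false), wtE_update]
  simp only [Function.update_self, hxe, Function.update_idem, if_true, Bool.false_eq_true, if_false, hup]
  ring

/-- Russo's formula. -/
theorem hasDerivAt_mu (p : ℝ) (A : Set (I → Bool)) :
    HasDerivAt (fun q => mu q A) (totalInf p A) p := by
  have h1 : ∀ x : I → Bool, HasDerivAt (fun q => wt q x)
      (∑ e, wtE e p x * (if x e = true then 1 else -1)) p := by
    intro x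
    have : ∀ i ∈ (univ : Finset I), HasDerivAt (fun q : ℝ => if x i = true then q else 1 - q)
        (if x i = true then (1 : ℝ) else -1) p := by
      intro i _
      by_cases h : x i = true
      · simp only [h, if_true]; exact hasDerivAt_id p
      · simp only [h]; simpa using (hasDerivAt_id p).const_sub 1
    have h2 := HasDerivAt.fun_finsetProd this
    simpa [wtE, wt, smul_eq_mul] using h2
  have h3 : HasDerivAt (fun q => mu q A)
      (∑ x : I → Bool, (∑ e, wtE e p x * (if x e = true then 1 else -1)) * A.indicator 1 x) p := by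
    unfold mu
    exact HasDerivAt.fun_sum (fun x _ => (h1 x).mul_const _)
  convert h3 using 1
  unfold totalInf
  rw [← Finset.sum_congr rfl (fun e _ => russo_term e p A), Finset.sum_comm]
  refine Finset.sum_congr rfl ?_
  intro x _
  rw [Finset.sum_mul]

lemma wt_nonneg {p : ℝ} (h0 : 0 ≤ p) (h1 : p ≤ 1) (x : I → Bool) : 0 ≤ wt p x := by
  unfold wt
  refine Finset.prod_nonneg ?_
  intro i _
  split_ifs <;> linarith

lemma indicator_mono {A : Set (I → Bool)} (hA : ∀ x y : I → Bool, (∀ e, x e = true → y e = true) → x ∈ A → y ∈ A)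
    (x : I → Bool) (e : I) :
    0 ≤ A.indicator (1 : (I → Bool) → ℝ) (Function.update x e true) - A.indicator 1 (Function.update x e false) := by
  have hle : ∀ j, (Function.update x e false) j = true → (Function.update x e true) j = true := by
    intro j hj
    by_cases h : j = e
    · subst h; simp
    · simpa [h] using hj
  have := hA _ _ hle
  by_cases h1 : Function.update x e false ∈ A
  · have h2 := this h1
    simp [Set.indicator_of_mem, h1, h2]
  · rw [Set.indicator_of_notMem h1]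
    by_cases h2 : Function.update x e true ∈ A
    · simp [Set.indicator_of_mem, h2]
    · simp [Set.indicator_of_notMem, h2]

lemma totalInf_nonneg {A : Set (I → Bool)} (hA : ∀ x y : I → Bool, (∀ e, x e = true → y e = true) → x ∈ A → y ∈ A)
    {p : ℝ} (h0 : 0 ≤ p) (h1 : p ≤ 1) : 0 ≤ totalInf p A := by
  unfold totalInf
  refine Finset.sum_nonneg fun e _ => Finset.sum_nonneg fun x _ => ?_
  exact mul_nonneg (wt_nonneg h0 h1 x) (indicator_mono hA x e)

lemma continuous_mu (A : Set (I → Bool)) : Continuous (fun q => mu q A) :=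
  continuous_iff_continuousAt.mpr fun p => (hasDerivAt_mu p A).continuousAt

lemma monotoneOn_mu {A : Set (I → Bool)} (hA : ∀ x y : I → Bool, (∀ e, x e = true → y e = true) → x ∈ A → y ∈ A) :
    MonotoneOn (fun q => mu q A) (Set.Icc 0 1) := by
  refine monotoneOn_of_deriv_nonneg (convex_Icc 0 1) (continuous_mu A).continuousOn
    (fun p _ => (hasDerivAt_mu p A).differentiableAt.differentiableWithinAt) ?_
  intro p hp
  rw [interior_Icc] at hp
  rw [(hasDerivAt_mu p A).deriv]
  exact totalInf_nonneg hA hp.1.le hp.2.le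

lemma wt_one (x : I → Bool) : wt 1 x = if x = (fun _ => true) then 1 else 0 := by
  unfold wt
  by_cases h : x = fun _ => true
  · subst h; simp
  · rw [if_neg h]
    have : ∃ i, x i ≠ true := by
      by_contra hc
      push Not at hc
      exact h (funext hc)
    obtain ⟨i, hi⟩ := this
    refine Finset.prod_eq_zero (mem_univ i) ?_
    simp [hi]

lemma wt_zero (x : I → Bool) : wt 0 x = if x = (fun _ => false) then 1 else 0 := by
  unfold wt
  by_cases h : x = fun _ => false
  · subst h; simp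
  · rw [if_neg h]
    have : ∃ i, x i = true := by
      by_contra hc
      push Not at hc
      exact h (funext fun i => by simpa using hc i)
    obtain ⟨i, hi⟩ := this
    refine Finset.prod_eq_zero (mem_univ i) ?_
    simp [hi]

lemma mu_one (A : Set (I → Bool)) : mu 1 A = A.indicator 1 (fun _ => true) := by
  unfold mu
  simp only [wt_one, ite_mul, one_mul, zero_mul]
  simp

lemma mu_zero (A : Set (I → Bool)) : mu 0 A = A.indicator 1 (fun _ => false) := by
  unfold mu
  simp only [wt_zero, ite_mul, one_mul, zero_mul]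
  simp

end Russo

section Width

variable {I : Type} [Fintype I] [DecidableEq I]

/-- Under a derivative bound `K` where the variance is at least `ε (1 - ε)`, the width is at most `1 / K`. -/
theorem width_le_of_deriv {A : Set (I → Bool)}
    (hinc : ∀ x y : I → Bool, (∀ e, x e = true → y e = true) → x ∈ A → y ∈ A)
    (h1 : (fun _ => true) ∈ A) (h0 : (fun _ => false) ∉ A)
    {ε K : ℝ} (hε0 : 0 < ε) (hε1 : ε < 1 / 2) (hK : 0 < K)
    (key : ∀ p : ℝ, 0 < p → p < 1 → ε * (1 - ε) ≤ mu p A * (1 - mu p A) → K ≤ totalInf p A) :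
    width A ε ≤ 1 / K := by
  have hmono := monotoneOn_mu hinc
  have hm1 : mu 1 A = 1 := by rw [mu_one, Set.indicator_of_mem h1]; rfl
  have hm0 : mu 0 A = 0 := by rw [mu_zero, Set.indicator_of_notMem h0]
  have hcl : ∀ a : ℝ, IsClosed {p : ℝ | p ∈ Set.Icc (0 : ℝ) 1 ∧ a ≤ mu p A} := by
    intro a
    have : {p : ℝ | p ∈ Set.Icc (0 : ℝ) 1 ∧ a ≤ mu p A} = Set.Icc (0 : ℝ) 1 ∩ {p | a ≤ mu p A} := rfl
    rw [this]
    exact isClosed_Icc.inter (isClosed_le continuous_const (continuous_mu A))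
  have hbdd : ∀ a : ℝ, BddBelow {p : ℝ | p ∈ Set.Icc (0 : ℝ) 1 ∧ a ≤ mu p A} :=
    fun a => ⟨0, fun p hp => hp.1.1⟩
  have hne : ∀ a : ℝ, a ≤ 1 → {p : ℝ | p ∈ Set.Icc (0 : ℝ) 1 ∧ a ≤ mu p A}.Nonempty :=
    fun a ha => ⟨1, ⟨by norm_num, le_rfl⟩, by rw [hm1]; exact ha⟩
  have hmem : ∀ a : ℝ, a ≤ 1 → pThr A a ∈ {p : ℝ | p ∈ Set.Icc (0 : ℝ) 1 ∧ a ≤ mu p A} :=
    fun a ha => (hcl a).csInf_mem (hne a ha) (hbdd a)
  have hlt : ∀ a p : ℝ, p ∈ Set.Icc (0 : ℝ) 1 → p < pThr A a → mu p A < a := by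
    intro a p hp hpa
    by_contra hc
    push Not at hc
    exact absurd (csInf_le (hbdd a) ⟨hp, hc⟩) (not_le.mpr hpa)
  set a := pThr A ε with ha
  set b := pThr A (1 - ε) with hb
  have hKinv : 0 < 1 / K := by positivity
  have hwidth : width A ε = b - a := rfl
  rw [hwidth]
  rcases le_or_gt b a with hab | hab
  · linarith
  have hamem := hmem ε (by linarith)
  have hbmem := hmem (1 - ε) (by linarith)
  have ha0 : 0 < a := by
    rcases hamem.1.1.lt_or_eq with h | h
    · exact h
    · exfalso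
      have := hamem.2
      rw [← h, hm0] at this
      linarith
  have hb1 : b ≤ 1 := hbmem.1.2
  have hcont : ContinuousOn (fun q => mu q A) (Set.Icc a b) := (continuous_mu A).continuousOn
  have hderiv : ∀ x ∈ Set.Ioo a b, HasDerivAt (fun q => mu q A) (totalInf x A) x :=
    fun x _ => hasDerivAt_mu x A
  obtain ⟨c, hc, hcd⟩ := exists_hasDerivAt_eq_slope (fun q => mu q A) (fun x => totalInf x A) hab hcont hderiv
  have hc0 : 0 < c := ha0.trans hc.1
  have hc1 : c < 1 := lt_of_lt_of_le hc.2 hb1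
  have hcI : c ∈ Set.Icc (0 : ℝ) 1 := ⟨hc0.le, hc1.le⟩
  have hlow : ε ≤ mu c A := hamem.2.trans (hmono hamem.1 hcI hc.1.le)
  have hup : mu c A < 1 - ε := hlt _ c hcI hc.2
  have hvar : ε * (1 - ε) ≤ mu c A * (1 - mu c A) := by nlinarith
  have hKc := key c hc0 hc1 hvar
  have hfb : mu b A ≤ 1 := by
    have := hmono hbmem.1 (⟨by norm_num, le_rfl⟩ : (1 : ℝ) ∈ Set.Icc (0 : ℝ) 1) hb1
    simpa [hm1] using this
  have hfa : 0 ≤ mu a A := by
    have := hmono (⟨le_rfl, by norm_num⟩ : (0 : ℝ) ∈ Set.Icc (0 : ℝ) 1) hamem.1 ha0.le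
    simpa [hm0] using this
  have hba : 0 < b - a := by linarith
  rw [hcd] at hKc
  have h5 : K * (b - a) ≤ mu b A - mu a A := by
    rwa [le_div_iff₀ hba] at hKc
  rw [le_div_iff₀ hK]
  nlinarith

/-- The same with the derivative bound only for `p` in `(δ, 1 - δ)`. -/
theorem width_le_of_deriv_mid {A : Set (I → Bool)}
    (hinc : ∀ x y : I → Bool, (∀ e, x e = true → y e = true) → x ∈ A → y ∈ A)
    (h1 : (fun _ => true) ∈ A) (h0 : (fun _ => false) ∉ A)
    {ε K δ : ℝ} (hε0 : 0 < ε) (hε1 : ε < 1 / 2) (hK : 0 < K) (hδ : 0 ≤ δ)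
    (key : ∀ p : ℝ, 0 < p → p < 1 → δ < p → p < 1 - δ →
      ε * (1 - ε) ≤ mu p A * (1 - mu p A) → K ≤ totalInf p A) :
    width A ε ≤ 1 / K + 2 * δ := by
  have hmono := monotoneOn_mu hinc
  have hm1 : mu 1 A = 1 := by rw [mu_one, Set.indicator_of_mem h1]; rfl
  have hm0 : mu 0 A = 0 := by rw [mu_zero, Set.indicator_of_notMem h0]
  have hcl : ∀ a : ℝ, IsClosed {p : ℝ | p ∈ Set.Icc (0 : ℝ) 1 ∧ a ≤ mu p A} := by
    intro a
    have : {p : ℝ | p ∈ Set.Icc (0 : ℝ) 1 ∧ a ≤ mu p A} = Set.Icc (0 : ℝ) 1 ∩ {p | a ≤ mu p A} := rfl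
    rw [this]
    exact isClosed_Icc.inter (isClosed_le continuous_const (continuous_mu A))
  have hbdd : ∀ a : ℝ, BddBelow {p : ℝ | p ∈ Set.Icc (0 : ℝ) 1 ∧ a ≤ mu p A} :=
    fun a => ⟨0, fun p hp => hp.1.1⟩
  have hne : ∀ a : ℝ, a ≤ 1 → {p : ℝ | p ∈ Set.Icc (0 : ℝ) 1 ∧ a ≤ mu p A}.Nonempty :=
    fun a ha => ⟨1, ⟨by norm_num, le_rfl⟩, by rw [hm1]; exact ha⟩
  have hmem : ∀ a : ℝ, a ≤ 1 → pThr A a ∈ {p : ℝ | p ∈ Set.Icc (0 : ℝ) 1 ∧ a ≤ mu p A} :=
    fun a ha => (hcl a).csInf_mem (hne a ha) (hbdd a)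
  have hlt : ∀ a p : ℝ, p ∈ Set.Icc (0 : ℝ) 1 → p < pThr A a → mu p A < a := by
    intro a p hp hpa
    by_contra hc
    push Not at hc
    exact absurd (csInf_le (hbdd a) ⟨hp, hc⟩) (not_le.mpr hpa)
  set a := pThr A ε with ha
  set b := pThr A (1 - ε) with hb
  have hKinv : 0 < 1 / K := by positivity
  have hwidth : width A ε = b - a := rfl
  rw [hwidth]
  have hamem := hmem ε (by linarith)
  have hbmem := hmem (1 - ε) (by linarith)
  have ha0 : 0 < a := by
    rcases hamem.1.1.lt_or_eq with h | h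
    · exact h
    · exfalso
      have := hamem.2
      rw [← h, hm0] at this
      linarith
  have hb1 : b ≤ 1 := hbmem.1.2
  set a' := max a δ with ha'
  set b' := min b (1 - δ) with hb'
  have haa' : a ≤ a' := le_max_left _ _
  have hb'b : b' ≤ b := min_le_left _ _
  have hda' : δ ≤ a' := le_max_right _ _
  have hb'd : b' ≤ 1 - δ := min_le_right _ _
  have h_a' : a' - a ≤ δ := by
    rcases max_cases a δ with ⟨h, _⟩ | ⟨h, _⟩
    · rw [ha', h]; linarith
    · rw [ha', h]; linarith
  have h_b' : b - b' ≤ δ := by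
    rcases min_cases b (1 - δ) with ⟨h, _⟩ | ⟨h, _⟩
    · rw [hb', h]; linarith
    · rw [hb', h]; linarith
  rcases le_or_gt b' a' with hab | hab
  · linarith
  have hcont : ContinuousOn (fun q => mu q A) (Set.Icc a' b') := (continuous_mu A).continuousOn
  have hderiv : ∀ x ∈ Set.Ioo a' b', HasDerivAt (fun q => mu q A) (totalInf x A) x :=
    fun x _ => hasDerivAt_mu x A
  obtain ⟨c, hc, hcd⟩ := exists_hasDerivAt_eq_slope (fun q => mu q A) (fun x => totalInf x A) hab hcont hderiv
  have hca : a < c := lt_of_le_of_lt haa' hc.1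
  have hcb : c < b := lt_of_lt_of_le hc.2 hb'b
  have hc0 : 0 < c := ha0.trans hca
  have hc1 : c < 1 := lt_of_lt_of_le hcb hb1
  have hcI : c ∈ Set.Icc (0 : ℝ) 1 := ⟨hc0.le, hc1.le⟩
  have hlow : ε ≤ mu c A := hamem.2.trans (hmono hamem.1 hcI hca.le)
  have hup : mu c A < 1 - ε := hlt _ c hcI hcb
  have hvar : ε * (1 - ε) ≤ mu c A * (1 - mu c A) := by nlinarith
  have hKc := key c hc0 hc1 (lt_of_le_of_lt hda' hc.1) (lt_of_lt_of_le hc.2 hb'd) hvar
  have ha'I : a' ∈ Set.Icc (0 : ℝ) 1 := ⟨hamem.1.1.trans haa', by linarith [hc.1, hc1]⟩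
  have hb'I : b' ∈ Set.Icc (0 : ℝ) 1 := ⟨by linarith [hc.2, hc0], hb'b.trans hb1⟩
  have hfb : mu b' A ≤ 1 := by
    have := hmono hb'I (⟨by norm_num, le_rfl⟩ : (1 : ℝ) ∈ Set.Icc (0 : ℝ) 1) hb'I.2
    simpa [hm1] using this
  have hfa : 0 ≤ mu a' A := by
    have := hmono (⟨le_rfl, by norm_num⟩ : (0 : ℝ) ∈ Set.Icc (0 : ℝ) 1) ha'I ha'I.1
    simpa [hm0] using this
  have hba : 0 < b' - a' := by linarith
  rw [hcd] at hKc
  have h5 : K * (b' - a') ≤ mu b' A - mu a' A := by
    rwa [le_div_iff₀ hba] at hKc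
  have h6 : b' - a' ≤ 1 / K := by
    rw [le_div_iff₀ hK]
    nlinarith
  linarith

end Width

section Graph

variable {n : ℕ}

lemma IsGraphProp.top_mem {A : Set (Edge n → Bool)} (h : IsGraphProp A) : (fun _ => true) ∈ A := by
  obtain ⟨x, hx⟩ := h.nonempty
  exact h.increasing x _ (fun _ _ => rfl) hx

lemma IsGraphProp.bot_not_mem {A : Set (Edge n → Bool)} (h : IsGraphProp A) : (fun _ => false) ∉ A := by
  intro hb
  apply h.ne_univ
  refine Set.eq_univ_of_forall fun x => h.increasing _ x (fun _ he => ?_) hb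
  simp at he

/-- The derivative bound for graph properties. -/
def KeyBound : Prop :=
  ∀ v : ℝ, 0 < v → ∃ c : ℝ, 0 < c ∧ ∃ n0 : ℕ, ∀ n : ℕ, n0 ≤ n → ∀ A : Set (Edge n → Bool), IsGraphProp A →
    ∀ p : ℝ, 0 < p → p < 1 → v ≤ mu p A * (1 - mu p A) → c * (Real.log n) ^ 2 ≤ totalInf p A

lemma width_le_one {I : Type} [Fintype I] [DecidableEq I] {A : Set (I → Bool)} {ε : ℝ}
    (h1 : (fun _ => true) ∈ A) (hε0 : 0 < ε) (hε1 : ε < 1 / 2) : width A ε ≤ 1 := by
  have hm1 : mu 1 A = 1 := by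
    rw [mu_one, Set.indicator_of_mem h1]; rfl
  have hmem : ∀ a : ℝ, a ≤ 1 → ∃ p, p ∈ {p : ℝ | p ∈ Set.Icc (0 : ℝ) 1 ∧ a ≤ mu p A} :=
    fun a ha => ⟨1, ⟨by norm_num, le_rfl⟩, by rw [hm1]; exact ha⟩
  have hbdd : ∀ a : ℝ, BddBelow {p : ℝ | p ∈ Set.Icc (0 : ℝ) 1 ∧ a ≤ mu p A} :=
    fun a => ⟨0, fun p hp => hp.1.1⟩
  have hb : pThr A (1 - ε) ≤ 1 := by
    obtain ⟨p, hp⟩ := hmem (1 - ε) (by linarith)
    exact (csInf_le (hbdd _) hp).trans hp.1.2
  have ha : 0 ≤ pThr A ε := by
    obtain ⟨p, hp⟩ := hmem ε (by linarith)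
    exact le_csInf ⟨p, hp⟩ (fun q hq => hq.1.1)
  unfold width
  linarith

/-- The Friedgut-Kalai bound follows from the derivative bound. -/
theorem q1_of_key (key : KeyBound) :
    ∀ ε : ℝ, 0 < ε → ε < 1 / 2 → ∃ C : ℝ, ∀ n : ℕ, 2 ≤ n → ∀ A : Set (Edge n → Bool), IsGraphProp A →
      width A ε ≤ C / (Real.log n) ^ 2 := by
  intro ε hε0 hε1
  obtain ⟨c, hc, n0, hkey⟩ := key (ε * (1 - ε)) (by nlinarith)
  refine ⟨max (1 / c) ((Real.log n0) ^ 2), ?_⟩
  intro n hn A hA
  have hlogn : 0 < Real.log n := Real.log_pos (by exact_mod_cast (by omega : 1 < n))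
  have hlog2 : 0 < (Real.log n) ^ 2 := by positivity
  rcases le_or_gt n0 n with h | h
  · have h2 : width A ε ≤ 1 / (c * (Real.log n) ^ 2) :=
      width_le_of_deriv hA.increasing hA.top_mem hA.bot_not_mem hε0 hε1 (by positivity)
        (fun p hp0 hp1 hv => hkey n h A hA p hp0 hp1 hv)
    refine h2.trans ?_
    rw [one_div, mul_inv, ← one_div, ← div_eq_mul_inv]
    gcongr
    exact le_max_left _ _
  · have h1 := width_le_one (A := A) hA.top_mem hε0 hε1
    refine h1.trans ?_
    rw [le_div_iff₀ hlog2, one_mul]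
    refine le_trans ?_ (le_max_right _ _)
    have : Real.log n ≤ Real.log n0 :=
      Real.log_le_log (by exact_mod_cast (by omega : 0 < n)) (by exact_mod_cast h.le)
    gcongr

/-- The derivative bound for `p` away from the ends (`p (1 - p) ≥ 1 / (2 log² n)`). -/
def KeyBoundMid : Prop :=
  ∀ v : ℝ, 0 < v → ∃ c : ℝ, 0 < c ∧ ∃ n0 : ℕ, ∀ n : ℕ, n0 ≤ n → ∀ A : Set (Edge n → Bool), IsGraphProp A →
    ∀ p : ℝ, 0 < p → p < 1 → 1 / (2 * (Real.log n) ^ 2) ≤ p * (1 - p) →
      v ≤ mu p A * (1 - mu p A) → c * (Real.log n) ^ 2 ≤ totalInf p A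

/-- The Friedgut-Kalai bound from the derivative bound away from the ends. -/
theorem q1_of_keyMid (key : KeyBoundMid) :
    ∀ ε : ℝ, 0 < ε → ε < 1 / 2 → ∃ C : ℝ, ∀ n : ℕ, 2 ≤ n → ∀ A : Set (Edge n → Bool), IsGraphProp A →
      width A ε ≤ C / (Real.log n) ^ 2 := by
  intro ε hε0 hε1
  obtain ⟨c, hc, n0, hkey⟩ := key (ε * (1 - ε)) (by nlinarith)
  refine ⟨max (1 / c + 2) ((Real.log n0) ^ 2), ?_⟩
  intro n hn A hA
  have hlogn : 0 < Real.log n := Real.log_pos (by exact_mod_cast (by omega : 1 < n))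
  have hlog2 : 0 < (Real.log n) ^ 2 := by positivity
  rcases le_or_gt n0 n with h | h
  · have hδ : (0 : ℝ) ≤ 1 / (Real.log n) ^ 2 := by positivity
    have h2 : width A ε ≤ 1 / (c * (Real.log n) ^ 2) + 2 * (1 / (Real.log n) ^ 2) := by
      refine width_le_of_deriv_mid hA.increasing hA.top_mem hA.bot_not_mem hε0 hε1 (by positivity) hδ ?_
      intro p hp0 hp1 hpδ hpδ' hv
      refine hkey n h A hA p hp0 hp1 ?_ hv
      set δ := 1 / (Real.log n) ^ 2 with hδdef
      have hδ2 : 1 / (2 * (Real.log n) ^ 2) = δ / 2 := by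
        rw [hδdef]; field_simp
      rw [hδ2]
      rcases le_or_gt p (1 / 2) with hh | hh
      · nlinarith
      · nlinarith
    refine h2.trans ?_
    have h3 : 1 / (c * (Real.log n) ^ 2) + 2 * (1 / (Real.log n) ^ 2) = (1 / c + 2) / (Real.log n) ^ 2 := by
      field_simp
    rw [h3]
    gcongr
    exact le_max_left _ _
  · have h1 := width_le_one (A := A) hA.top_mem hε0 hε1
    refine h1.trans ?_
    rw [le_div_iff₀ hlog2, one_mul]
    refine le_trans ?_ (le_max_right _ _)
    have : Real.log n ≤ Real.log n0 :=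
      Real.log_le_log (by exact_mod_cast (by omega : 0 < n)) (by exact_mod_cast h.le)
    gcongr

end Graph

end Vale.Agent.P063.Thr
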