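import Vale.Agent.P063.Ranges
import Vale.Agent.P063.Width

/-!
From the cube `I → Bool` of the statement to the cube of finsets of the Fourier framework.
-/

namespace Vale.Agent.P063

open Finset

section transfer

variable {I : Type} [Fintype I] [DecidableEq I]

/-- The point of `I → Bool` with support `x`. -/
def toB (x : Finset I) : I → Bool := fun e => decide (e ∈ x)

/-- The support of a point of `I → Bool`. -/
def ofB (y : I → Bool) : Finset I := univ.filter (fun e => y e = true)

lemma toB_ofB (y : I → Bool) : toB (ofB y) = y := by
  funext e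
  by_cases h : y e = true <;> simp [toB, ofB, h]

lemma ofB_toB (x : Finset I) : ofB (toB x) = x := by
  ext e
  simp [toB, ofB]

/-- The indicator of a family of points, on finsets. -/
noncomputable def indF (A : Set (I → Bool)) (x : Finset I) : ℝ := A.indicator 1 (toB x)

lemma indF_zero_or_one (A : Set (I → Bool)) (x : Finset I) : indF A x = 0 ∨ indF A x = 1 := by
  unfold indF
  by_cases h : toB x ∈ A
  · right; simp [Set.indicator_of_mem h]
  · left; simp [Set.indicator_of_notMem h]

lemma wt_eq_wt (p : ℝ) (x : Finset I) : wt p (1 - p) univ x = Thr.wt p (toB x) := by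
  unfold wt Thr.wt toB
  apply Finset.prod_congr rfl
  intro e _
  by_cases h : e ∈ x <;> simp [h]

/-- The framework expectation over the whole ground set is the sum over the points. -/
lemma E_univ_eq (p : ℝ) (F : Finset I → ℝ) :
    E p (1 - p) univ F = ∑ y : I → Bool, Thr.wt p y * F (ofB y) := by
  unfold E
  rw [Finset.powerset_univ]
  refine Finset.sum_bij' (fun x _ => toB x) (fun y _ => ofB y) ?_ ?_ ?_ ?_ ?_
  · intro x _; exact mem_univ _
  · intro y _; exact mem_univ _
  · intro x _; exact ofB_toB x
  · intro y _; exact toB_ofB y
  · intro x _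
    rw [wt_eq_wt, ofB_toB]

/-- `mu` in the framework. -/
theorem mu_eq (p : ℝ) (A : Set (I → Bool)) : Thr.mu p A = E p (1 - p) univ (indF A) := by
  rw [E_univ_eq]
  unfold Thr.mu indF
  apply Finset.sum_congr rfl
  intro y _
  rw [toB_ofB]

/-- The square of an indicator. -/
lemma indF_sq (A : Set (I → Bool)) (x : Finset I) : indF A x ^ 2 = indF A x := by
  rcases indF_zero_or_one A x with h | h <;> simp [h]

/-- The variance of the indicator in the framework. -/
theorem var_eq (p : ℝ) (A : Set (I → Bool)) :
    E p (1 - p) univ (fun x => indF A x ^ 2) - E p (1 - p) univ (indF A) ^ 2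
      = Thr.mu p A * (1 - Thr.mu p A) := by
  rw [← mu_eq]
  have : (fun x => indF A x ^ 2) = indF A := by
    funext x; exact indF_sq A x
  rw [this, ← mu_eq]
  ring

lemma toB_insert (x : Finset I) (e : I) : toB (insert e x) = Function.update (toB x) e true := by
  funext a
  by_cases h : a = e
  · subst h; simp [toB]
  · simp [toB, h]

lemma toB_erase (x : Finset I) (e : I) : toB (x.erase e) = Function.update (toB x) e false := by
  funext a
  by_cases h : a = e
  · subst h; simp [toB]
  · simp [toB, h]

/-- A coordinate derivative as an expectation over the remaining coordinates. -/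
lemma inner_eq (p : ℝ) (F : Finset I → ℝ) (e : I) :
    E p (1 - p) univ (fun x => F (insert e x) - F (x.erase e))
      = E p (1 - p) (univ.erase e) (fun x => F (insert e x) - F x) := by
  have h : (univ : Finset I) = insert e (univ.erase e) := (Finset.insert_erase (mem_univ e)).symm
  have he : e ∉ (univ : Finset I).erase e := by simp
  conv_lhs => rw [h]
  rw [E_insert p (1 - p) he]
  have h1 : E p (1 - p) (univ.erase e) (fun x => F (insert e (insert e x)) - F ((insert e x).erase e))
      = E p (1 - p) (univ.erase e) (fun x => F (insert e x) - F x) := by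
    apply E_congr
    intro x hx
    have hxe : e ∉ x := fun h' => he (hx h')
    rw [Finset.insert_idem, Finset.erase_insert hxe]
  have h2 : E p (1 - p) (univ.erase e) (fun x => F (insert e x) - F (x.erase e))
      = E p (1 - p) (univ.erase e) (fun x => F (insert e x) - F x) := by
    apply E_congr
    intro x hx
    have hxe : e ∉ x := fun h' => he (hx h')
    rw [Finset.erase_eq_of_notMem hxe]
  rw [h1, h2]
  ring

/-- For an increasing family the total influence of the statement is the framework one. -/
theorem totalInf_eq (p : ℝ) (A : Set (I → Bool))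
    (hinc : ∀ x y : I → Bool, (∀ e, x e = true → y e = true) → x ∈ A → y ∈ A) :
    Thr.totalInf p A = totInfl p (1 - p) univ (indF A) := by
  unfold Thr.totalInf totInfl
  apply Finset.sum_congr rfl
  intro e _
  unfold infl
  have hmono : ∀ x : Finset I, (indF A (insert e x) - indF A x) ^ 2 = indF A (insert e x) - indF A x := by
    intro x
    have hle : toB x ∈ A → toB (insert e x) ∈ A := by
      apply hinc
      intro a ha
      simp only [toB, decide_eq_true_eq] at ha ⊢
      exact Finset.mem_insert_of_mem ha
    unfold indF
    by_cases h1 : toB x ∈ A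
    · have h2 := hle h1
      simp [Set.indicator_of_mem h1, Set.indicator_of_mem h2]
    · by_cases h2 : toB (insert e x) ∈ A
      · simp [Set.indicator_of_notMem h1, Set.indicator_of_mem h2]
      · simp [Set.indicator_of_notMem h1, Set.indicator_of_notMem h2]
  simp_rw [hmono]
  rw [← inner_eq, E_univ_eq]
  apply Finset.sum_congr rfl
  intro y _
  congr 1
  unfold indF
  rw [toB_insert, toB_erase, toB_ofB]

/-- Relabelling the ground set: expectations transform by the image. -/
lemma E_map_equiv (p q : ℝ) (π : I ≃ I) (B : Finset I) (G : Finset I → ℝ) :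
    E p q (B.map π.toEmbedding) G = E p q B (fun x => G (x.map π.toEmbedding)) := by
  induction B using Finset.induction_on generalizing G with
  | empty => simp
  | insert e B he ih =>
    have hne : π e ∉ B.map π.toEmbedding := by
      simp only [Finset.mem_map, not_exists, not_and]
      intro a ha h
      have : a = e := π.injective h
      exact he (this ▸ ha)
    rw [Finset.map_insert, Equiv.coe_toEmbedding, E_insert p q hne, ih, ih, E_insert p q he]
    congr 2
    apply E_congr
    intro x _
    rw [Finset.map_insert]
    rfl

end transfer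

section graph

variable {n : ℕ}

/-- A vertex permutation as a permutation of the edges. -/
def Edge.permEquiv (σ : Equiv.Perm (Fin n)) : Thr.Edge n ≃ Thr.Edge n where
  toFun := Thr.Edge.perm σ
  invFun := Thr.Edge.perm σ.symm
  left_inv := by
    intro e
    apply Subtype.ext
    simp [Thr.Edge.perm, Finset.map_map]
  right_inv := by
    intro e
    apply Subtype.ext
    simp [Thr.Edge.perm, Finset.map_map]

/-- The indicator of a graph property is invariant under relabelling of vertices. -/
theorem indF_map {A : Set (Thr.Edge n → Bool)} (hA : Thr.IsGraphProp A) (σ : Equiv.Perm (Fin n))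
    (x : Finset (Thr.Edge n)) :
    indF A (x.map (Edge.permEquiv σ).toEmbedding) = indF A x := by
  unfold indF
  have h := hA.invariant σ (toB (x.map (Edge.permEquiv σ).toEmbedding))
  have h2 : (fun e => toB (x.map (Edge.permEquiv σ).toEmbedding) (Thr.Edge.perm σ e)) = toB x := by
    funext e
    simp only [toB, decide_eq_decide, Finset.mem_map]
    constructor
    · rintro ⟨a, ha, hae⟩
      have : a = e := (Edge.permEquiv σ).injective hae
      exact this ▸ ha
    · intro he
      exact ⟨e, he, rfl⟩
  rw [h2] at h
  by_cases h1 : toB x ∈ A
  · rw [Set.indicator_of_mem h1, Set.indicator_of_mem (h.2 h1)]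
    rfl
  · rw [Set.indicator_of_notMem h1, Set.indicator_of_notMem (fun hh => h1 (h.1 hh))]

/-- Any edge can be moved to any other edge by a vertex permutation. -/
lemma edge_transitive (e f : Thr.Edge n) : ∃ σ : Equiv.Perm (Fin n), Edge.permEquiv σ e = f := by
  have hc : (e.1).card = (f.1).card := by rw [e.2, f.2]
  let g : {x // x ∈ e.1} ≃ {x // x ∈ f.1} := Finset.equivOfCardEq hc
  refine ⟨g.extendSubtype, ?_⟩
  apply Subtype.ext
  ext a
  simp only [Edge.permEquiv, Thr.Edge.perm, Equiv.coe_fn_mk, Finset.mem_map, Equiv.coe_toEmbedding]
  constructor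
  · rintro ⟨b, hb, rfl⟩
    rw [Equiv.extendSubtype_apply_of_mem g b hb]
    exact (g ⟨b, hb⟩).2
  · intro ha
    refine ⟨g.symm ⟨a, ha⟩, (g.symm ⟨a, ha⟩).2, ?_⟩
    rw [Equiv.extendSubtype_apply_of_mem g _ (g.symm ⟨a, ha⟩).2]
    simp

/-- All influences of a graph property are equal. -/
theorem infl_eq {A : Set (Thr.Edge n → Bool)} (hA : Thr.IsGraphProp A) (p q : ℝ) (e f : Thr.Edge n) :
    infl p q univ (indF A) e = infl p q univ (indF A) f := by
  obtain ⟨σ, rfl⟩ := edge_transitive e f
  unfold infl
  set π := Edge.permEquiv σ
  have h : (univ : Finset (Thr.Edge n)).erase (π e) = ((univ : Finset (Thr.Edge n)).erase e).map π.toEmbedding := by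
    ext a
    simp only [Finset.mem_erase, Finset.mem_univ, and_true, Finset.mem_map, Equiv.coe_toEmbedding, ne_eq]
    constructor
    · intro ha
      refine ⟨π.symm a, ?_, by simp⟩
      intro hh
      apply ha
      rw [← hh]; simp
    · rintro ⟨b, hb, rfl⟩
      exact fun hh => hb (π.injective hh)
  rw [h, E_map_equiv]
  apply E_congr
  intro x _
  have h1 : indF A (insert (π e) (x.map π.toEmbedding)) = indF A (insert e x) := by
    have : insert (π e) (x.map π.toEmbedding) = (insert e x).map π.toEmbedding := by
      rw [Finset.map_insert]; rfl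
    rw [this]
    exact indF_map hA σ _
  have h2 : indF A (x.map π.toEmbedding) = indF A x := indF_map hA σ x
  rw [h1, h2]

/-- Every influence of a graph property is the average influence. -/
theorem infl_eq_avg {A : Set (Thr.Edge n → Bool)} (hA : Thr.IsGraphProp A) (p q : ℝ) (e : Thr.Edge n) :
    (Fintype.card (Thr.Edge n) : ℝ) * infl p q univ (indF A) e = totInfl p q univ (indF A) := by
  unfold totInfl
  rw [Finset.sum_congr rfl (fun f _ => infl_eq hA p q f e), Finset.sum_const, nsmul_eq_mul, Finset.card_univ]

end graph

end Vale.Agent.P063
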