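import Mathlib

/-!
# Biased cube over a finite set, with points as finsets

`E p q A F` is the expectation of `F` over subsets `x` of `A`, each element present with
probability `p` (absent with probability `q`), where `p + q = 1`.
`chi r p q S x` is the product over `S` of the normalized one-coordinate characters.
-/

namespace Vale.Agent.P063

open Finset

variable {α : Type*} [DecidableEq α]

/-- Weight of the point `x` in the cube over `A`. -/
noncomputable def wt (p q : ℝ) (A x : Finset α) : ℝ := ∏ e ∈ A, if e ∈ x then p else q

/-- Expectation over the biased cube on `A`. -/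
noncomputable def E (p q : ℝ) (A : Finset α) (F : Finset α → ℝ) : ℝ :=
  ∑ x ∈ A.powerset, wt p q A x * F x

/-- Normalized one-coordinate character. -/
noncomputable def phi (p q r : ℝ) (e : α) (x : Finset α) : ℝ := if e ∈ x then q / r else -p / r

/-- Product character. -/
noncomputable def chi (p q r : ℝ) (S x : Finset α) : ℝ := ∏ e ∈ S, phi p q r e x

/-- Fourier coefficient over the cube on `A`. -/
noncomputable def coef (p q r : ℝ) (A : Finset α) (F : Finset α → ℝ) (S : Finset α) : ℝ :=
  E p q A fun x => F x * chi p q r S x

section basic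

variable (p q r : ℝ)

@[simp] lemma E_empty (F : Finset α → ℝ) : E p q (∅ : Finset α) F = F ∅ := by
  simp [E, wt]

lemma wt_insert_of_not_mem {e : α} {A x : Finset α} (he : e ∉ A) (hx : x ⊆ A) :
    wt p q (insert e A) x = q * wt p q A x := by
  have : e ∉ x := fun h => he (hx h)
  simp [wt, Finset.prod_insert he, this]

lemma wt_insert_insert {e : α} {A x : Finset α} (he : e ∉ A) :
    wt p q (insert e A) (insert e x) = p * wt p q A x := by
  unfold wt
  rw [Finset.prod_insert he]
  simp only [Finset.mem_insert, true_or, if_true]
  congr 1
  apply Finset.prod_congr rfl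
  intro a ha
  have : a ≠ e := fun h => he (h ▸ ha)
  simp [this]

/-- One-step decomposition of the expectation. -/
lemma E_insert {e : α} {A : Finset α} (he : e ∉ A) (F : Finset α → ℝ) :
    E p q (insert e A) F = p * E p q A (fun x => F (insert e x)) + q * E p q A F := by
  unfold E
  rw [Finset.sum_powerset_insert he, add_comm, Finset.mul_sum, Finset.mul_sum]
  congr 1
  · apply Finset.sum_congr rfl
    intro x _
    rw [wt_insert_insert p q he]; ring
  · apply Finset.sum_congr rfl
    intro x hx
    rw [wt_insert_of_not_mem p q he (Finset.mem_powerset.mp hx)]; ring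

lemma E_congr {A : Finset α} {F G : Finset α → ℝ} (h : ∀ x, x ⊆ A → F x = G x) :
    E p q A F = E p q A G := by
  unfold E
  apply Finset.sum_congr rfl
  intro x hx
  rw [h x (Finset.mem_powerset.mp hx)]

lemma wt_nonneg {p q : ℝ} (hp : 0 ≤ p) (hq : 0 ≤ q) (A x : Finset α) : 0 ≤ wt p q A x := by
  unfold wt
  apply Finset.prod_nonneg
  intro e _
  split_ifs <;> assumption

lemma E_mono {p q : ℝ} (hp : 0 ≤ p) (hq : 0 ≤ q) {A : Finset α} {F G : Finset α → ℝ}
    (h : ∀ x, x ⊆ A → F x ≤ G x) : E p q A F ≤ E p q A G := by
  unfold E
  apply Finset.sum_le_sum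
  intro x hx
  exact mul_le_mul_of_nonneg_left (h x (Finset.mem_powerset.mp hx)) (wt_nonneg hp hq A x)

lemma E_add (A : Finset α) (F G : Finset α → ℝ) :
    E p q A (fun x => F x + G x) = E p q A F + E p q A G := by
  unfold E
  rw [← Finset.sum_add_distrib]
  apply Finset.sum_congr rfl
  intro x _
  ring

lemma E_sub (A : Finset α) (F G : Finset α → ℝ) :
    E p q A (fun x => F x - G x) = E p q A F - E p q A G := by
  unfold E
  rw [← Finset.sum_sub_distrib]
  apply Finset.sum_congr rfl
  intro x _
  ring

lemma E_const_mul (c : ℝ) (A : Finset α) (F : Finset α → ℝ) :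
    E p q A (fun x => c * F x) = c * E p q A F := by
  unfold E
  rw [Finset.mul_sum]
  apply Finset.sum_congr rfl
  intro x _
  ring

lemma E_mul_const (c : ℝ) (A : Finset α) (F : Finset α → ℝ) :
    E p q A (fun x => F x * c) = E p q A F * c := by
  unfold E
  rw [Finset.sum_mul]
  apply Finset.sum_congr rfl
  intro x _
  ring

lemma E_sum {ι : Type*} (s : Finset ι) (A : Finset α) (F : ι → Finset α → ℝ) :
    E p q A (fun x => ∑ i ∈ s, F i x) = ∑ i ∈ s, E p q A (F i) := by
  unfold E
  simp_rw [Finset.mul_sum]
  rw [Finset.sum_comm]

end basic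

section normalized

variable {p q : ℝ}

lemma E_one (hpq : p + q = 1) (A : Finset α) : E p q A (fun _ => 1) = 1 := by
  induction A using Finset.induction_on with
  | empty => simp
  | insert e A he ih =>
    rw [E_insert p q he, ih]
    linarith

/-- The total mass: `E` of a constant. -/
lemma E_const (hpq : p + q = 1) (A : Finset α) (c : ℝ) : E p q A (fun _ => c) = c := by
  have := E_const_mul p q c A (fun _ => (1:ℝ))
  simpa [E_one hpq] using this

/-- Fubini: expectation over a disjoint union. -/
lemma E_union (A B : Finset α) (h : Disjoint A B) (F : Finset α → ℝ) :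
    E p q (A ∪ B) F = E p q B (fun z => E p q A (fun y => F (y ∪ z))) := by
  induction B using Finset.induction_on generalizing F with
  | empty => simp
  | insert e B he ih =>
    have h' : Disjoint A B := Finset.disjoint_of_subset_right (Finset.subset_insert _ _) h
    have heA : e ∉ A := fun hh =>
      (Finset.disjoint_left.mp h hh) (Finset.mem_insert_self _ _)
    have : A ∪ insert e B = insert e (A ∪ B) := by
      ext a; simp only [Finset.mem_union, Finset.mem_insert]; tauto
    rw [this, E_insert p q (by simp [heA, he]), E_insert p q he, ih h', ih h']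
    congr 2
    apply E_congr
    intro z _
    apply E_congr
    intro y _
    congr 1
    ext a; simp only [Finset.mem_union, Finset.mem_insert]; tauto

end normalized

end Vale.Agent.P063
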