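import Mathlib

/-!
Orbit counting for vertex permutations acting on edge sets: an edge set with `v` non-isolated
vertices has at least `choose n v` images, hence an invariant nonnegative function with bounded
sum over the orbit is small.
-/

namespace Vale.Agent.P063.Orbit

open Finset

variable {V E : Type*} [Fintype V] [DecidableEq V] [DecidableEq E]

/-- The set of vertices met by the edges of `T`. -/
def supp (ends : E → Finset V) (T : Finset E) : Finset V := T.biUnion ends

/-- The orbit of `T`. -/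
def orb (act : Equiv.Perm V → E → E) (T : Finset E) : Finset (Finset E) :=
  (univ : Finset (Equiv.Perm V)).image (fun π => T.image (act π))

lemma supp_image (ends : E → Finset V) (act : Equiv.Perm V → E → E)
    (hact : ∀ π e, ends (act π e) = (ends e).map π.toEmbedding) (π : Equiv.Perm V) (T : Finset E) :
    supp ends (T.image (act π)) = (supp ends T).map π.toEmbedding := by
  classical
  unfold supp
  ext a
  simp only [mem_biUnion, mem_image, mem_map, exists_exists_and_eq_and]
  constructor
  · rintro ⟨e, he, ha⟩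
    rw [hact, mem_map] at ha
    obtain ⟨b, hb, rfl⟩ := ha
    exact ⟨b, ⟨e, he, hb⟩, rfl⟩
  · rintro ⟨b, ⟨e, he, hb⟩, rfl⟩
    refine ⟨e, he, ?_⟩
    rw [hact, mem_map]
    exact ⟨b, hb, rfl⟩

/-- Two finite sets of the same size are related by a permutation. -/
lemma exists_perm_map (s t : Finset V) (h : s.card = t.card) :
    ∃ π : Equiv.Perm V, s.map π.toEmbedding = t := by
  classical
  let e0 : s ≃ t := Finset.equivOfCardEq h
  let e : {x // x ∈ s} ≃ {x // x ∈ t} := e0
  refine ⟨e.extendSubtype, ?_⟩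
  ext a
  simp only [mem_map, Equiv.coe_toEmbedding]
  constructor
  · rintro ⟨b, hb, rfl⟩
    exact Equiv.extendSubtype_mem e b hb
  · intro ha
    refine ⟨e.symm ⟨a, ha⟩, (e.symm ⟨a, ha⟩).2, ?_⟩
    rw [Equiv.extendSubtype_apply_of_mem e _ (e.symm ⟨a, ha⟩).2]
    simp

/-- An edge set meeting `v` vertices has at least `choose |V| v` images. -/
theorem choose_le_card_orb (ends : E → Finset V) (act : Equiv.Perm V → E → E)
    (hact : ∀ π e, ends (act π e) = (ends e).map π.toEmbedding) (T : Finset E) :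
    (Fintype.card V).choose (supp ends T).card ≤ (orb act T).card := by
  classical
  have hcard : (powersetCard (supp ends T).card (univ : Finset V)).card
      = (Fintype.card V).choose (supp ends T).card := by
    rw [card_powersetCard, card_univ]
  rw [← hcard]
  refine Finset.card_le_card_of_surjOn (supp ends) ?_
  intro U hU
  have hU' : U ∈ powersetCard (supp ends T).card (univ : Finset V) := hU
  have hc : (supp ends T).card = U.card := (mem_powersetCard.1 hU').2.symm
  obtain ⟨π, hπ⟩ := exists_perm_map (supp ends T) U hc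
  refine ⟨T.image (act π), ?_, ?_⟩
  · simp only [orb, coe_image, Set.mem_image, mem_coe, mem_univ, true_and]
    exact ⟨π, rfl⟩
  · rw [supp_image ends act hact, hπ]

/-- An invariant function is constant on the orbit. -/
theorem sum_orb_eq (act : Equiv.Perm V → E → E) (q : Finset E → ℝ)
    (hinv : ∀ π T, q (T.image (act π)) = q T) (T : Finset E) :
    ∑ T' ∈ orb act T, q T' = ((orb act T).card : ℝ) * q T := by
  classical
  have : ∀ T' ∈ orb act T, q T' = q T := by
    intro T' hT'
    obtain ⟨π, -, rfl⟩ := mem_image.1 hT'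
    exact hinv π T
  rw [Finset.sum_congr rfl this, Finset.sum_const, nsmul_eq_mul]

/-- An invariant nonnegative function with sum at most `C` over the orbit of `T` satisfies
`q T * choose n v ≤ C`. -/
theorem q_mul_choose_le (ends : E → Finset V) (act : Equiv.Perm V → E → E)
    (hact : ∀ π e, ends (act π e) = (ends e).map π.toEmbedding) (q : Finset E → ℝ)
    (hinv : ∀ π T, q (T.image (act π)) = q T) (T : Finset E) (hq : 0 ≤ q T) (C : ℝ)
    (hC : ∑ T' ∈ orb act T, q T' ≤ C) :
    q T * ((Fintype.card V).choose (supp ends T).card : ℝ) ≤ C := by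
  rw [sum_orb_eq act q hinv T] at hC
  have h := choose_le_card_orb ends act hact T
  have h' : ((Fintype.card V).choose (supp ends T).card : ℝ) ≤ ((orb act T).card : ℝ) := by
    exact_mod_cast h
  calc q T * ((Fintype.card V).choose (supp ends T).card : ℝ)
      ≤ q T * ((orb act T).card : ℝ) := mul_le_mul_of_nonneg_left h' hq
    _ = ((orb act T).card : ℝ) * q T := mul_comm _ _
    _ ≤ C := hC

/-- Division form. -/
theorem q_le_div_choose (ends : E → Finset V) (act : Equiv.Perm V → E → E)
    (hact : ∀ π e, ends (act π e) = (ends e).map π.toEmbedding) (q : Finset E → ℝ)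
    (hinv : ∀ π T, q (T.image (act π)) = q T) (T : Finset E) (hq : 0 ≤ q T) (C : ℝ)
    (hC : ∑ T' ∈ orb act T, q T' ≤ C)
    (hv : (supp ends T).card ≤ Fintype.card V) :
    q T ≤ C / ((Fintype.card V).choose (supp ends T).card : ℝ) := by
  have hpos : (0 : ℝ) < ((Fintype.card V).choose (supp ends T).card : ℝ) := by
    exact_mod_cast Nat.choose_pos hv
  rw [le_div_iff₀ hpos]
  exact q_mul_choose_le ends act hact q hinv T hq C hC

/-- Lower bound on binomial coefficients: `n ^ v ≤ choose n v * v ^ v` in the range `2 (v - 1) ≤ n`. -/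
theorem pow_le_choose_mul (n v : ℕ) (h : 2 * (v - 1) ≤ n) : n ^ v ≤ n.choose v * v ^ v := by
  induction v with
  | zero => simp
  | succ w ih =>
    rcases Nat.eq_zero_or_pos w with rfl | hw
    · simp
    have hw2 : 2 * w ≤ n := by simpa using h
    have hih : n ^ w ≤ n.choose w * w ^ w := ih (by omega)
    have hle : w ≤ n := by omega
    have hstep : n.choose (w + 1) * (w + 1) = n.choose w * (n - w) := Nat.choose_succ_right_eq n w
    have hbern : 2 * w ^ w ≤ (w + 1) ^ w := by
      have hb : ((1 : ℝ) + w * (1 / (w : ℝ))) ≤ (1 + 1 / (w : ℝ)) ^ w := by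
        exact one_add_mul_le_pow (by
          have : (0 : ℝ) ≤ 1 / (w : ℝ) := by positivity
          linarith) w
      have hw0 : (w : ℝ) ≠ 0 := by positivity
      have h1 : (w : ℝ) * (1 / (w : ℝ)) = 1 := by field_simp
      have h2 : (2 : ℝ) ≤ (1 + 1 / (w : ℝ)) ^ w := by
        rw [h1] at hb
        linarith
      have h3 : ((w : ℝ) + 1) ^ w = (1 + 1 / (w : ℝ)) ^ w * (w : ℝ) ^ w := by
        rw [← mul_pow]
        congr 1
        field_simp
      have h4 : (2 : ℝ) * (w : ℝ) ^ w ≤ ((w : ℝ) + 1) ^ w := by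
        rw [h3]
        exact mul_le_mul_of_nonneg_right h2 (by positivity)
      exact_mod_cast h4
    have hsub : n ≤ 2 * (n - w) := by omega
    calc n ^ (w + 1) = n ^ w * n := pow_succ n w
      _ ≤ (n.choose w * w ^ w) * (2 * (n - w)) := Nat.mul_le_mul hih hsub
      _ = n.choose w * (n - w) * (2 * w ^ w) := by ring
      _ ≤ n.choose w * (n - w) * (w + 1) ^ w := Nat.mul_le_mul_left _ hbern
      _ = n.choose (w + 1) * (w + 1) * (w + 1) ^ w := by rw [hstep]
      _ = n.choose (w + 1) * (w + 1) ^ (w + 1) := by rw [pow_succ (w + 1) w]; ring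

/-- In the range `v ^ 2 ≤ n`: `n ^ v ≤ (choose n v) ^ 2`. -/
theorem pow_le_choose_sq (n v : ℕ) (hn : 0 < n) (h : v ^ 2 ≤ n) : n ^ v ≤ (n.choose v) ^ 2 := by
  rcases Nat.eq_zero_or_pos v with rfl | hv
  · simp
  have h2 : 2 * (v - 1) ≤ n := by
    rcases Nat.lt_or_ge v 2 with h' | h'
    · have : v - 1 = 0 := by omega
      rw [this]; omega
    · nlinarith [Nat.sub_le v 1]
  have h1 := pow_le_choose_mul n v h2
  have h3 : (n ^ v) ^ 2 ≤ (n.choose v * v ^ v) ^ 2 := Nat.pow_le_pow_left h1 2
  have h4 : (v ^ v) ^ 2 ≤ n ^ v := by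
    calc (v ^ v) ^ 2 = (v ^ 2) ^ v := by rw [← pow_mul, ← pow_mul, mul_comm]
      _ ≤ n ^ v := Nat.pow_le_pow_left h v
  have h5 : (n ^ v) ^ 2 ≤ (n.choose v) ^ 2 * n ^ v := by
    calc (n ^ v) ^ 2 ≤ (n.choose v * v ^ v) ^ 2 := h3
      _ = (n.choose v) ^ 2 * (v ^ v) ^ 2 := by ring
      _ ≤ (n.choose v) ^ 2 * n ^ v := Nat.mul_le_mul_left _ h4
  have hp : 0 < n ^ v := pow_pos hn v
  have h6 : n ^ v * n ^ v ≤ (n.choose v) ^ 2 * n ^ v := by
    calc n ^ v * n ^ v = (n ^ v) ^ 2 := by ring
      _ ≤ _ := h5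
  exact Nat.le_of_mul_le_mul_right h6 hp

/-- Real form: `exp (v log n / 2) ≤ choose n v` when `v ^ 2 ≤ n`. -/
theorem exp_le_choose (n v : ℕ) (hn : 0 < n) (h : v ^ 2 ≤ n) :
    Real.exp ((v : ℝ) * Real.log n / 2) ≤ (n.choose v : ℝ) := by
  have h1 := pow_le_choose_sq n v hn h
  have h1' : ((n : ℝ)) ^ v ≤ (n.choose v : ℝ) ^ 2 := by exact_mod_cast h1
  have hnR : (0 : ℝ) < n := by exact_mod_cast hn
  have h2 : Real.exp ((v : ℝ) * Real.log n) = (n : ℝ) ^ v := by
    rw [← Real.rpow_natCast, Real.rpow_def_of_pos hnR]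
    congr 1
    ring
  have h3 : (Real.exp ((v : ℝ) * Real.log n / 2)) ^ 2 = (n : ℝ) ^ v := by
    rw [← h2, ← Real.exp_nat_mul]
    congr 1
    push_cast
    ring
  have h4 : (Real.exp ((v : ℝ) * Real.log n / 2)) ^ 2 ≤ (n.choose v : ℝ) ^ 2 := by
    rw [h3]; exact h1'
  exact (abs_le_of_sq_le_sq' h4 (by positivity)).2

end Vale.Agent.P063.Orbit
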