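import Vale.Agent.P063.Params
import Vale.Agent.P063.Orbit

/-!
The last summation of the third term: exchange of sums with a geometric bound, the bound for one
set `T`, and the inequality between the parameters for large `ell`.
-/

namespace Vale.Agent.P063.Exponent

open Finset Filter

variable {α : Type*} [DecidableEq α]

/-- `(1 + ρ) ^ m ≤ 1 + 2 m ρ` as soon as `m ρ ≤ 1 / 2`. -/
lemma one_add_pow_le {ρ : ℝ} (hρ : 0 ≤ ρ) (m : ℕ) (h : (m : ℝ) * ρ ≤ 1 / 2) :
    (1 + ρ) ^ m ≤ 1 + 2 * m * ρ := by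
  induction m with
  | zero => simp
  | succ k ih =>
    push_cast at h ⊢
    have hk : (k : ℝ) * ρ ≤ 1 / 2 := by nlinarith
    have h1 := ih hk
    rw [pow_succ]
    have h2 : (1 + ρ) ^ k * (1 + ρ) ≤ (1 + 2 * k * ρ) * (1 + ρ) :=
      mul_le_mul_of_nonneg_right h1 (by linarith)
    nlinarith

/-- The sum of `ρ ^ |T|` over the nonempty subsets of `S`. -/
lemma sum_nonempty_subsets {ρ : ℝ} (S : Finset α) :
    ∑ T ∈ S.powerset.erase ∅, ρ ^ T.card = (1 + ρ) ^ S.card - 1 := by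
  have h := Finset.sum_pow_mul_eq_add_pow ρ 1 S
  simp only [one_pow, mul_one] at h
  have h2 := Finset.add_sum_erase S.powerset (fun T => ρ ^ T.card) (Finset.empty_mem_powerset S)
  simp only [card_empty, pow_zero] at h2
  rw [add_comm ρ 1] at h
  linarith

/-- Exchange of sums with the geometric bound. -/
theorem swap_geom (calS calT : Finset (Finset α)) (c w : Finset α → ℝ)
    (hc : ∀ S ∈ calS, 0 ≤ c S) {ρ : ℝ} (hρ : 0 ≤ ρ) (M : ℕ)
    (hw : ∀ T ∈ calT, w T ≤ ρ ^ T.card) (hne : ∀ T ∈ calT, T.Nonempty)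
    (hS : ∀ S ∈ calS, S.card ≤ M) (hM : (M : ℝ) * ρ ≤ 1 / 2) :
    ∑ T ∈ calT, w T * ∑ S ∈ calS with T ⊆ S, c S ≤ 2 * M * ρ * ∑ S ∈ calS, c S := by
  have h1 : ∑ T ∈ calT, w T * ∑ S ∈ calS with T ⊆ S, c S
      = ∑ S ∈ calS, c S * ∑ T ∈ calT with T ⊆ S, w T := by
    simp_rw [Finset.mul_sum, Finset.sum_filter]
    rw [Finset.sum_comm]
    refine Finset.sum_congr rfl fun S _ => Finset.sum_congr rfl fun T _ => ?_
    split_ifs <;> ring
  rw [h1, Finset.mul_sum]
  refine Finset.sum_le_sum fun S hSm => ?_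
  rw [mul_comm]
  refine mul_le_mul_of_nonneg_right ?_ (hc S hSm)
  have h2 : ∑ T ∈ calT with T ⊆ S, w T ≤ ∑ T ∈ S.powerset.erase ∅, ρ ^ T.card := by
    calc ∑ T ∈ calT with T ⊆ S, w T ≤ ∑ T ∈ calT with T ⊆ S, ρ ^ T.card :=
          Finset.sum_le_sum fun T hT => hw T (Finset.mem_filter.mp hT).1
      _ ≤ ∑ T ∈ S.powerset.erase ∅, ρ ^ T.card := by
          apply Finset.sum_le_sum_of_subset_of_nonneg
          · intro T hT
            have := Finset.mem_filter.mp hT
            rw [Finset.mem_erase, Finset.mem_powerset]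
            exact ⟨(hne T this.1).ne_empty, this.2⟩
          · intro T _ _
            positivity
  rw [sum_nonempty_subsets] at h2
  have hcard : (S.card : ℝ) ≤ M := by exact_mod_cast hS S hSm
  have h3 : (S.card : ℝ) * ρ ≤ 1 / 2 :=
    (mul_le_mul_of_nonneg_right hcard hρ).trans hM
  have h4 := one_add_pow_le hρ S.card h3
  have h5 : 2 * (S.card : ℝ) * ρ ≤ 2 * M * ρ := by nlinarith
  linarith

/-- The bound for one set: size `t`, support of size `v`, degree `D ≤ 2 t / δ`, and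
`q * choose n v ≤ R ^ t`. -/
theorem per_T {n v t D : ℕ} (hn : 0 < n) (hv : v ^ 2 ≤ n) (htv : t ≤ 16 * v) {q R B δ : ℝ}
    (hq0 : 0 ≤ q) (hR : 0 < R) (hB : 1 ≤ B) (hδ : 0 < δ) (hD : (D : ℝ) ≤ 2 * t / δ)
    (hq : q * (n.choose v : ℝ) ≤ R ^ t) :
    Real.sqrt q * Real.sqrt (B ^ D)
      ≤ (Real.exp (Real.log B / δ + Real.log R / 2 - Real.log n / 64)) ^ t := by
  have hB0 : 0 < B := by linarith
  have hlogB : 0 ≤ Real.log B := Real.log_nonneg hB
  have hlogn : 0 ≤ Real.log n := Real.log_natCast_nonneg n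
  have hch := Vale.Agent.P063.Orbit.exp_le_choose n v hn hv
  have hexp0 : 0 < Real.exp ((v : ℝ) * Real.log n / 2) := Real.exp_pos _
  -- the bound for `q`
  have h1 : q ≤ R ^ t * Real.exp (-((v : ℝ) * Real.log n / 2)) := by
    rw [Real.exp_neg, ← div_eq_mul_inv, le_div_iff₀ hexp0]
    exact (mul_le_mul_of_nonneg_left hch hq0).trans hq
  have ht16 : (t : ℝ) ≤ 16 * v := by exact_mod_cast htv
  have h2 : q ≤ Real.exp ((t : ℝ) * Real.log R - (t : ℝ) * Real.log n / 32) := by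
    refine h1.trans ?_
    have hRt : R ^ t = Real.exp ((t : ℝ) * Real.log R) := by
      rw [← Real.rpow_natCast, Real.rpow_def_of_pos hR]; ring_nf
    rw [hRt, ← Real.exp_add]
    apply Real.exp_le_exp.mpr
    nlinarith
  have h3 : Real.sqrt q ≤ Real.exp (((t : ℝ) * Real.log R - (t : ℝ) * Real.log n / 32) / 2) := by
    rw [Real.exp_half]
    exact Real.sqrt_le_sqrt h2
  have h4 : Real.sqrt (B ^ D) ≤ Real.exp ((t : ℝ) * Real.log B / δ) := by
    have hBD : B ^ D = Real.exp ((D : ℝ) * Real.log B) := by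
      rw [← Real.rpow_natCast, Real.rpow_def_of_pos hB0]; ring_nf
    rw [hBD, ← Real.exp_half]
    apply Real.exp_le_exp.mpr
    have h5 : (D : ℝ) * Real.log B ≤ 2 * t / δ * Real.log B :=
      mul_le_mul_of_nonneg_right hD hlogB
    have h6 : 2 * (t : ℝ) / δ * Real.log B = 2 * ((t : ℝ) * Real.log B / δ) := by ring
    linarith
  calc Real.sqrt q * Real.sqrt (B ^ D)
      ≤ Real.exp (((t : ℝ) * Real.log R - (t : ℝ) * Real.log n / 32) / 2)
        * Real.exp ((t : ℝ) * Real.log B / δ) :=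
        mul_le_mul h3 h4 (Real.sqrt_nonneg _) (Real.exp_pos _).le
    _ = (Real.exp (Real.log B / δ + Real.log R / 2 - Real.log n / 64)) ^ t := by
        rw [← Real.exp_add, ← Real.exp_nat_mul]
        congr 1
        ring

open Vale.Agent.P063.Params

/-- All the small terms are eventually dominated: an elementary statement on `ell`. -/
lemma eventually_small (C : ℝ) :
    ∀ᶠ ell : ℝ in atTop, C + 64 * Real.log ell ≤ 30 / 4096 * ell := by
  have h1 := Real.isLittleO_log_id_atTop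
  have h2 := h1.bound (show (0 : ℝ) < 1 / 2 ^ 20 by norm_num)
  have h3 : ∀ᶠ ell : ℝ in atTop, C * 2 ^ 10 ≤ ell := eventually_ge_atTop _
  filter_upwards [h2, h3, eventually_ge_atTop (1 : ℝ)] with ell h4 h5 h6
  have h7 : Real.log ell ≤ 1 / 2 ^ 20 * ell := by
    have := (le_abs_self _).trans h4
    simpa [abs_of_nonneg (by linarith : (0 : ℝ) ≤ ell)] using this
  norm_num at *
  linarith

/-- The upper bound for `b`. -/
lemma bb_le {s2 ell : ℝ} (hl : 1 ≤ ell) (hs1 : 1 / (2 * ell ^ 2) ≤ s2) :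
    bb s2 ≤ Real.log 8 + 2 * Real.log ell := by
  have h0 : 0 < s2 := lt_of_lt_of_le (by positivity) hs1
  have hl0 : 0 < ell := by linarith
  unfold bb
  have h4 : 4 / s2 ≤ 8 * ell ^ 2 := by
    rw [div_le_iff₀ h0]
    have : 1 ≤ 2 * ell ^ 2 * s2 := by
      rw [div_le_iff₀ (by positivity)] at hs1
      linarith
    nlinarith
  have h5 : Real.log (4 / s2) ≤ Real.log (8 * ell ^ 2) :=
    Real.log_le_log (by positivity) h4
  rw [Real.log_mul (by norm_num) (by positivity), Real.log_pow] at h5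
  simpa using h5

/-- The list threshold, from the list bound `Lam` and the target `eps0`. -/
noncomputable def thetaOf (s2 eps0 Lam : ℝ) (d : ℕ) : ℝ :=
  (eps0 / (s2 * Real.sqrt ((4 / s2) ^ d) * Lam)) ^ 2

/-- The parameter inequality for large `ell`, for the explicit choice
`Lam = del * ell ^ 2 / eps0`. -/
theorem exponent_eventually {eps0 : ℝ} (h0 : 0 < eps0) (h1 : eps0 ≤ 1) :
    ∀ᶠ ell : ℝ in atTop, ∀ s2 : ℝ, 1 / (2 * ell ^ 2) ≤ s2 → s2 ≤ 1 / 4 → ∀ d : ℕ,
      (d : ℝ) ≤ 2 * (dl s2 ell * MM s2 ell) + 1 →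
      Real.log (4 * MM s2 ell) + Real.log (4 / s2) / dl s2 ell
        + Real.log ((dl s2 ell * ell ^ 2 / eps0) / thetaOf s2 eps0 (dl s2 ell * ell ^ 2 / eps0) d) / 2
        - ell / 64 ≤ - ell / 128 := by
  have hC : (0 : ℝ) ≤ - Real.log eps0 := by
    have := Real.log_nonpos h0.le h1
    linarith
  filter_upwards [eventually_small (Real.log 4 + 3 / 2 * Real.log 4096 + 2 * Real.log 8
    + 5 / 2 * (- Real.log eps0)), eventually_ge_atTop (1 : ℝ)] with ell hsmall hl s2 hs1 hs2 d hd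
  have hl0 : 0 < ell := by linarith
  have hs0 : 0 < s2 := lt_of_lt_of_le (by positivity) hs1
  have hb2 : 2 ≤ bb s2 := two_le_bb hs0 hs2
  have hb0 : 0 < bb s2 := by linarith
  have hbdef : Real.log (4 / s2) = bb s2 := rfl
  have hB0 : 0 < 4 / s2 := by positivity
  have hδ : 0 < dl s2 ell := by unfold dl; positivity
  have hM0 : 0 < MM s2 ell := by unfold MM bt; positivity
  have hlogl : 0 ≤ Real.log ell := Real.log_nonneg hl
  have hbub : bb s2 ≤ Real.log 8 + 2 * Real.log ell := bb_le hl hs1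
  -- the three pieces
  have hp1 : Real.log (4 * MM s2 ell) ≤ Real.log 4 + 2 * Real.log ell := by
    have h4 : 4 * MM s2 ell ≤ 4 * ell ^ 2 := by
      unfold MM bt
      have : (1 / 2 ^ 40 : ℝ) * s2 ≤ 1 := by nlinarith
      have h5 : (1 / 2 ^ 40 : ℝ) * s2 * ell ^ 2 ≤ 1 * ell ^ 2 :=
        mul_le_mul_of_nonneg_right this (by positivity)
      linarith
    have h5 := Real.log_le_log (by positivity) h4
    have h6 : Real.log (4 * ell ^ 2) = Real.log 4 + 2 * Real.log ell := by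
      rw [Real.log_mul (by norm_num) (by positivity), Real.log_pow]; norm_num
    linarith
  have hp2 : Real.log (4 / s2) / dl s2 ell = ell / 4096 := by
    rw [hbdef]; unfold dl; field_simp
  set Lam := dl s2 ell * ell ^ 2 / eps0 with hLam
  have hLam0 : 0 < Lam := by positivity
  have hlogLam : Real.log Lam ≤ Real.log 4096 + bb s2 + Real.log ell - Real.log eps0 := by
    have : Lam = 4096 * bb s2 * ell / eps0 := by
      rw [hLam]; unfold dl; field_simp
    rw [this, Real.log_div (by positivity) h0.ne', Real.log_mul (by positivity) hl0.ne',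
      Real.log_mul (by norm_num) hb0.ne']
    have := Real.log_le_sub_one_of_pos hb0
    linarith
  have hsq : Real.sqrt ((4 / s2) ^ d) = Real.exp ((d : ℝ) * bb s2 / 2) := by
    have hBD : (4 / s2) ^ d = Real.exp ((d : ℝ) * bb s2) := by
      rw [← Real.rpow_natCast, Real.rpow_def_of_pos hB0, hbdef]; ring_nf
    rw [hBD, ← Real.exp_half]
  have hX0 : 0 < s2 * Real.sqrt ((4 / s2) ^ d) * Lam := by positivity
  have hlogX : Real.log (s2 * Real.sqrt ((4 / s2) ^ d) * Lam)
      = Real.log s2 + (d : ℝ) * bb s2 / 2 + Real.log Lam := by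
    rw [Real.log_mul (by positivity) hLam0.ne', Real.log_mul hs0.ne' (by positivity), hsq,
      Real.log_exp]
  have hlogs : Real.log s2 ≤ 0 := Real.log_nonpos hs0.le (by linarith)
  have hdb : (d : ℝ) * bb s2 ≤ ell / 2 ^ 19 + bb s2 := by
    have h5 := dl_MM_bb_le hs0 hs2 hl0
    have h6 : (d : ℝ) * bb s2 ≤ (2 * (dl s2 ell * MM s2 ell) + 1) * bb s2 :=
      mul_le_mul_of_nonneg_right hd hb0.le
    have h7 : (2 * (dl s2 ell * MM s2 ell) + 1) * bb s2
        = 2 * (dl s2 ell * MM s2 ell * bb s2) + bb s2 := by ring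
    have h8 : ell / 2 ^ 19 = 2 * (ell / 2 ^ 20) := by ring
    linarith
  have hp3 : Real.log (Lam / thetaOf s2 eps0 Lam d)
      = 3 * Real.log Lam + 2 * Real.log s2 + (d : ℝ) * bb s2 - 2 * Real.log eps0 := by
    unfold thetaOf
    rw [Real.log_div hLam0.ne' (by positivity), Real.log_pow,
      Real.log_div h0.ne' hX0.ne', hlogX]
    push_cast
    ring
  rw [hp2, hp3]
  have hs' := hsmall
  have h30 : 30 / 4096 * ell + ell / 2 ^ 20 ≤ 31 / 4096 * ell := by
    have : (0:ℝ) ≤ ell := hl0.le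
    norm_num
    linarith
  nlinarith

/-- For large `ell`, the exponent is so small that `v ^ 2 ≤ n` for all relevant `v`. -/
theorem support_sq_le :
    ∀ᶠ ell : ℝ in atTop, ∀ s2 : ℝ, 0 < s2 → s2 ≤ 1 / 4 → ∀ d v : ℕ,
      (d : ℝ) ≤ 2 * (dl s2 ell * MM s2 ell) + 1 → v ≤ 2 * (d + 1) →
      (v : ℝ) ^ 2 ≤ Real.exp ell := by
  have hexp : ∀ᶠ ell : ℝ in atTop, (ell + 4) ^ 2 ≤ Real.exp ell := by
    have h1 : Tendsto (fun x : ℝ => Real.exp x / x ^ 2) atTop atTop :=
      Real.tendsto_exp_div_pow_atTop 2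
    filter_upwards [h1.eventually_ge_atTop 4, eventually_ge_atTop (4 : ℝ)] with x h2 h3
    have hx : 0 < x ^ 2 := by positivity
    rw [le_div_iff₀ hx] at h2
    nlinarith
  filter_upwards [hexp, eventually_ge_atTop (1 : ℝ)] with ell h1 hl s2 h0 hs2 d v hd hv
  have hl0 : 0 < ell := by linarith
  have hb2 : 2 ≤ bb s2 := two_le_bb h0 hs2
  have h5 := dl_MM_bb_le h0 hs2 hl0
  have hδM : 0 ≤ dl s2 ell * MM s2 ell := by
    unfold dl MM bt
    have := (bb_pos h0 hs2).le
    positivity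
  have h6 : dl s2 ell * MM s2 ell ≤ ell / 2 ^ 21 := by
    have h7 : dl s2 ell * MM s2 ell * 2 ≤ dl s2 ell * MM s2 ell * bb s2 :=
      mul_le_mul_of_nonneg_left hb2 hδM
    norm_num at *
    linarith
  have hv' : (v : ℝ) ≤ 2 * ((d : ℝ) + 1) := by exact_mod_cast hv
  have hv2 : (v : ℝ) ≤ ell + 4 := by
    norm_num at *
    linarith
  have hv0 : (0 : ℝ) ≤ v := by positivity
  calc (v : ℝ) ^ 2 ≤ (ell + 4) ^ 2 := pow_le_pow_left₀ hv0 hv2 2
    _ ≤ Real.exp ell := h1

/-- The explicit list bound. -/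
noncomputable def Lam0 (s2 ell eps0 : ℝ) : ℝ := dl s2 ell * ell ^ 2 / eps0

/-- The final bound for the summation of the third term, for all large `n`. -/
theorem term3_final {eps0 : ℝ} (h0 : 0 < eps0) (h1 : eps0 ≤ 1) :
    ∀ᶠ n : ℕ in atTop, ∀ s2 : ℝ, 1 / (2 * (Real.log n) ^ 2) ≤ s2 → s2 ≤ 1 / 4 → ∀ d : ℕ,
      (d : ℝ) ≤ 2 * (dl s2 (Real.log n) * MM s2 (Real.log n)) + 1 →
      ∀ (calS calT : Finset (Finset α)) (c q : Finset α → ℝ) (D v : Finset α → ℕ),
        (∀ S ∈ calS, 0 ≤ c S) → (∀ S ∈ calS, (S.card : ℝ) ≤ MM s2 (Real.log n)) →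
        (∀ T ∈ calT, T.Nonempty ∧ 0 ≤ q T ∧ T.card ≤ 16 * v T ∧ v T ≤ 2 * (d + 1) ∧
            (D T : ℝ) ≤ 2 * T.card / dl s2 (Real.log n) ∧
            q T * (n.choose (v T) : ℝ)
              ≤ (Lam0 s2 (Real.log n) eps0
                  / thetaOf s2 eps0 (Lam0 s2 (Real.log n) eps0) d) ^ T.card) →
      ∑ T ∈ calT, (Real.sqrt (q T) * Real.sqrt ((4 / s2) ^ D T)) * ∑ S ∈ calS with T ⊆ S, c S
        ≤ Real.exp (- Real.log n / 128) / 2 * ∑ S ∈ calS, c S := by
  have hlog : Tendsto (fun n : ℕ => Real.log (n : ℝ)) atTop atTop :=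
    Real.tendsto_log_atTop.comp tendsto_natCast_atTop_atTop
  filter_upwards [hlog.eventually (exponent_eventually h0 h1), hlog.eventually support_sq_le,
    hlog.eventually_ge_atTop (1 : ℝ), eventually_gt_atTop 0]
    with n hexpo hsupp hl hn s2 hs1 hs2 d hd calS calT c q D v hc hS hT
  set ell := Real.log (n : ℝ) with hell
  have hl0 : 0 < ell := by linarith
  have hs0 : 0 < s2 := lt_of_lt_of_le (by positivity) hs1
  have hb2 : 2 ≤ bb s2 := two_le_bb hs0 hs2
  have hb0 : 0 < bb s2 := by linarith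
  have hδ : 0 < dl s2 ell := by unfold dl; positivity
  have hM0 : 0 < MM s2 ell := by unfold MM bt; positivity
  have hB1 : 1 ≤ 4 / s2 := by
    rw [le_div_iff₀ hs0]; linarith
  have hB0 : 0 < 4 / s2 := by linarith
  set Lam := Lam0 s2 ell eps0 with hLam
  have hLam0 : 0 < Lam := by
    rw [hLam]; unfold Lam0; positivity
  have hth : 0 < thetaOf s2 eps0 Lam d := by
    unfold thetaOf; positivity
  have hR : 0 < Lam / thetaOf s2 eps0 Lam d := by positivity
  set x := Real.log (4 / s2) / dl s2 ell + Real.log (Lam / thetaOf s2 eps0 Lam d) / 2 - ell / 64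
    with hx
  have hex := hexpo s2 hs1 hs2 d hd
  have hexx : Real.log (4 * MM s2 ell) + x ≤ - ell / 128 := by
    have h2 : Lam = dl s2 ell * ell ^ 2 / eps0 := rfl
    rw [hx, h2]
    linarith
  set ρ := Real.exp x with hρ
  have hρ0 : 0 < ρ := Real.exp_pos _
  have hkey : 4 * MM s2 ell * ρ ≤ Real.exp (- ell / 128) := by
    have h4M : 0 < 4 * MM s2 ell := by positivity
    calc 4 * MM s2 ell * ρ = Real.exp (Real.log (4 * MM s2 ell) + x) := by
          rw [Real.exp_add, Real.exp_log h4M]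
      _ ≤ Real.exp (- ell / 128) := Real.exp_le_exp.mpr hexx
  have hexp1 : Real.exp (- ell / 128) ≤ 1 := by
    rw [Real.exp_le_one_iff]; linarith
  set M := ⌊MM s2 ell⌋₊ with hMdef
  have hMle : (M : ℝ) ≤ MM s2 ell := Nat.floor_le hM0.le
  have hSM : ∀ S ∈ calS, S.card ≤ M := fun S hSm => Nat.le_floor (hS S hSm)
  have hMρ : (M : ℝ) * ρ ≤ 1 / 2 := by
    have := mul_le_mul_of_nonneg_right hMle hρ0.le
    nlinarith
  have hsw := swap_geom calS calT c (fun T => Real.sqrt (q T) * Real.sqrt ((4 / s2) ^ D T)) hc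
    hρ0.le M ?_ (fun T hTm => (hT T hTm).1) hSM hMρ
  · refine hsw.trans ?_
    apply mul_le_mul_of_nonneg_right _ (Finset.sum_nonneg hc)
    have := mul_le_mul_of_nonneg_right hMle hρ0.le
    have h3 : -Real.log n / 128 = - ell / 128 := rfl
    rw [h3]
    nlinarith
  · intro T hTm
    obtain ⟨_, hq0, htv, hvd, hD, hq⟩ := hT T hTm
    have hnR : (0 : ℝ) < n := by exact_mod_cast hn
    have hv2 : (v T) ^ 2 ≤ n := by
      have h5 := hsupp s2 hs0 hs2 d (v T) hd hvd
      rw [hell, Real.exp_log hnR] at h5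
      exact_mod_cast h5
    exact per_T hn hv2 htv hq0 hR hB1 hδ hD hq

end Vale.Agent.P063.Exponent
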