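import Vale.Agent.P063.Bonami

/-!
# The middle range: pairing of the low-degree part `a` with the restricted coefficients `h`
-/

namespace Vale.Agent.P063

open Finset

variable {α : Type*} [DecidableEq α]

/-- Cauchy-Schwarz for weighted finite sums, nested form. -/
lemma sum_cs_nest {ι : Type*} (s : Finset ι) (w X U V : ι → ℝ) (hw : ∀ i ∈ s, 0 ≤ w i)
    (hU : ∀ i ∈ s, 0 ≤ U i) (hV : ∀ i ∈ s, 0 ≤ V i) (h : ∀ i ∈ s, X i ^ 2 ≤ U i * V i) :
    (∑ i ∈ s, w i * X i) ^ 2 ≤ (∑ i ∈ s, w i * U i) * (∑ i ∈ s, w i * V i) := by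
  exact Finset.sum_sq_le_sum_mul_sum_of_sq_le_mul s
    (fun i hi => mul_nonneg (hw i hi) (hU i hi)) (fun i hi => mul_nonneg (hw i hi) (hV i hi))
    (fun i hi => by
      have := mul_le_mul_of_nonneg_left (h i hi) (sq_nonneg (w i))
      nlinarith)

section E
variable {p q : ℝ}

/-- Cauchy-Schwarz for `E`, nested form. -/
lemma E_cs_nest (hp : 0 ≤ p) (hq : 0 ≤ q) (A : Finset α) (X U V : Finset α → ℝ)
    (hU : ∀ x, 0 ≤ U x) (hV : ∀ x, 0 ≤ V x) (h : ∀ x, X x ^ 2 ≤ U x * V x) :
    (E p q A X) ^ 2 ≤ E p q A U * E p q A V :=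
  sum_cs_nest _ _ _ _ _ (fun x _ => wt_nonneg hp hq A x) (fun x _ => hU x) (fun x _ => hV x)
    (fun x _ => h x)

end E

/-- Joint expectation over `J` (density `δ`) and `x` on the complement of `J`. -/
noncomputable def EE (p q δ : ℝ) (A : Finset α) (F : Finset α → Finset α → ℝ) : ℝ :=
  E δ (1 - δ) A fun J => E p q (A \ J) fun x => F J x

section EE
variable {p q δ : ℝ} {A : Finset α}

lemma EE_congr {F G : Finset α → Finset α → ℝ} (h : ∀ J x, F J x = G J x) :
    EE p q δ A F = EE p q δ A G := by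
  have : F = G := by funext J x; exact h J x
  rw [this]

lemma EE_add (F G : Finset α → Finset α → ℝ) :
    EE p q δ A (fun J x => F J x + G J x) = EE p q δ A F + EE p q δ A G := by
  unfold EE
  rw [← E_add]
  apply E_congr
  intro J _
  rw [E_add]

lemma EE_sum {ι : Type*} (s : Finset ι) (F : ι → Finset α → Finset α → ℝ) :
    EE p q δ A (fun J x => ∑ i ∈ s, F i J x) = ∑ i ∈ s, EE p q δ A (F i) := by
  unfold EE
  rw [← E_sum]
  apply E_congr
  intro J _
  rw [E_sum]

lemma EE_mono (hp : 0 ≤ p) (hq : 0 ≤ q) (h0 : 0 ≤ δ) (h1 : δ ≤ 1)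
    {F G : Finset α → Finset α → ℝ} (h : ∀ J x, F J x ≤ G J x) :
    EE p q δ A F ≤ EE p q δ A G := by
  unfold EE
  apply E_mono h0 (by linarith)
  intro J _
  apply E_mono hp hq
  intro x _
  exact h J x

lemma EE_nonneg (hp : 0 ≤ p) (hq : 0 ≤ q) (h0 : 0 ≤ δ) (h1 : δ ≤ 1)
    {F : Finset α → Finset α → ℝ} (h : ∀ J x, 0 ≤ F J x) : 0 ≤ EE p q δ A F :=
  E_nonneg h0 (by linarith) fun J _ => E_nonneg hp hq fun x _ => h J x

lemma EE_cs (hp : 0 ≤ p) (hq : 0 ≤ q) (h0 : 0 ≤ δ) (h1 : δ ≤ 1)
    (X U V : Finset α → Finset α → ℝ)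
    (hU : ∀ J x, 0 ≤ U J x) (hV : ∀ J x, 0 ≤ V J x) (h : ∀ J x, X J x ^ 2 ≤ U J x * V J x) :
    (EE p q δ A X) ^ 2 ≤ EE p q δ A U * EE p q δ A V := by
  unfold EE
  apply E_cs_nest h0 (by linarith)
  · intro J; exact E_nonneg hp hq fun x _ => hU J x
  · intro J; exact E_nonneg hp hq fun x _ => hV J x
  · intro J; exact E_cs_nest hp hq _ _ _ _ (hU J) (hV J) (h J)

lemma EE_one (hpq : p + q = 1) : EE p q δ A (fun _ _ => 1) = 1 := by
  unfold EE
  simp only [E_const hpq]
  exact E_const (by ring) A 1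

end EE

section restriction
variable {p q r : ℝ}

/-- Restricted coefficient `h_{J,T}(x)`. -/
noncomputable def hh (p q r : ℝ) (f : Finset α → ℝ) (J T x : Finset α) : ℝ :=
  coef p q r J (fun y => f (y ∪ x)) T

lemma chi_union_disj {T U x : Finset α} (h : Disjoint T U) :
    chi p q r (T ∪ U) x = chi p q r T x * chi p q r U x := by
  unfold chi
  exact Finset.prod_union h

/-- The Fourier coefficients of the restricted coefficient, in the outer variable. -/
lemma coef_hh (f : Finset α → ℝ) {A J T U : Finset α} (hJ : J ⊆ A) (hT : T ⊆ J)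
    (hU : U ⊆ A \ J) :
    coef p q r (A \ J) (hh p q r f J T) U = coef p q r A f (T ∪ U) := by
  have hA : J ∪ (A \ J) = A := Finset.union_sdiff_of_subset hJ
  have hdisj : Disjoint J (A \ J) := Finset.disjoint_sdiff
  have hTU : Disjoint T U := Finset.disjoint_of_subset_left hT
    (Finset.disjoint_of_subset_right hU hdisj)
  have e1 : coef p q r A f (T ∪ U) = E p q (A \ J) (fun z => E p q J (fun y =>
      f (y ∪ z) * chi p q r (T ∪ U) (y ∪ z))) := by
    conv_lhs => rw [coef, ← hA]
    rw [E_union J (A \ J) hdisj]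
  rw [e1]
  unfold coef hh coef
  apply E_congr
  intro z hz
  rw [← E_mul_const]
  apply E_congr
  intro y hy
  rw [chi_union_disj hTU]
  have h1 : chi p q r T (y ∪ z) = chi p q r T y := by
    apply chi_congr
    intro e he
    have hnz : e ∉ z := fun h => (Finset.mem_sdiff.mp (hz h)).2 (hT he)
    simp [hnz]
  have h2 : chi p q r U (y ∪ z) = chi p q r U z := by
    apply chi_congr
    intro e he
    have hny : e ∉ y := fun h => (Finset.mem_sdiff.mp (hU he)).2 (hy h)
    simp [hny]
  rw [h1, h2]; ring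

end restriction

section pairing

variable {p q r δ : ℝ} (A : Finset α) (f : Finset α → ℝ) (calS calT : Finset (Finset α))
  (good : Finset α → Finset α → Prop) [DecidableRel good]

/-- Index set of the low-degree part `a_{J,T}`. -/
noncomputable def II (J T : Finset α) : Finset (Finset α) :=
  (A \ J).powerset.filter fun U => T ∪ U ∈ calS ∧ good (T ∪ U) J

/-- The low-degree part `a_{J,T}(x)`. -/
noncomputable def aa (p q r : ℝ) (J T x : Finset α) : ℝ :=
  poly p q r (II A calS good J T) (fun U => coef p q r A f (T ∪ U)) x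

/-- The squared `L²` norm of `a_{J,T}`. -/
noncomputable def mass (p q r : ℝ) (J T : Finset α) : ℝ :=
  ∑ U ∈ II A calS good J T, coef p q r A f (T ∪ U) ^ 2

lemma II_subset (J T : Finset α) : II A calS good J T ⊆ (A \ J).powerset :=
  Finset.filter_subset _ _

lemma E_aa_sq (P : Params p q r) (J T : Finset α) :
    E p q (A \ J) (fun x => aa A f calS good p q r J T x ^ 2) = mass A f calS good p q r J T := by
  unfold aa mass
  exact E_poly_sq P (II_subset A calS good J T) _

lemma E_aa_hh (P : Params p q r) {J T : Finset α} (hJ : J ⊆ A) (hT : T ⊆ J) :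
    E p q (A \ J) (fun x => aa A f calS good p q r J T x * hh p q r f J T x)
      = mass A f calS good p q r J T := by
  unfold aa mass
  rw [E_poly_mul P (II_subset A calS good J T)]
  apply Finset.sum_congr rfl
  intro U hU
  have hU' : U ⊆ A \ J := Finset.mem_powerset.mp (II_subset A calS good J T hU)
  rw [coef_hh f hJ hT hU']
  ring

lemma mass_nonneg (J T : Finset α) : 0 ≤ mass A f calS good p q r J T :=
  Finset.sum_nonneg fun _ _ => sq_nonneg _

/-- Fiber decomposition of the good part of the spectrum over `T = S ∩ J`. -/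
lemma sum_mass (hS : ∀ S ∈ calS, S ⊆ A)
    (hgood : ∀ S ∈ calS, ∀ J, J ⊆ A → good S J → S ∩ J ∈ calT) {J : Finset α} (hJ : J ⊆ A) :
    ∑ T ∈ calT, (if T ⊆ J then mass A f calS good p q r J T else 0)
      = ∑ S ∈ calS, if good S J then coef p q r A f S ^ 2 else 0 := by
  rw [← Finset.sum_filter, ← Finset.sum_filter]
  have hmaps : ∀ S ∈ calS.filter (fun S => good S J), S ∩ J ∈ calT.filter (fun T => T ⊆ J) := by
    intro S hS'
    obtain ⟨h1, h2⟩ := Finset.mem_filter.mp hS'
    exact Finset.mem_filter.mpr ⟨hgood S h1 J hJ h2, Finset.inter_subset_right⟩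
  rw [← Finset.sum_fiberwise_of_maps_to hmaps]
  apply Finset.sum_congr rfl
  intro T hT
  have hTJ : T ⊆ J := (Finset.mem_filter.mp hT).2
  unfold mass
  apply Finset.sum_bij (fun U _ => T ∪ U)
  · intro U hU
    obtain ⟨h1, h2, h3⟩ := Finset.mem_filter.mp hU
    have hU' : U ⊆ A \ J := Finset.mem_powerset.mp h1
    refine Finset.mem_filter.mpr ⟨Finset.mem_filter.mpr ⟨h2, h3⟩, ?_⟩
    ext a
    simp only [Finset.mem_inter, Finset.mem_union]
    constructor
    · rintro ⟨h | h, h'⟩
      · exact h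
      · exact absurd h' (Finset.mem_sdiff.mp (hU' h)).2
    · intro h
      exact ⟨Or.inl h, hTJ h⟩
  · intro U hU U' hU' h
    have h1 : U ⊆ A \ J := Finset.mem_powerset.mp (Finset.mem_filter.mp hU).1
    have h2 : U' ⊆ A \ J := Finset.mem_powerset.mp (Finset.mem_filter.mp hU').1
    ext a
    constructor
    · intro ha
      have : a ∈ T ∪ U' := h ▸ Finset.mem_union_right _ ha
      rcases Finset.mem_union.mp this with h3 | h3
      · exact absurd (hTJ h3) (Finset.mem_sdiff.mp (h1 ha)).2
      · exact h3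
    · intro ha
      have : a ∈ T ∪ U := h ▸ Finset.mem_union_right _ ha
      rcases Finset.mem_union.mp this with h3 | h3
      · exact absurd (hTJ h3) (Finset.mem_sdiff.mp (h2 ha)).2
      · exact h3
  · intro S hS'
    obtain ⟨h1, h2⟩ := Finset.mem_filter.mp hS'
    obtain ⟨h3, h4⟩ := Finset.mem_filter.mp h1
    have hSA := hS S h3
    have hSU : T ∪ (S \ J) = S := by
      rw [← h2]
      ext a
      simp only [Finset.mem_union, Finset.mem_inter, Finset.mem_sdiff]
      tauto
    refine ⟨S \ J, ?_, hSU⟩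
    refine Finset.mem_filter.mpr ⟨Finset.mem_powerset.mpr ?_, ?_⟩
    · exact Finset.sdiff_subset_sdiff hSA (Finset.Subset.refl J)
    · rw [hSU]; exact ⟨h3, h4⟩
  · intro U _; rfl


/-- `W'`: the good part of the middle mass, averaged over `J`. -/
noncomputable def ww (p q r δ : ℝ) : ℝ :=
  E δ (1 - δ) A fun J => ∑ S ∈ calS, if good S J then coef p q r A f S ^ 2 else 0

/-- Probability of the good event of `S`. -/
noncomputable def Pg (δ : ℝ) (S : Finset α) : ℝ :=
  E δ (1 - δ) A fun J => if good S J then 1 else 0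

lemma ww_eq : ww A f calS good p q r δ = ∑ S ∈ calS, coef p q r A f S ^ 2 * Pg A good δ S := by
  unfold ww Pg
  rw [E_sum]
  apply Finset.sum_congr rfl
  intro S _
  rw [← E_const_mul]
  apply E_congr
  intro J _
  split_ifs <;> simp

lemma ww_nonneg (h0 : 0 ≤ δ) (h1 : δ ≤ 1) : 0 ≤ ww A f calS good p q r δ := by
  unfold ww
  apply E_nonneg h0 (by linarith)
  intro J _
  apply Finset.sum_nonneg
  intro S _
  split_ifs
  · exact sq_nonneg _
  · exact le_rfl

lemma quarter_le_ww (h : ∀ S ∈ calS, 1 / 4 ≤ Pg A good δ S) :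
    (∑ S ∈ calS, coef p q r A f S ^ 2) / 4 ≤ ww A f calS good p q r δ := by
  rw [ww_eq, Finset.sum_div]
  apply Finset.sum_le_sum
  intro S hS
  have := h S hS
  nlinarith [sq_nonneg (coef p q r A f S)]

section
variable (hS : ∀ S ∈ calS, S ⊆ A) (hgood : ∀ S ∈ calS, ∀ J, J ⊆ A → good S J → S ∩ J ∈ calT)
include hS hgood

/-- `W'` as the second moment of the `a`'s. -/
lemma ww_eq_aa_sq (P : Params p q r) :
    ∑ T ∈ calT, EE p q δ A
        (fun J x => if T ⊆ J then aa A f calS good p q r J T x ^ 2 else 0)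
      = ww A f calS good p q r δ := by
  rw [← EE_sum]
  unfold EE ww
  apply E_congr
  intro J hJ
  rw [← sum_mass A f calS calT good hS hgood hJ, E_sum]
  apply Finset.sum_congr rfl
  intro T _
  split_ifs with h
  · exact E_aa_sq A f calS good P J T
  · exact E_const P.hpq _ 0

/-- `W'` as the pairing of the `a`'s and the `h`'s. -/
lemma ww_eq_aa_hh (P : Params p q r) :
    ∑ T ∈ calT, EE p q δ A
        (fun J x => if T ⊆ J then aa A f calS good p q r J T x * hh p q r f J T x else 0)
      = ww A f calS good p q r δ := by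
  rw [← EE_sum]
  unfold EE ww
  apply E_congr
  intro J hJ
  rw [← sum_mass A f calS calT good hS hgood hJ, E_sum]
  apply Finset.sum_congr rfl
  intro T _
  split_ifs with h
  · exact E_aa_hh A f calS good P hJ h
  · exact E_const P.hpq _ 0

end

variable (bad : Finset α → Finset α → Finset α → Prop) [∀ J x T, Decidable (bad J x T)]

/-- The part of the `h` mass on the bad event. -/
noncomputable def Bad (p q r δ : ℝ) : ℝ :=
  ∑ T ∈ calT, EE p q δ A (fun J x => if T ⊆ J ∧ bad J x T then hh p q r f J T x ^ 2 else 0)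

/-- The probability of the `T`-event of Term 3. -/
noncomputable def qq (p q δ : ℝ) (T : Finset α) : ℝ :=
  EE p q δ A (fun J x => if T ⊆ J ∧ ¬ bad J x T then 1 else 0)

/-- The spectral mass above `T`, up to the degree bound `D`. -/
noncomputable def bb (p q r : ℝ) (D : ℕ → ℕ) (T : Finset α) : ℝ :=
  ∑ S ∈ calS.filter (fun S => T ⊆ S ∧ S.card ≤ D T.card), coef p q r A f S ^ 2

lemma bb_nonneg (D : ℕ → ℕ) (T : Finset α) : 0 ≤ bb A f calS p q r D T :=
  Finset.sum_nonneg fun _ _ => sq_nonneg _

lemma qq_nonneg (hp : 0 ≤ p) (hq : 0 ≤ q) (h0 : 0 ≤ δ) (h1 : δ ≤ 1) (T : Finset α) :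
    0 ≤ qq A bad p q δ T := by
  unfold qq
  apply EE_nonneg hp hq h0 h1
  intro J x
  split_ifs <;> norm_num

/-- Term 1 + Term 2, after Cauchy-Schwarz. -/
lemma term12_sq (P : Params p q r) (h0 : 0 ≤ δ) (h1 : δ ≤ 1)
    (hS : ∀ S ∈ calS, S ⊆ A) (hgood : ∀ S ∈ calS, ∀ J, J ⊆ A → good S J → S ∩ J ∈ calT) :
    (∑ T ∈ calT, EE p q δ A (fun J x => if T ⊆ J ∧ bad J x T then
        aa A f calS good p q r J T x * hh p q r f J T x else 0)) ^ 2
      ≤ ww A f calS good p q r δ * Bad A f calT bad p q r δ := by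
  have hp := P.hp.le
  have hq := P.hq.le
  have := sum_cs_nest calT (fun _ => (1:ℝ))
    (fun T => EE p q δ A (fun J x => if T ⊆ J ∧ bad J x T then
        aa A f calS good p q r J T x * hh p q r f J T x else 0))
    (fun T => EE p q δ A (fun J x => if T ⊆ J then aa A f calS good p q r J T x ^ 2 else 0))
    (fun T => EE p q δ A (fun J x => if T ⊆ J ∧ bad J x T then hh p q r f J T x ^ 2 else 0))
    (fun _ _ => zero_le_one)
    (fun T _ => EE_nonneg hp hq h0 h1 fun J x => by split_ifs <;> positivity)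
    (fun T _ => EE_nonneg hp hq h0 h1 fun J x => by split_ifs <;> positivity)
    (fun T _ => EE_cs hp hq h0 h1 _ _ _
      (fun J x => by split_ifs <;> positivity)
      (fun J x => by split_ifs <;> positivity)
      (fun J x => by
        by_cases h2 : T ⊆ J <;> by_cases h3 : bad J x T <;> simp [h2, h3]
        · nlinarith [sq_nonneg (aa A f calS good p q r J T x * hh p q r f J T x)]))
  simpa only [one_mul, Bad, ww_eq_aa_sq A f calS calT good hS hgood P] using this

/-- The `h`-mass of all `T` is at most one. -/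
lemma sum_hh_sq_le (P : Params p q r) {f : Finset α → ℝ} (hf : ∀ x, f x ^ 2 ≤ 1)
    (J x : Finset α) :
    ∑ T ∈ calT, (if T ⊆ J then hh p q r f J T x ^ 2 else 0) ≤ 1 := by
  rw [← Finset.sum_filter]
  have h1 : ∑ T ∈ calT.filter (fun T => T ⊆ J), hh p q r f J T x ^ 2
      ≤ ∑ T ∈ J.powerset, hh p q r f J T x ^ 2 := by
    apply Finset.sum_le_sum_of_subset_of_nonneg
    · intro T hT
      exact Finset.mem_powerset.mpr (Finset.mem_filter.mp hT).2
    · intro _ _ _; exact sq_nonneg _
  refine le_trans h1 ?_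
  unfold hh
  rw [← parseval_sq P]
  calc E p q J (fun y => f (y ∪ x) ^ 2) ≤ E p q J (fun _ => 1) :=
        E_mono P.hp.le P.hq.le fun y _ => hf _
    _ = 1 := E_one P.hpq J

/-- Term 3 for one `T`: the Hoelder inequality with exponents (4,2,4). -/
lemma term3_one (P : Params p q r) (h0 : 0 ≤ δ) (h1 : δ ≤ 1) {Bd : ℝ} (hBd : 0 ≤ Bd)
    (D : ℕ → ℕ)
    (hB : ∀ (A' : Finset α) (I : Finset (Finset α)) (c : Finset α → ℝ) (d : ℕ),
      I ⊆ A'.powerset → (∀ S ∈ I, S.card ≤ d) →
      E p q A' (fun x => poly p q r I c x ^ 4) ≤ Bd ^ d * (∑ S ∈ I, c S ^ 2) ^ 2)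
    (hD : ∀ S ∈ calS, ∀ J, J ⊆ A → good S J → S.card ≤ D (S ∩ J).card)
    (T : Finset α) :
    (EE p q δ A (fun J x => if T ⊆ J ∧ ¬ bad J x T then
        aa A f calS good p q r J T x * hh p q r f J T x else 0)) ^ 2
      ≤ (Real.sqrt (qq A bad p q δ T * Bd ^ D T.card) * bb A f calS p q r D T)
        * EE p q δ A (fun J x => if T ⊆ J then hh p q r f J T x ^ 2 else 0) := by
  have hp := P.hp.le
  have hq := P.hq.le
  have hH : 0 ≤ EE p q δ A (fun J x => if T ⊆ J then hh p q r f J T x ^ 2 else 0) :=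
    EE_nonneg hp hq h0 h1 fun J x => by split_ifs <;> positivity
  set AT := EE p q δ A (fun J x => if T ⊆ J ∧ ¬ bad J x T then
      aa A f calS good p q r J T x ^ 2 else 0) with hAT
  have hAT0 : 0 ≤ AT := EE_nonneg hp hq h0 h1 fun J x => by split_ifs <;> positivity
  have step1 : (EE p q δ A (fun J x => if T ⊆ J ∧ ¬ bad J x T then
        aa A f calS good p q r J T x * hh p q r f J T x else 0)) ^ 2
      ≤ AT * EE p q δ A (fun J x => if T ⊆ J then hh p q r f J T x ^ 2 else 0) := by
    apply EE_cs hp hq h0 h1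
    · intro J x; split_ifs <;> positivity
    · intro J x; split_ifs <;> positivity
    · intro J x
      by_cases h2 : T ⊆ J <;> by_cases h3 : bad J x T <;> simp [h2, h3]
      · nlinarith [sq_nonneg (aa A f calS good p q r J T x * hh p q r f J T x)]
  refine le_trans step1 (mul_le_mul_of_nonneg_right ?_ hH)
  -- the fourth moment
  set FT := EE p q δ A (fun J x => if T ⊆ J then aa A f calS good p q r J T x ^ 4 else 0) with hFT
  have step2 : AT ^ 2 ≤ qq A bad p q δ T * FT := by
    apply EE_cs hp hq h0 h1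
    · intro J x; split_ifs <;> norm_num
    · intro J x; split_ifs <;> positivity
    · intro J x
      by_cases h2 : T ⊆ J <;> by_cases h3 : bad J x T <;> simp [h2, h3]
      · nlinarith [sq_nonneg (aa A f calS good p q r J T x)]
  have hb0 := bb_nonneg A f calS (p := p) (q := q) (r := r) D T
  have step3 : FT ≤ Bd ^ D T.card * bb A f calS p q r D T ^ 2 := by
    have hconst : 0 ≤ Bd ^ D T.card * bb A f calS p q r D T ^ 2 := by positivity
    have h4 : E δ (1 - δ) A (fun _ => Bd ^ D T.card * bb A f calS p q r D T ^ 2)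
        = Bd ^ D T.card * bb A f calS p q r D T ^ 2 := E_const (by ring) A _
    rw [← h4, hFT]
    unfold EE
    apply E_mono h0 (by linarith)
    intro J hJ
    by_cases hTJ : T ⊆ J
    · simp only [hTJ, if_true]
      unfold aa
      refine le_trans (hB _ _ _ (D T.card) (II_subset A calS good J T) ?_) ?_
      · intro U hU
        obtain ⟨h5, h6, h7⟩ := Finset.mem_filter.mp hU
        have hU' : U ⊆ A \ J := Finset.mem_powerset.mp h5
        have h8 := hD _ h6 J hJ h7
        have h9 : (T ∪ U) ∩ J = T := by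
          ext a
          simp only [Finset.mem_inter, Finset.mem_union]
          constructor
          · rintro ⟨h | h, h'⟩
            · exact h
            · exact absurd h' (Finset.mem_sdiff.mp (hU' h)).2
          · intro h
            exact ⟨Or.inl h, hTJ h⟩
        rw [h9] at h8
        exact le_trans (Finset.card_le_card Finset.subset_union_right) h8
      · apply mul_le_mul_of_nonneg_left _ (pow_nonneg hBd _)
        apply pow_le_pow_left₀ (Finset.sum_nonneg fun _ _ => sq_nonneg _)
        -- `mass J T ≤ bb T`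
        unfold bb
        have hinj : Set.InjOn (fun U => T ∪ U) (II A calS good J T : Set (Finset α)) := by
          intro U hU U' hU' h
          have h1' : U ⊆ A \ J := Finset.mem_powerset.mp (Finset.mem_filter.mp hU).1
          have h2' : U' ⊆ A \ J := Finset.mem_powerset.mp (Finset.mem_filter.mp hU').1
          ext a
          constructor
          · intro ha
            have : a ∈ T ∪ U' := by
              have h' : T ∪ U = T ∪ U' := h
              exact h' ▸ Finset.mem_union_right _ ha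
            rcases Finset.mem_union.mp this with h3 | h3
            · exact absurd (hTJ h3) (Finset.mem_sdiff.mp (h1' ha)).2
            · exact h3
          · intro ha
            have : a ∈ T ∪ U := by
              have h' : T ∪ U = T ∪ U' := h
              exact h' ▸ Finset.mem_union_right _ ha
            rcases Finset.mem_union.mp this with h3 | h3
            · exact absurd (hTJ h3) (Finset.mem_sdiff.mp (h2' ha)).2
            · exact h3
        rw [← Finset.sum_image (f := fun S => coef p q r A f S ^ 2) hinj]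
        apply Finset.sum_le_sum_of_subset_of_nonneg
        · intro S hS'
          obtain ⟨U, hU, rfl⟩ := Finset.mem_image.mp hS'
          obtain ⟨h5, h6, h7⟩ := Finset.mem_filter.mp hU
          have hU' : U ⊆ A \ J := Finset.mem_powerset.mp h5
          have h8 := hD _ h6 J hJ h7
          have h9 : (T ∪ U) ∩ J = T := by
            ext a
            simp only [Finset.mem_inter, Finset.mem_union]
            constructor
            · rintro ⟨h | h, h'⟩
              · exact h
              · exact absurd h' (Finset.mem_sdiff.mp (hU' h)).2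
            · intro h
              exact ⟨Or.inl h, hTJ h⟩
          rw [h9] at h8
          exact Finset.mem_filter.mpr ⟨h6, Finset.subset_union_left, h8⟩
        · intro _ _ _; exact sq_nonneg _
    · simp only [hTJ, if_false]
      rw [E_const P.hpq]
      exact hconst
  -- combine
  have hq0 := qq_nonneg A bad hp hq h0 h1 T
  have h5 : AT ^ 2 ≤ (Real.sqrt (qq A bad p q δ T * Bd ^ D T.card) * bb A f calS p q r D T) ^ 2 := by
    rw [mul_pow, Real.sq_sqrt (mul_nonneg hq0 (pow_nonneg hBd _))]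
    calc AT ^ 2 ≤ qq A bad p q δ T * FT := step2
      _ ≤ qq A bad p q δ T * (Bd ^ D T.card * bb A f calS p q r D T ^ 2) :=
          mul_le_mul_of_nonneg_left step3 hq0
      _ = _ := by ring
  exact abs_le_of_sq_le_sq' h5 (mul_nonneg (Real.sqrt_nonneg _) hb0) |>.2

/-- The remainder of Term 3. -/
noncomputable def RR (p q r δ Bd : ℝ) (D : ℕ → ℕ) : ℝ :=
  ∑ T ∈ calT, Real.sqrt (qq A bad p q δ T * Bd ^ D T.card) * bb A f calS p q r D T

/-- Term 3, after Cauchy-Schwarz over `T`. -/
lemma term3_sq (P : Params p q r) (h0 : 0 ≤ δ) (h1 : δ ≤ 1) {Bd : ℝ} (hBd : 0 ≤ Bd)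
    (D : ℕ → ℕ)
    (hB : ∀ (A' : Finset α) (I : Finset (Finset α)) (c : Finset α → ℝ) (d : ℕ),
      I ⊆ A'.powerset → (∀ S ∈ I, S.card ≤ d) →
      E p q A' (fun x => poly p q r I c x ^ 4) ≤ Bd ^ d * (∑ S ∈ I, c S ^ 2) ^ 2)
    (hD : ∀ S ∈ calS, ∀ J, J ⊆ A → good S J → S.card ≤ D (S ∩ J).card)
    (hf : ∀ x, f x ^ 2 ≤ 1) :
    (∑ T ∈ calT, EE p q δ A (fun J x => if T ⊆ J ∧ ¬ bad J x T then
        aa A f calS good p q r J T x * hh p q r f J T x else 0)) ^ 2
      ≤ RR A f calS calT bad p q r δ Bd D := by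
  have hp := P.hp.le
  have hq := P.hq.le
  have hR : 0 ≤ RR A f calS calT bad p q r δ Bd D :=
    Finset.sum_nonneg fun T _ => mul_nonneg (Real.sqrt_nonneg _) (bb_nonneg A f calS D T)
  have := sum_cs_nest calT (fun _ => (1:ℝ))
    (fun T => EE p q δ A (fun J x => if T ⊆ J ∧ ¬ bad J x T then
        aa A f calS good p q r J T x * hh p q r f J T x else 0))
    (fun T => Real.sqrt (qq A bad p q δ T * Bd ^ D T.card) * bb A f calS p q r D T)
    (fun T => EE p q δ A (fun J x => if T ⊆ J then hh p q r f J T x ^ 2 else 0))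
    (fun _ _ => zero_le_one)
    (fun T _ => mul_nonneg (Real.sqrt_nonneg _) (bb_nonneg A f calS D T))
    (fun T _ => EE_nonneg hp hq h0 h1 fun J x => by split_ifs <;> positivity)
    (fun T _ => term3_one A f calS good bad P h0 h1 hBd D hB hD T)
  simp only [one_mul] at this
  refine le_trans this ?_
  have hH : ∑ T ∈ calT, EE p q δ A (fun J x => if T ⊆ J then hh p q r f J T x ^ 2 else 0) ≤ 1 := by
    rw [← EE_sum]
    calc _ ≤ EE p q δ A (fun _ _ => 1) := EE_mono hp hq h0 h1 fun J x =>
          sum_hh_sq_le calT P hf J x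
      _ = 1 := EE_one P.hpq
  calc _ ≤ RR A f calS calT bad p q r δ Bd D * 1 := mul_le_mul_of_nonneg_left hH hR
    _ = _ := mul_one _

/-- The abstract middle estimate: the mass of `calS` is at most
`4 (Bad + 2 √R)`. -/
theorem middle_core (P : Params p q r) (h0 : 0 ≤ δ) (h1 : δ ≤ 1) {Bd : ℝ} (hBd : 0 ≤ Bd)
    (D : ℕ → ℕ)
    (hB : ∀ (A' : Finset α) (I : Finset (Finset α)) (c : Finset α → ℝ) (d : ℕ),
      I ⊆ A'.powerset → (∀ S ∈ I, S.card ≤ d) →
      E p q A' (fun x => poly p q r I c x ^ 4) ≤ Bd ^ d * (∑ S ∈ I, c S ^ 2) ^ 2)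
    (hf : ∀ x, f x ^ 2 ≤ 1)
    (hS : ∀ S ∈ calS, S ⊆ A)
    (hgood : ∀ S ∈ calS, ∀ J, J ⊆ A → good S J → S ∩ J ∈ calT)
    (hD : ∀ S ∈ calS, ∀ J, J ⊆ A → good S J → S.card ≤ D (S ∩ J).card)
    (hPg : ∀ S ∈ calS, 1 / 4 ≤ Pg A good δ S) :
    ∑ S ∈ calS, coef p q r A f S ^ 2
      ≤ 4 * (Bad A f calT bad p q r δ + 2 * Real.sqrt (RR A f calS calT bad p q r δ Bd D)) := by
  have hp := P.hp.le
  have hq := P.hq.le
  have hw0 := ww_nonneg A f calS good (p := p) (q := q) (r := r) h0 h1
  have hq4 := quarter_le_ww A f calS good (p := p) (q := q) (r := r) hPg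
  have hBad0 : 0 ≤ Bad A f calT bad p q r δ :=
    Finset.sum_nonneg fun T _ => EE_nonneg hp hq h0 h1 fun J x => by split_ifs <;> positivity
  set w := ww A f calS good p q r δ with hw
  set b := Bad A f calT bad p q r δ with hb
  set R := RR A f calS calT bad p q r δ Bd D with hR
  set t12 := ∑ T ∈ calT, EE p q δ A (fun J x => if T ⊆ J ∧ bad J x T then
        aa A f calS good p q r J T x * hh p q r f J T x else 0) with ht12
  set t3 := ∑ T ∈ calT, EE p q δ A (fun J x => if T ⊆ J ∧ ¬ bad J x T then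
        aa A f calS good p q r J T x * hh p q r f J T x else 0) with ht3
  have hsplit : w = t12 + t3 := by
    rw [hw, ← ww_eq_aa_hh A f calS calT good hS hgood P, ht12, ht3, ← Finset.sum_add_distrib]
    apply Finset.sum_congr rfl
    intro T _
    rw [← EE_add]
    apply EE_congr
    intro J x
    by_cases h2 : T ⊆ J <;> by_cases h3 : bad J x T <;> simp [h2, h3]
  have h12 : t12 ^ 2 ≤ w * b := term12_sq A f calS calT good bad P h0 h1 hS hgood
  have h3 : t3 ^ 2 ≤ R := term3_sq A f calS calT good bad P h0 h1 hBd D hB hD hf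
  have h4 : t12 ≤ (w + b) / 2 := by
    by_contra hh'
    have hh'' := not_le.mp hh'
    nlinarith [sq_nonneg (w - b)]
  have h5 : t3 ≤ Real.sqrt R := Real.le_sqrt_of_sq_le h3
  linarith

end pairing


end Vale.Agent.P063
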