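import Vale.Agent.P063.GoodSet
import Vale.Agent.P063.Middle

/-!
The families of the middle range, and the verification of the hypotheses `hgood`, `hD`, `hPg` of the
pairing theorem from the second moment estimate.
-/

namespace Vale.Agent.P063.GoodInst

open Finset
open Vale.Agent.P063

variable {α V : Type*} [DecidableEq α] [Fintype V] [DecidableEq V]

open Classical in
/-- The middle levels. -/
noncomputable def calS (A : Finset α) (m0 M : ℝ) : Finset (Finset α) :=
  A.powerset.filter (fun S => m0 ≤ (S.card : ℝ) ∧ (S.card : ℝ) ≤ M)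

open Classical in
/-- Small sets touching many vertices. -/
noncomputable def calT (ends : α → Finset V) (A : Finset α) (d : ℕ) : Finset (Finset α) :=
  A.powerset.filter (fun T => 1 ≤ T.card ∧ T.card ≤ d ∧ T.card ≤ 16 * (T.biUnion ends).card)

/-- The degree bound. -/
noncomputable def DD (δ : ℝ) (t : ℕ) : ℕ := ⌊2 * (t : ℝ) / δ⌋₊

lemma DD_le {δ : ℝ} (hδ : 0 < δ) (t : ℕ) : (DD δ t : ℝ) ≤ 2 * (t : ℝ) / δ :=
  Nat.floor_le (by positivity)

lemma calS_subset {A : Finset α} {m0 M : ℝ} {S : Finset α} (hS : S ∈ calS A m0 M) : S ⊆ A :=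
  Finset.mem_powerset.1 (Finset.mem_filter.1 hS).1

lemma calS_card_le {A : Finset α} {m0 M : ℝ} {S : Finset α} (hS : S ∈ calS A m0 M) :
    (S.card : ℝ) ≤ M := (Finset.mem_filter.1 hS).2.2

lemma calS_le_card {A : Finset α} {m0 M : ℝ} {S : Finset α} (hS : S ∈ calS A m0 M) :
    m0 ≤ (S.card : ℝ) := (Finset.mem_filter.1 hS).2.1

/-- `hgood`. -/
lemma good_mem_calT {ends : α → Finset V} {δ m0 M : ℝ} {A : Finset α} {d : ℕ} (hδ : 0 < δ)
    (hm0 : 2 ≤ δ * m0) (hd : 2 * δ * M ≤ (d : ℝ)) {S J : Finset α} (hS : S ∈ calS A m0 M)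
    (hG : GoodSet.Good ends δ S J) : S ∩ J ∈ calT ends A d := by
  obtain ⟨h1, h2, h3⟩ := hG
  have hS1 := calS_le_card hS
  have hS2 := calS_card_le hS
  have hsub : S ⊆ A := calS_subset hS
  refine Finset.mem_filter.2 ⟨Finset.mem_powerset.2 (Finset.inter_subset_left.trans hsub), ?_, ?_, ?_⟩
  · have : (1 : ℝ) ≤ ((S ∩ J).card : ℝ) := by
      have : δ * m0 ≤ δ * (S.card : ℝ) := mul_le_mul_of_nonneg_left hS1 hδ.le
      linarith
    exact_mod_cast this
  · have : ((S ∩ J).card : ℝ) ≤ (d : ℝ) := by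
      have : 2 * δ * (S.card : ℝ) ≤ 2 * δ * M := mul_le_mul_of_nonneg_left hS2 (by positivity)
      linarith
    exact_mod_cast this
  · have : ((S ∩ J).card : ℝ) ≤ 16 * (((S ∩ J).biUnion ends).card : ℝ) := by linarith
    exact_mod_cast this

/-- `hD`. -/
lemma good_card_le {ends : α → Finset V} {δ : ℝ} (hδ : 0 < δ) {S J : Finset α}
    (hG : GoodSet.Good ends δ S J) : S.card ≤ DD δ (S ∩ J).card := by
  apply Nat.le_floor
  rw [le_div_iff₀ hδ]
  have := hG.1
  linarith

/-- `hPg`. -/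
lemma quarter_le_Pg {ends : α → Finset V} {δ m0 M : ℝ} {A : Finset α} (hδ : 0 < δ) (hδ1 : δ ≤ 1)
    (hm0 : 512 ≤ δ * m0) (hM : δ ^ 2 * M ≤ 1)
    (hcard : ∀ e, (ends e).card = 2) (hinj : Function.Injective ends)
    [DecidableRel (GoodSet.Good ends δ)] {S : Finset α} (hS : S ∈ calS A m0 M) :
    (1 : ℝ) / 4 ≤ Pg A (GoodSet.Good ends δ) δ S := by
  have hS1 := calS_le_card hS
  have hS2 := calS_card_le hS
  unfold Pg
  refine GoodSet.good_event hδ hδ1 A S (calS_subset hS) ends (fun e _ => hcard e) hinj.injOn ?_ ?_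
  · have : δ * m0 ≤ δ * (S.card : ℝ) := mul_le_mul_of_nonneg_left hS1 hδ.le
    linarith
  · have : δ ^ 2 * (S.card : ℝ) ≤ δ ^ 2 * M := mul_le_mul_of_nonneg_left hS2 (by positivity)
    linarith

/-- The size of the vertex set of a set of edges. -/
lemma card_biUnion_le {ends : α → Finset V} (hcard : ∀ e, (ends e).card = 2) (T : Finset α) :
    (T.biUnion ends).card ≤ 2 * T.card := by
  calc (T.biUnion ends).card ≤ ∑ e ∈ T, (ends e).card := Finset.card_biUnion_le
    _ = ∑ _e ∈ T, 2 := Finset.sum_congr rfl fun e _ => hcard e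
    _ = 2 * T.card := by simp [mul_comm]

/-- Members of `calT`: their number of touched vertices. -/
lemma calT_spec {ends : α → Finset V} {A : Finset α} {d : ℕ} {T : Finset α}
    (hT : T ∈ calT ends A d) :
    T ⊆ A ∧ 1 ≤ T.card ∧ T.card ≤ d ∧ T.card ≤ 16 * (T.biUnion ends).card := by
  have := Finset.mem_filter.1 hT
  exact ⟨Finset.mem_powerset.1 this.1, this.2⟩

end Vale.Agent.P063.GoodInst
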