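import Mathlib

/-!
Definitions of the Friedgut-Kalai threshold-width statement (graph properties).
-/

namespace Vale.Agent.P063.Thr

/-- The edges of the complete graph on `Fin n`. -/
abbrev Edge (n : ℕ) : Type := {s : Finset (Fin n) // s.card = 2}

/-- A permutation of the vertices acts on the edges. -/
def Edge.perm {n : ℕ} (σ : Equiv.Perm (Fin n)) (e : Edge n) : Edge n :=
  ⟨e.1.map σ.toEmbedding, by rw [Finset.card_map]; exact e.2⟩

/-- The probability of a point of the cube under the product measure with density `p`. -/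
noncomputable def wt {I : Type} [Fintype I] (p : ℝ) (x : I → Bool) : ℝ :=
  ∏ i, if x i = true then p else 1 - p

/-- The product measure `μ_p` of a family of points of the cube. -/
noncomputable def mu {I : Type} [Fintype I] [DecidableEq I] (p : ℝ) (A : Set (I → Bool)) : ℝ :=
  ∑ x, wt p x * A.indicator 1 x

/-- A nontrivial increasing graph property on `n` vertices. -/
structure IsGraphProp {n : ℕ} (A : Set (Edge n → Bool)) : Prop where
  invariant : ∀ (σ : Equiv.Perm (Fin n)) (x : Edge n → Bool), x ∈ A ↔ (fun e => x (Edge.perm σ e)) ∈ A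
  increasing : ∀ x y : Edge n → Bool, (∀ e, x e = true → y e = true) → x ∈ A → y ∈ A
  nonempty : A.Nonempty
  ne_univ : A ≠ Set.univ

/-- `p_a(A) = inf {p ∈ [0,1] : μ_p(A) ≥ a}`. -/
noncomputable def pThr {I : Type} [Fintype I] [DecidableEq I] (A : Set (I → Bool)) (a : ℝ) : ℝ :=
  sInf {p : ℝ | p ∈ Set.Icc (0 : ℝ) 1 ∧ a ≤ mu p A}

/-- The threshold width `w_ε(A) = p_{1-ε}(A) - p_ε(A)`. -/
noncomputable def width {I : Type} [Fintype I] [DecidableEq I] (A : Set (I → Bool)) (ε : ℝ) : ℝ :=
  pThr A (1 - ε) - pThr A ε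

end Vale.Agent.P063.Thr
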