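import Vale.Agent.P063.Sym
import Vale.Agent.P063.Orbit
import Vale.Agent.P063.Statement

/-!
Orbit bound for the listing probability on the edge set of the complete graph.
-/

namespace Vale.Agent.P063

open Finset

/-- A vertex permutation as a permutation of the edges. -/
def edgeEquiv {n : ℕ} (σ : Equiv.Perm (Fin n)) : Thr.Edge n ≃ Thr.Edge n where
  toFun := Thr.Edge.perm σ
  invFun := Thr.Edge.perm σ.symm
  left_inv := by
    intro e
    apply Subtype.ext
    simp [Thr.Edge.perm, Finset.map_map]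
  right_inv := by
    intro e
    apply Subtype.ext
    simp [Thr.Edge.perm, Finset.map_map]

@[simp] lemma edgeEquiv_apply {n : ℕ} (σ : Equiv.Perm (Fin n)) (e : Thr.Edge n) :
    edgeEquiv σ e = Thr.Edge.perm σ e := rfl

/-- The number of vertices met by a set of edges. -/
def vcount {n : ℕ} (T : Finset (Thr.Edge n)) : ℕ :=
  (Orbit.supp (fun e : Thr.Edge n => e.1) T).card

variable {p q : ℝ}

lemma listProb_nonneg {α : Type*} [DecidableEq α] (hp : 0 ≤ p) (hq : 0 ≤ q) {δ Λ θ : ℝ}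
    (hδ0 : 0 ≤ δ) (hδ1 : δ ≤ 1) (Ω : Finset α) (f : Finset α → ℝ) (T : Finset α) :
    0 ≤ listProb p q δ Λ θ Ω f T := by
  classical
  unfold listProb E
  apply Finset.sum_nonneg
  intro J _
  refine mul_nonneg (wt_nonneg hδ0 (by linarith) _ _) ?_
  apply Finset.sum_nonneg
  intro x _
  refine mul_nonneg (wt_nonneg hp hq _ _) ?_
  dsimp only
  split_ifs <;> norm_num

/-- **Orbit bound**: `choose n v(T) * listProb T ≤ (Λ/θ)^|T|` for `f` invariant under all vertex
permutations. -/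
theorem choose_mul_listProb_le {n : ℕ} (hp : 0 ≤ p) (hq : 0 ≤ q) (hpq : p + q = 1) {δ Λ θ : ℝ}
    (hδ0 : 0 ≤ δ) (hδ1 : δ ≤ 1) (hθ : 0 < θ) (hΛ : 0 ≤ Λ)
    (f : Finset (Thr.Edge n) → ℝ) (hf : ∀ (σ : Equiv.Perm (Fin n)) x, f (mp (edgeEquiv σ) x) = f x)
    (T : Finset (Thr.Edge n)) :
    (n.choose (vcount T) : ℝ) * listProb p q δ Λ θ univ f T ≤ (Λ / θ) ^ T.card := by
  classical
  set act : Equiv.Perm (Fin n) → Thr.Edge n → Thr.Edge n := fun σ e => edgeEquiv σ e with hactdef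
  have himg : ∀ (σ : Equiv.Perm (Fin n)) (T : Finset (Thr.Edge n)),
      T.image (act σ) = mp (edgeEquiv σ) T := by
    intro σ T
    rw [mp, Finset.map_eq_image]
    rfl
  set O := Orbit.orb act T with hO
  have hchoose : n.choose (vcount T) ≤ O.card := by
    have h := Orbit.choose_le_card_orb (fun e : Thr.Edge n => e.1) act
      (fun σ e => rfl) T
    simpa [vcount, Fintype.card_fin] using h
  have hcard : ∀ T' ∈ O, T'.card = T.card := by
    intro T' hT'
    obtain ⟨σ, -, rfl⟩ := mem_image.1 hT'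
    rw [himg, mp_card]
  have hinv : ∀ T' ∈ O, listProb p q δ Λ θ univ f T' = listProb p q δ Λ θ univ f T := by
    intro T' hT'
    obtain ⟨σ, -, rfl⟩ := mem_image.1 hT'
    rw [himg]
    refine listProb_mp δ Λ θ (edgeEquiv σ) ?_ (hf σ) T
    ext a
    simp only [mp, mem_map, mem_univ, true_and, iff_true]
    exact ⟨(edgeEquiv σ).symm a, by simp⟩
  have h := listProb_le_of_orbit hp hq hpq hδ0 hδ1 hθ hΛ univ f T O hcard hinv
  have hnn := listProb_nonneg (δ := δ) (Λ := Λ) (θ := θ) hp hq hδ0 hδ1 univ f T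
  have hc' : (n.choose (vcount T) : ℝ) ≤ (O.card : ℝ) := by exact_mod_cast hchoose
  exact le_trans (mul_le_mul_of_nonneg_right hc' hnn) h

/-- Exponential form for `v(T) ^ 2 ≤ n`. -/
theorem listProb_le_exp {n : ℕ} (hn : 0 < n) (hp : 0 ≤ p) (hq : 0 ≤ q) (hpq : p + q = 1) {δ Λ θ : ℝ}
    (hδ0 : 0 ≤ δ) (hδ1 : δ ≤ 1) (hθ : 0 < θ) (hΛ : 0 ≤ Λ)
    (f : Finset (Thr.Edge n) → ℝ) (hf : ∀ (σ : Equiv.Perm (Fin n)) x, f (mp (edgeEquiv σ) x) = f x)
    (T : Finset (Thr.Edge n)) (hv : vcount T ^ 2 ≤ n) :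
    listProb p q δ Λ θ univ f T
      ≤ (Λ / θ) ^ T.card * Real.exp (-((vcount T : ℝ) * Real.log n / 2)) := by
  have h1 := choose_mul_listProb_le hp hq hpq hδ0 hδ1 hθ hΛ f hf T
  have h2 := Orbit.exp_le_choose n (vcount T) hn hv
  have hnn := listProb_nonneg (δ := δ) (Λ := Λ) (θ := θ) hp hq hδ0 hδ1 univ f T
  have hexp := Real.exp_pos ((vcount T : ℝ) * Real.log n / 2)
  rw [Real.exp_neg, ← div_eq_mul_inv, le_div_iff₀ hexp]
  calc listProb p q δ Λ θ univ f T * Real.exp ((vcount T : ℝ) * Real.log n / 2)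
      ≤ listProb p q δ Λ θ univ f T * (n.choose (vcount T) : ℝ) :=
        mul_le_mul_of_nonneg_left h2 hnn
    _ = (n.choose (vcount T) : ℝ) * listProb p q δ Λ θ univ f T := mul_comm _ _
    _ ≤ _ := h1

end Vale.Agent.P063
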