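import Mathlib
import Vale.Agent.P063.Orbit

/-!
The final counting in the third term: summing a weight over small subsets of the sets of a family,
after exchanging the order of summation.
-/

namespace Vale.Agent.P063.T3Sum

open scoped BigOperators
open Finset

variable {α : Type*} [DecidableEq α]

/-- Exchange of summation: every set of the family has at most `M^t` subsets of size `t`. -/
theorem sum_swap (c : Finset α → ℝ) (hc : ∀ S, 0 ≤ c S) (Sfam calT : Finset (Finset α)) {M : ℝ}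
    (hM : ∀ S ∈ Sfam, (S.card : ℝ) ≤ M) (d : ℕ) (hT : ∀ T ∈ calT, 1 ≤ T.card ∧ T.card ≤ d)
    (ρ : ℕ → ℝ) (hρ : ∀ t, 0 ≤ ρ t) :
    ∑ T ∈ calT, ρ T.card * ∑ S ∈ Sfam.filter (fun S => T ⊆ S), c S
      ≤ (∑ S ∈ Sfam, c S) * ∑ t ∈ Finset.Icc 1 d, M ^ t * ρ t := by
  have h1 : ∀ T ∈ calT, ρ T.card * ∑ S ∈ Sfam.filter (fun S => T ⊆ S), c S
      = ∑ S ∈ Sfam, (if T ⊆ S then ρ T.card * c S else 0) := by
    intro T _
    rw [Finset.mul_sum, Finset.sum_filter]
  rw [Finset.sum_congr rfl h1, Finset.sum_comm, Finset.sum_mul]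
  refine Finset.sum_le_sum fun S hS => ?_
  have h2 : ∑ T ∈ calT, (if T ⊆ S then ρ T.card * c S else 0)
      = c S * ∑ T ∈ calT.filter (fun T => T ⊆ S), ρ T.card := by
    rw [Finset.mul_sum, Finset.sum_filter]
    refine Finset.sum_congr rfl fun T _ => ?_
    split_ifs <;> ring
  rw [h2]
  refine mul_le_mul_of_nonneg_left ?_ (hc S)
  have hmaps : ∀ T ∈ calT.filter (fun T => T ⊆ S), T.card ∈ Finset.Icc 1 d := by
    intro T hT'
    have := hT T (Finset.mem_filter.1 hT').1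
    exact Finset.mem_Icc.2 this
  rw [← Finset.sum_fiberwise_of_maps_to hmaps]
  refine Finset.sum_le_sum fun t _ => ?_
  have h3 : ∑ T ∈ (calT.filter (fun T => T ⊆ S)).filter (fun T => T.card = t), ρ T.card
      = (((calT.filter (fun T => T ⊆ S)).filter (fun T => T.card = t)).card : ℝ) * ρ t := by
    rw [← nsmul_eq_mul, ← Finset.sum_const]
    refine Finset.sum_congr rfl fun T hT' => ?_
    rw [(Finset.mem_filter.1 hT').2]
  rw [h3]
  refine mul_le_mul_of_nonneg_right ?_ (hρ t)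
  have hsub : (calT.filter (fun T => T ⊆ S)).filter (fun T => T.card = t) ⊆ S.powersetCard t := by
    intro T hT'
    have h4 := Finset.mem_filter.1 hT'
    exact Finset.mem_powersetCard.2 ⟨(Finset.mem_filter.1 h4.1).2, h4.2⟩
  have h5 := Finset.card_le_card hsub
  rw [Finset.card_powersetCard] at h5
  have h6 : (((calT.filter (fun T => T ⊆ S)).filter (fun T => T.card = t)).card : ℝ)
      ≤ ((S.card.choose t : ℕ) : ℝ) := by exact_mod_cast h5
  have h7 : ((S.card.choose t : ℕ) : ℝ) ≤ (S.card : ℝ) ^ t := by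
    exact_mod_cast Nat.choose_le_pow _ _
  exact h6.trans (h7.trans (pow_le_pow_left₀ (Nat.cast_nonneg _) (hM S hS) t))

/-- A geometric sum. -/
lemma geom_le {x : ℝ} (h0 : 0 ≤ x) (h1 : x ≤ 1 / 2) (d : ℕ) :
    ∑ t ∈ Finset.Icc 1 d, x ^ t ≤ 2 * x := by
  have key : ∑ t ∈ Finset.Icc 1 d, x ^ t ≤ 2 * x * (1 - x ^ d) := by
    induction d with
    | zero => simp
    | succ k ih =>
      rw [Finset.sum_Icc_succ_top (by omega)]
      have hp : 0 ≤ x ^ (k + 1) := pow_nonneg h0 _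
      have hk : x ^ (k + 1) = x ^ k * x := pow_succ x k
      have hk0 : 0 ≤ x ^ k := pow_nonneg h0 _
      have : 2 * x * (1 - x ^ (k + 1)) - 2 * x * (1 - x ^ k) - x ^ (k + 1)
          = x * x ^ k * (1 - 2 * x) := by
        rw [hk]; ring
      have h3 : 0 ≤ x * x ^ k * (1 - 2 * x) :=
        mul_nonneg (mul_nonneg h0 hk0) (by linarith)
      linarith
  have hp : 0 ≤ x ^ d := pow_nonneg h0 _
  nlinarith

/-- From the orbit bound to an exponential bound. -/
lemma q_le_of_choose {n v t : ℕ} {q Q : ℝ} (hn : 1 ≤ n) (hv2 : v ^ 2 ≤ n) (ht : t ≤ 16 * v)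
    (hq : q * (n.choose v : ℝ) ≤ Q ^ t) (hq0 : 0 ≤ q) :
    q ≤ Q ^ t * Real.exp (-((t : ℝ) * Real.log n / 32)) := by
  have h1 := Orbit.exp_le_choose n v (by omega) hv2
  have hl : 0 ≤ Real.log n := Real.log_natCast_nonneg n
  have h2 : (t : ℝ) * Real.log n / 32 ≤ (v : ℝ) * Real.log n / 2 := by
    have : (t : ℝ) ≤ 16 * v := by exact_mod_cast ht
    nlinarith
  have h3 : Real.exp ((t : ℝ) * Real.log n / 32) ≤ (n.choose v : ℝ) :=
    (Real.exp_le_exp.2 h2).trans h1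
  have h4 : q * Real.exp ((t : ℝ) * Real.log n / 32) ≤ Q ^ t :=
    (mul_le_mul_of_nonneg_left h3 hq0).trans hq
  rw [Real.exp_neg, ← div_eq_mul_inv, le_div_iff₀ (Real.exp_pos _)]
  exact h4

/-- The weight attached to a set of size `t`. -/
lemma weight_le {B δ q Q ell : ℝ} {t D : ℕ} (hB : 1 ≤ B) (hδ : 0 < δ) (hQ : 0 < Q)
    (hD : (D : ℝ) ≤ 2 * t / δ) (hq0 : 0 ≤ q)
    (hq : q ≤ Q ^ t * Real.exp (-((t : ℝ) * ell / 32))) :
    Real.sqrt (B ^ D * q)
      ≤ Real.exp ((t : ℝ) * (Real.log B / δ + Real.log Q / 2 - ell / 64)) := by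
  have hB0 : 0 < B := by linarith
  have hb : 0 ≤ Real.log B := Real.log_nonneg hB
  set y : ℝ := (t : ℝ) * (Real.log B / δ + Real.log Q / 2 - ell / 64) with hy
  have h1 : B ^ D = Real.exp ((D : ℝ) * Real.log B) := by
    rw [← Real.rpow_natCast, Real.rpow_def_of_pos hB0, mul_comm]
  have h2 : Q ^ t = Real.exp ((t : ℝ) * Real.log Q) := by
    rw [← Real.rpow_natCast, Real.rpow_def_of_pos hQ, mul_comm]
  have h3 : B ^ D * q ≤ Real.exp (2 * y) := by
    calc B ^ D * q ≤ B ^ D * (Q ^ t * Real.exp (-((t : ℝ) * ell / 32))) :=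
          mul_le_mul_of_nonneg_left hq (by positivity)
      _ = Real.exp ((D : ℝ) * Real.log B + ((t : ℝ) * Real.log Q + -((t : ℝ) * ell / 32))) := by
          rw [h1, h2, Real.exp_add, Real.exp_add]
      _ ≤ Real.exp (2 * y) := by
          apply Real.exp_le_exp.2
          have h4 : (D : ℝ) * Real.log B ≤ (2 * t / δ) * Real.log B :=
            mul_le_mul_of_nonneg_right hD hb
          have h5 : 2 * y = (2 * t / δ) * Real.log B + ((t : ℝ) * Real.log Q + -((t : ℝ) * ell / 32)) := by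
            rw [hy]; field_simp; ring
          rw [h5]; linarith
  calc Real.sqrt (B ^ D * q) ≤ Real.sqrt (Real.exp (2 * y)) := Real.sqrt_le_sqrt h3
    _ = Real.exp y := by
        have : Real.exp (2 * y) = Real.exp y ^ 2 := by
          rw [sq, ← Real.exp_add]; ring_nf
        rw [this, Real.sqrt_sq (Real.exp_pos _).le]

/-- **The third term, final form.** -/
theorem t3_bound (c : Finset α → ℝ) (hc : ∀ S, 0 ≤ c S) (Sfam calT : Finset (Finset α)) {M B δ Q ell : ℝ}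
    (hM0 : 0 < M) (hM : ∀ S ∈ Sfam, (S.card : ℝ) ≤ M) (d : ℕ)
    (hT : ∀ T ∈ calT, 1 ≤ T.card ∧ T.card ≤ d) (q : Finset α → ℝ) (hq0 : ∀ T ∈ calT, 0 ≤ q T)
    (hqT : ∀ T ∈ calT, q T ≤ Q ^ T.card * Real.exp (-((T.card : ℝ) * ell / 32)))
    (D : ℕ → ℕ) (hD : ∀ t, (D t : ℝ) ≤ 2 * t / δ) (hB : 1 ≤ B) (hδ : 0 < δ) (hQ : 0 < Q)
    (hbudget : Real.log M + (Real.log B / δ + Real.log Q / 2 - ell / 64) ≤ -(ell / 128))
    (hsmall : Real.exp (-(ell / 128)) ≤ 1 / 2) :
    ∑ T ∈ calT, Real.sqrt (B ^ D T.card * q T) * ∑ S ∈ Sfam.filter (fun S => T ⊆ S), c S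
      ≤ 2 * Real.exp (-(ell / 128)) * ∑ S ∈ Sfam, c S := by
  set y : ℝ := Real.log B / δ + Real.log Q / 2 - ell / 64 with hy
  set ρ : ℕ → ℝ := fun t => Real.exp ((t : ℝ) * y) with hρ
  have hsumc : ∀ T : Finset α, 0 ≤ ∑ S ∈ Sfam.filter (fun S => T ⊆ S), c S :=
    fun T => Finset.sum_nonneg fun S _ => hc S
  have h1 : ∑ T ∈ calT, Real.sqrt (B ^ D T.card * q T) * ∑ S ∈ Sfam.filter (fun S => T ⊆ S), c S
      ≤ ∑ T ∈ calT, ρ T.card * ∑ S ∈ Sfam.filter (fun S => T ⊆ S), c S := by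
    refine Finset.sum_le_sum fun T hT' => ?_
    refine mul_le_mul_of_nonneg_right ?_ (hsumc T)
    exact weight_le hB hδ hQ (hD _) (hq0 T hT') (hqT T hT')
  have h2 := sum_swap c hc Sfam calT hM d hT ρ (fun t => (Real.exp_pos _).le)
  set x : ℝ := Real.exp (-(ell / 128)) with hx
  have hx0 : 0 ≤ x := (Real.exp_pos _).le
  have h3 : ∑ t ∈ Finset.Icc 1 d, M ^ t * ρ t ≤ ∑ t ∈ Finset.Icc 1 d, x ^ t := by
    refine Finset.sum_le_sum fun t _ => ?_
    have h4 : M ^ t = Real.exp ((t : ℝ) * Real.log M) := by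
      rw [← Real.rpow_natCast, Real.rpow_def_of_pos hM0, mul_comm]
    have h5 : x ^ t = Real.exp ((t : ℝ) * (-(ell / 128))) := by
      rw [hx, ← Real.exp_nat_mul]
    rw [h4, h5, hρ]
    simp only
    rw [← Real.exp_add]
    apply Real.exp_le_exp.2
    have ht : (0 : ℝ) ≤ t := Nat.cast_nonneg _
    nlinarith
  have h6 := geom_le hx0 hsmall d
  have hS0 : 0 ≤ ∑ S ∈ Sfam, c S := Finset.sum_nonneg fun S _ => hc S
  calc _ ≤ _ := h1
    _ ≤ _ := h2
    _ ≤ (∑ S ∈ Sfam, c S) * (2 * x) := mul_le_mul_of_nonneg_left (h3.trans h6) hS0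
    _ = _ := by ring

end Vale.Agent.P063.T3Sum
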