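import Vale.Agent.P063.MiddleFinal
import Vale.Agent.P063.GoodInst
import Vale.Agent.P063.T3Sum
import Vale.Agent.P063.QBound

/-!
# The middle range for graph properties
-/

namespace Vale.Agent.P063

open Finset

/-- The two endpoints of an edge. -/
def edgeEnds {n : ℕ} (e : Thr.Edge n) : Finset (Fin n) := e.1

open Classical in
/-- **The middle range for an invariant Boolean function on the edges of `K_n`.** -/
theorem mid_bound {n : ℕ} (hn : 1 ≤ n) {p q r δ θ Lam m0 M : ℝ} {d : ℕ} (P : Params p q r)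
    (hδ : 0 < δ) (hδ1 : δ ≤ 1) (hθ : 0 < θ) (hLam : 0 < Lam)
    (f : Finset (Thr.Edge n) → ℝ) (hf : ∀ x, f x = 0 ∨ f x = 1)
    (hinv : ∀ (σ : Equiv.Perm (Fin n)) x, f (x.image (Thr.Edge.perm σ)) = f x)
    (hm0 : 512 ≤ δ * m0) (hMd : 2 * δ * M ≤ ((d + 1 : ℕ) : ℝ)) (hM : δ ^ 2 * M ≤ 1) (hM0 : 0 < M)
    (hv : 4 * (d + 1) ^ 2 ≤ n)
    (hbudget : Real.log M + (Real.log (4 / r ^ 2) / δ + Real.log (Lam / θ) / 2
      - Real.log n / 64) ≤ -(Real.log n / 128))
    (hsmall : Real.exp (-(Real.log n / 128)) ≤ 1 / 2) :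
    ∑ S ∈ GoodInst.calS (univ : Finset (Thr.Edge n)) m0 M, coef p q r univ f S ^ 2
      ≤ 4 * (δ * (∑ e, SymQ.Inf p q f univ e) / Lam
        + r ^ 2 * Real.sqrt ((4 / r ^ 2) ^ d) * Real.sqrt θ * Lam
        + 2 * Real.sqrt (2 * Real.exp (-(Real.log n / 128)) *
            ∑ S ∈ GoodInst.calS (univ : Finset (Thr.Edge n)) m0 M, coef p q r univ f S ^ 2)) := by
  have hp := P.hp.le
  have hq := P.hq.le
  have hr := P.hr
  have hpq := P.hpq
  set A : Finset (Thr.Edge n) := univ with hA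
  set calS := GoodInst.calS A m0 M with hcalS
  set ends : Thr.Edge n → Finset (Fin n) := fun e => e.1 with hends
  set calT := GoodInst.calT ends A (d + 1) with hcalT
  have hm2 : 2 ≤ δ * m0 := by linarith
  have hcard : ∀ e : Thr.Edge n, (ends e).card = 2 := fun e => e.2
  have hinj : Function.Injective ends := Subtype.val_injective
  have hmain := middle_concrete (A := A) (f := f) (calS := calS) (calT := calT) (θ := θ) (Lam := Lam)
    P hδ.le hδ1 hθ hLam hf (GoodSet.Good ends δ) (GoodInst.DD δ) (d := d)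
    (fun T hT => (GoodInst.calT_spec hT).2.2.1)
    (fun S hS => GoodInst.calS_subset hS)
    (fun S hS J _ hG => GoodInst.good_mem_calT hδ hm2 hMd hS hG)
    (fun S _ J _ hG => GoodInst.good_card_le hδ hG)
    (fun S hS => by
      have := GoodInst.quarter_le_Pg (ends := ends) (δ := δ) (m0 := m0) (M := M) (A := A) hδ hδ1 hm0 hM
        hcard hinj (S := S) hS
      simpa [Pg] using this)
  refine le_trans hmain ?_
  apply mul_le_mul_of_nonneg_left _ (by norm_num)
  refine add_le_add le_rfl ?_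
  apply mul_le_mul_of_nonneg_left _ (by norm_num)
  apply Real.sqrt_le_sqrt
  -- the remainder
  have hB1 : 1 ≤ 4 / r ^ 2 := by
    have h16 := sixteen_le P
    linarith
  have hQ : 0 < Lam / θ := div_pos hLam hθ
  have hbij : ∀ σ : Equiv.Perm (Fin n), Function.Bijective (Thr.Edge.perm σ) :=
    fun σ => (edgeEquiv σ).bijective
  have hOm : ∀ σ : Equiv.Perm (Fin n), A.image (Thr.Edge.perm σ) = A := by
    intro σ
    rw [hA]
    exact Finset.image_univ_of_surjective (hbij σ).2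
  have hchoose : ∀ T : Finset (Thr.Edge n),
      SymQ.qT p q δ (1 - δ) θ Lam f A T * (n.choose (Orbit.supp ends T).card : ℝ)
        ≤ (Lam / θ) ^ T.card := by
    intro T
    have := SymQ.qT_mul_choose_le (V := Fin n) (d := δ) (d1 := 1 - δ) (θ := θ) (Lam := Lam) hp hq hpq hδ.le (by linarith) (by ring) hθ hLam.le
      ends (fun σ e => Thr.Edge.perm σ e) (fun σ e => rfl) hbij hinv hOm T
    simpa [Fintype.card_fin] using this
  have hqT0 : ∀ T, 0 ≤ SymQ.qT p q δ (1 - δ) θ Lam f A T :=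
    fun T => SymQ.qT_nonneg hp hq hδ.le (by linarith) f A T
  have hqle : ∀ T ∈ calT, SymQ.qT p q δ (1 - δ) θ Lam f A T
      ≤ (Lam / θ) ^ T.card * Real.exp (-((T.card : ℝ) * Real.log n / 32)) := by
    intro T hT
    obtain ⟨_, h1, h2, h3⟩ := GoodInst.calT_spec hT
    apply T3Sum.q_le_of_choose hn _ h3 (hchoose T) (hqT0 T)
    have h4 : (T.biUnion ends).card ≤ 2 * T.card := GoodInst.card_biUnion_le hcard T
    have h5 : (T.biUnion ends).card ≤ 2 * (d + 1) := by omega
    calc (T.biUnion ends).card ^ 2 ≤ (2 * (d + 1)) ^ 2 := Nat.pow_le_pow_left h5 2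
      _ = 4 * (d + 1) ^ 2 := by ring
      _ ≤ n := hv
  have ht3 := T3Sum.t3_bound (c := fun S => coef p q r A f S ^ 2) (fun S => sq_nonneg _)
    calS calT (M := M) (B := 4 / r ^ 2) (δ := δ) (Q := Lam / θ) (ell := Real.log n) hM0
    (fun S hS => GoodInst.calS_card_le hS) (d + 1)
    (fun T hT => ⟨(GoodInst.calT_spec hT).2.1, (GoodInst.calT_spec hT).2.2.1⟩)
    (fun T => SymQ.qT p q δ (1 - δ) θ Lam f A T) (fun T _ => hqT0 T) hqle
    (GoodInst.DD δ) (fun t => GoodInst.DD_le hδ t) hB1 hδ hQ hbudget hsmall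
  refine le_trans ?_ ht3
  apply Finset.sum_le_sum
  intro T _
  rw [mul_comm (SymQ.qT p q δ (1 - δ) θ Lam f A T)]
  apply mul_le_mul_of_nonneg_left _ (Real.sqrt_nonneg _)
  unfold bb
  apply Finset.sum_le_sum_of_subset_of_nonneg
  · intro S hS
    obtain ⟨h1, h2, _⟩ := Finset.mem_filter.mp hS
    exact Finset.mem_filter.mpr ⟨h1, h2⟩
  · intro _ _ _; exact sq_nonneg _

end Vale.Agent.P063
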