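import Vale.Agent.P063.Fourier

/-!
The influence identity, and the high and low ranges of levels.
-/

namespace Vale.Agent.P063

open Finset

variable {α : Type*} [DecidableEq α]

/-- The influence of `e` on `F` over the cube on `A`: expected square of the discrete derivative. -/
noncomputable def infl (p q : ℝ) (A : Finset α) (F : Finset α → ℝ) (e : α) : ℝ :=
  E p q (A.erase e) (fun x => (F (insert e x) - F x) ^ 2)

/-- Total influence. -/
noncomputable def totInfl (p q : ℝ) (A : Finset α) (F : Finset α → ℝ) : ℝ :=
  ∑ e ∈ A, infl p q A F e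

variable {p q r : ℝ}

lemma coef_sub (A : Finset α) (F G : Finset α → ℝ) (S : Finset α) :
    coef p q r A (fun x => F x - G x) S = coef p q r A F S - coef p q r A G S := by
  unfold coef
  rw [← E_sub]
  apply E_congr
  intro x _
  ring

/-- The Fourier weight on the sets containing `e` is `r ^ 2` times the influence of `e`. -/
lemma sum_coef_sq_mem (P : Params p q r) (A : Finset α) (F : Finset α → ℝ) {e : α} (he : e ∈ A) :
    ∑ T ∈ A.powerset.filter (fun T => e ∈ T), coef p q r A F T ^ 2 = r ^ 2 * infl p q A F e := by
  obtain ⟨B, hB, rfl⟩ : ∃ B, e ∉ B ∧ A = insert e B :=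
    ⟨A.erase e, by simp, (Finset.insert_erase he).symm⟩
  have herase : (insert e B).erase e = B := Finset.erase_insert hB
  unfold infl
  rw [herase, parseval_sq P, Finset.mul_sum]
  refine Finset.sum_bij' (fun T _ => T.erase e) (fun S _ => insert e S) ?_ ?_ ?_ ?_ ?_
  · intro T hT
    rcases Finset.mem_filter.mp hT with ⟨h1, h2⟩
    refine Finset.mem_powerset.mpr ?_
    intro a ha
    rcases Finset.mem_erase.mp ha with ⟨h3, h4⟩
    have := Finset.mem_powerset.mp h1 h4
    rcases Finset.mem_insert.mp this with h | h
    · exact absurd h h3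
    · exact h
  · intro S hS
    have hSB := Finset.mem_powerset.mp hS
    refine Finset.mem_filter.mpr ⟨Finset.mem_powerset.mpr (Finset.insert_subset_insert _ hSB), Finset.mem_insert_self _ _⟩
  · intro T hT
    exact Finset.insert_erase (Finset.mem_filter.mp hT).2
  · intro S hS
    have hSB := Finset.mem_powerset.mp hS
    exact Finset.erase_insert (fun h => hB (hSB h))
  · intro T hT
    have h2 := (Finset.mem_filter.mp hT).2
    have hT' : insert e (T.erase e) = T := Finset.insert_erase h2
    have hne : e ∉ T.erase e := by simp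
    conv_lhs => rw [← hT']
    rw [coef_insert_self P F hB hne, coef_sub, mul_pow]

/-- Level sum: the weighted Fourier mass equals `r ^ 2` times the total influence. -/
theorem level_sum (P : Params p q r) (A : Finset α) (F : Finset α → ℝ) :
    ∑ S ∈ A.powerset, (S.card : ℝ) * coef p q r A F S ^ 2 = r ^ 2 * totInfl p q A F := by
  unfold totInfl
  rw [Finset.mul_sum]
  rw [Finset.sum_congr rfl (fun e he => (sum_coef_sq_mem P A F he).symm)]
  simp_rw [Finset.sum_filter]
  rw [Finset.sum_comm]
  apply Finset.sum_congr rfl
  intro S hS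
  have hSA := Finset.mem_powerset.mp hS
  have : ∑ e ∈ A, (if e ∈ S then coef p q r A F S ^ 2 else 0) = (S.card : ℝ) * coef p q r A F S ^ 2 := by
    rw [← Finset.sum_filter, Finset.sum_const, nsmul_eq_mul]
    congr 2
    rw [Finset.filter_mem_eq_inter, Finset.inter_eq_right.mpr hSA]
  exact this.symm

/-- High range: Markov for the Fourier level. -/
theorem high_range (P : Params p q r) (A : Finset α) (F : Finset α → ℝ) {M : ℝ} (hM : 0 < M) :
    ∑ S ∈ A.powerset.filter (fun S => M < (S.card : ℝ)), coef p q r A F S ^ 2
      ≤ r ^ 2 * totInfl p q A F / M := by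
  rw [le_div_iff₀ hM, ← level_sum P A F, Finset.sum_mul]
  calc ∑ S ∈ A.powerset.filter (fun S => M < (S.card : ℝ)), coef p q r A F S ^ 2 * M
      ≤ ∑ S ∈ A.powerset.filter (fun S => M < (S.card : ℝ)), (S.card : ℝ) * coef p q r A F S ^ 2 := by
        apply Finset.sum_le_sum
        intro S hS
        have := (Finset.mem_filter.mp hS).2
        nlinarith [sq_nonneg (coef p q r A F S)]
    _ ≤ ∑ S ∈ A.powerset, (S.card : ℝ) * coef p q r A F S ^ 2 := by
        apply Finset.sum_le_sum_of_subset_of_nonneg (Finset.filter_subset _ _)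
        intro S _ _
        positivity

/-- Poincare: the variance is at most `r ^ 2` times the total influence. -/
theorem poincare (P : Params p q r) (A : Finset α) (F : Finset α → ℝ) :
    ∑ S ∈ A.powerset.filter (fun S => S.Nonempty), coef p q r A F S ^ 2 ≤ r ^ 2 * totInfl p q A F := by
  rw [← level_sum P A F]
  calc ∑ S ∈ A.powerset.filter (fun S => S.Nonempty), coef p q r A F S ^ 2
      ≤ ∑ S ∈ A.powerset.filter (fun S => S.Nonempty), (S.card : ℝ) * coef p q r A F S ^ 2 := by
        apply Finset.sum_le_sum
        intro S hS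
        have h1 := (Finset.mem_filter.mp hS).2
        have h2 : (1 : ℝ) ≤ S.card := by
          exact_mod_cast Finset.card_pos.mpr h1
        nlinarith [sq_nonneg (coef p q r A F S)]
    _ ≤ ∑ S ∈ A.powerset, (S.card : ℝ) * coef p q r A F S ^ 2 := by
        apply Finset.sum_le_sum_of_subset_of_nonneg (Finset.filter_subset _ _)
        intro S _ _
        positivity

/-- Low range from a pivot bound: if every coordinate has Fourier weight at most `X` on the sets
containing it of size at most `d`, the mass of the nonempty sets of size at most `d` is at most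
`|A| X`. -/
theorem low_range (A : Finset α) (F : Finset α → ℝ) (d : ℕ) {X : ℝ}
    (hX : ∀ e ∈ A, ∑ T ∈ A.powerset.filter (fun T => e ∈ T ∧ T.card ≤ d), coef p q r A F T ^ 2 ≤ X) :
    ∑ S ∈ A.powerset.filter (fun S => S.Nonempty ∧ S.card ≤ d), coef p q r A F S ^ 2 ≤ (A.card : ℝ) * X := by
  have h1 : ∑ S ∈ A.powerset.filter (fun S => S.Nonempty ∧ S.card ≤ d), coef p q r A F S ^ 2
      ≤ ∑ e ∈ A, ∑ T ∈ A.powerset.filter (fun T => e ∈ T ∧ T.card ≤ d), coef p q r A F T ^ 2 := by
    simp_rw [Finset.sum_filter]
    rw [Finset.sum_comm]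
    apply Finset.sum_le_sum
    intro S hS
    have hSA := Finset.mem_powerset.mp hS
    split_ifs with h
    · obtain ⟨⟨e, he⟩, hd⟩ := h
      calc coef p q r A F S ^ 2
          = if e ∈ S ∧ S.card ≤ d then coef p q r A F S ^ 2 else 0 := by
            rw [if_pos ⟨he, hd⟩]
        _ ≤ ∑ a ∈ A, if a ∈ S ∧ S.card ≤ d then coef p q r A F S ^ 2 else 0 := by
            apply Finset.single_le_sum (f := fun a => if a ∈ S ∧ S.card ≤ d then coef p q r A F S ^ 2 else 0)
            · intro a _
              split_ifs <;> positivity
            · exact hSA he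
    · apply Finset.sum_nonneg
      intro a _
      split_ifs <;> positivity
  calc _ ≤ _ := h1
    _ ≤ ∑ _e ∈ A, X := Finset.sum_le_sum hX
    _ = (A.card : ℝ) * X := by rw [Finset.sum_const, nsmul_eq_mul]

/-- The coefficient at the empty set is the mean. -/
lemma coef_empty (A : Finset α) (F : Finset α → ℝ) : coef p q r A F ∅ = E p q A F := by
  unfold coef chi
  simp

/-- Variance as the Fourier mass of the nonempty sets. -/
theorem variance_eq (P : Params p q r) (A : Finset α) (F : Finset α → ℝ) :
    E p q A (fun x => F x ^ 2) - E p q A F ^ 2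
      = ∑ S ∈ A.powerset.filter (fun S => S.Nonempty), coef p q r A F S ^ 2 := by
  rw [parseval_sq P, ← Finset.sum_filter_add_sum_filter_not A.powerset (fun S => S.Nonempty)]
  have : A.powerset.filter (fun S => ¬ S.Nonempty) = {∅} := by
    ext S
    simp only [Finset.mem_filter, Finset.mem_powerset, Finset.not_nonempty_iff_eq_empty, Finset.mem_singleton]
    constructor
    · exact fun h => h.2
    · intro h; subst h; exact ⟨Finset.empty_subset _, rfl⟩
  rw [this, Finset.sum_singleton, coef_empty]
  ring

end Vale.Agent.P063
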