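import Vale.Agent.P063.Bonami
import Vale.Agent.P063.Orbit

/-!
The pivotal weights of a random restriction, the list of heavy coordinates, and the symmetry of
the probability that a fixed set of coordinates lies in the list.
-/

namespace Vale.Agent.P063.SymQ

open Finset
open Vale.Agent.P063

variable {α : Type*} [DecidableEq α]

/-- The weight of the coordinate `e` in the restriction of `f` to the free set `J`, outside
values `x`. -/
noncomputable def W (p q : ℝ) (f : Finset α → ℝ) (J x : Finset α) (e : α) : ℝ :=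
  E p q (J.erase e) (fun y => |f (insert e y ∪ x) - f (y ∪ x)|)

/-- The total weight of the restriction. -/
noncomputable def Xi (p q : ℝ) (f : Finset α → ℝ) (J x : Finset α) : ℝ :=
  ∑ e ∈ J, W p q f J x e

open Classical in
/-- The list of heavy coordinates. -/
noncomputable def L (p q θ : ℝ) (f : Finset α → ℝ) (J x : Finset α) : Finset α :=
  J.filter (fun e => θ ≤ W p q f J x e)

/-- The event that `T` lies in the list, the total weight being bounded. -/
def Aev (p q θ Lam : ℝ) (f : Finset α → ℝ) (T J x : Finset α) : Prop :=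
  T ⊆ L p q θ f J x ∧ Xi p q f J x ≤ Lam

open Classical in
/-- The probability of the event, over the random free set `J` and the outside values. -/
noncomputable def qT (p q d d1 θ Lam : ℝ) (f : Finset α → ℝ) (Om T : Finset α) : ℝ :=
  E d d1 Om (fun J => E p q (Om \ J) (fun x => if Aev p q θ Lam f T J x then 1 else 0))

/-- The influence of a coordinate. -/
noncomputable def Inf (p q : ℝ) (f : Finset α → ℝ) (Om : Finset α) (e : α) : ℝ :=
  E p q (Om.erase e) (fun z => |f (insert e z) - f z|)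

section map

variable (σ : α ≃ α)

/-- Image of a finite set under a bijection. -/
abbrev mp (s : Finset α) : Finset α := s.map σ.toEmbedding

lemma mp_insert (e : α) (s : Finset α) : mp σ (insert e s) = insert (σ e) (mp σ s) := by
  simp [mp, Finset.map_insert]

lemma mp_union (s t : Finset α) : mp σ (s ∪ t) = mp σ s ∪ mp σ t := by
  simp [mp, Finset.map_union]

lemma mp_erase (e : α) (s : Finset α) : mp σ (s.erase e) = (mp σ s).erase (σ e) := by
  simp [mp, Finset.map_erase]

lemma mp_sdiff (s t : Finset α) : mp σ (s \ t) = mp σ s \ mp σ t := by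
  simp [mp, Finset.map_sdiff]

/-- Change of variables for the expectation. -/
lemma E_mp (p q : ℝ) (A : Finset α) (F : Finset α → ℝ) :
    E p q (mp σ A) F = E p q A (fun x => F (mp σ x)) := by
  induction A using Finset.induction_on generalizing F with
  | empty => simp
  | insert e A he ih =>
    have hne : σ e ∉ mp σ A := by simpa [mp] using he
    rw [mp_insert, E_insert p q hne, E_insert p q he, ih, ih]
    simp only [mp_insert]

variable {σ}

/-- The weight transforms covariantly. -/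
lemma W_mp {p q : ℝ} {f : Finset α → ℝ} (hf : ∀ x, f (mp σ x) = f x) (J x : Finset α) (e : α) :
    W p q f (mp σ J) (mp σ x) (σ e) = W p q f J x e := by
  unfold W
  rw [← mp_erase, E_mp]
  apply E_congr
  intro y _
  rw [← mp_insert, ← mp_union, ← mp_union, hf, hf]

lemma Xi_mp {p q : ℝ} {f : Finset α → ℝ} (hf : ∀ x, f (mp σ x) = f x) (J x : Finset α) :
    Xi p q f (mp σ J) (mp σ x) = Xi p q f J x := by
  unfold Xi
  rw [Finset.sum_map]
  apply Finset.sum_congr rfl
  intro e _
  exact W_mp hf J x e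

lemma L_mp {p q θ : ℝ} {f : Finset α → ℝ} (hf : ∀ x, f (mp σ x) = f x) (J x : Finset α) :
    L p q θ f (mp σ J) (mp σ x) = mp σ (L p q θ f J x) := by
  unfold L
  rw [Finset.filter_map]
  ext a
  simp only [Finset.mem_map, Finset.mem_filter, Function.comp, Equiv.coe_toEmbedding]
  constructor
  · rintro ⟨b, ⟨hb, hb2⟩, rfl⟩
    refine ⟨b, ⟨hb, ?_⟩, rfl⟩
    rwa [W_mp hf] at hb2
  · rintro ⟨b, ⟨hb, hb2⟩, rfl⟩
    refine ⟨b, ⟨hb, ?_⟩, rfl⟩
    rwa [W_mp hf]

lemma Aev_mp {p q θ Lam : ℝ} {f : Finset α → ℝ} (hf : ∀ x, f (mp σ x) = f x)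
    (T J x : Finset α) :
    Aev p q θ Lam f (mp σ T) (mp σ J) (mp σ x) ↔ Aev p q θ Lam f T J x := by
  unfold Aev
  rw [L_mp hf, Xi_mp hf]
  simp [mp, Finset.map_subset_map]

/-- **Symmetry**: the probability of the event is invariant. -/
theorem qT_mp {p q d d1 θ Lam : ℝ} {f : Finset α → ℝ} (hf : ∀ x, f (mp σ x) = f x)
    {Om : Finset α} (hOm : mp σ Om = Om) (T : Finset α) :
    qT p q d d1 θ Lam f Om (mp σ T) = qT p q d d1 θ Lam f Om T := by
  classical
  unfold qT
  conv_lhs => rw [← hOm]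
  rw [E_mp]
  apply E_congr
  intro J _
  rw [← mp_sdiff, E_mp]
  apply E_congr
  intro x _
  simp only [Aev_mp hf]

end map

section counting

variable {p q θ Lam : ℝ}

lemma W_nonneg (hp : 0 ≤ p) (hq : 0 ≤ q) (f : Finset α → ℝ) (J x : Finset α) (e : α) :
    0 ≤ W p q f J x e :=
  E_nonneg hp hq (fun _ _ => abs_nonneg _)

/-- The list has size at most `Xi / θ`. -/
lemma card_L_le (hp : 0 ≤ p) (hq : 0 ≤ q) (hθ : 0 < θ) (f : Finset α → ℝ) (J x : Finset α) :
    ((L p q θ f J x).card : ℝ) ≤ Xi p q f J x / θ := by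
  rw [le_div_iff₀ hθ]
  classical
  unfold Xi L
  calc ((J.filter (fun e => θ ≤ W p q f J x e)).card : ℝ) * θ
      = ∑ _e ∈ J.filter (fun e => θ ≤ W p q f J x e), θ := by
        rw [Finset.sum_const, nsmul_eq_mul]
    _ ≤ ∑ e ∈ J.filter (fun e => θ ≤ W p q f J x e), W p q f J x e :=
        Finset.sum_le_sum (fun e he => (Finset.mem_filter.mp he).2)
    _ ≤ ∑ e ∈ J, W p q f J x e :=
        Finset.sum_le_sum_of_subset_of_nonneg (Finset.filter_subset _ _)
          (fun e _ _ => W_nonneg hp hq f J x e)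

open Classical in
/-- Pointwise: a family of `t`-sets has at most `(Lam/θ)^t` members in the event. -/
lemma sum_ind_le (hp : 0 ≤ p) (hq : 0 ≤ q) (hθ : 0 < θ) (hLam : 0 ≤ Lam) (f : Finset α → ℝ)
    (J x : Finset α) (t : ℕ) (𝒯 : Finset (Finset α)) (h𝒯 : ∀ T ∈ 𝒯, T.card = t) :
    ∑ T ∈ 𝒯, (if Aev p q θ Lam f T J x then (1 : ℝ) else 0) ≤ (Lam / θ) ^ t := by
  have hpos : 0 ≤ Lam / θ := by positivity
  by_cases hX : Xi p q f J x ≤ Lam
  · set Ls := L p q θ f J x with hLs
    have hcard : (Ls.card : ℝ) ≤ Lam / θ :=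
      (card_L_le hp hq hθ f J x).trans (div_le_div_of_nonneg_right hX hθ.le)
    have hsub : 𝒯.filter (fun T => Aev p q θ Lam f T J x) ⊆ Finset.powersetCard t Ls := by
      intro T hT
      obtain ⟨hT1, hT2⟩ := Finset.mem_filter.mp hT
      exact Finset.mem_powersetCard.mpr ⟨hT2.1, h𝒯 T hT1⟩
    have h1 : ∑ T ∈ 𝒯, (if Aev p q θ Lam f T J x then (1 : ℝ) else 0)
        = ((𝒯.filter (fun T => Aev p q θ Lam f T J x)).card : ℝ) := by
      rw [Finset.sum_ite]; simp
    rw [h1]
    have h2 : (𝒯.filter (fun T => Aev p q θ Lam f T J x)).card ≤ Ls.card ^ t := by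
      calc _ ≤ (Finset.powersetCard t Ls).card := Finset.card_le_card hsub
        _ = Ls.card.choose t := Finset.card_powersetCard _ _
        _ ≤ Ls.card ^ t := Nat.choose_le_pow _ _
    calc ((𝒯.filter (fun T => Aev p q θ Lam f T J x)).card : ℝ)
        ≤ ((Ls.card ^ t : ℕ) : ℝ) := by exact_mod_cast h2
      _ = (Ls.card : ℝ) ^ t := by push_cast; rfl
      _ ≤ (Lam / θ) ^ t := pow_le_pow_left₀ (by positivity) hcard t
  · have : ∀ T ∈ 𝒯, (if Aev p q θ Lam f T J x then (1 : ℝ) else 0) = 0 := by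
      intro T _
      rw [if_neg]
      exact fun h => hX h.2
    rw [Finset.sum_congr rfl this, Finset.sum_const_zero]
    positivity

variable {d d1 : ℝ}

/-- The sum over a family of `t`-sets of the probabilities is at most `(Lam/θ)^t`. -/
theorem sum_qT_le (hp : 0 ≤ p) (hq : 0 ≤ q) (hpq : p + q = 1) (hd : 0 ≤ d) (hd1 : 0 ≤ d1)
    (hdd : d + d1 = 1) (hθ : 0 < θ) (hLam : 0 ≤ Lam) (f : Finset α → ℝ) (Om : Finset α)
    (t : ℕ) (𝒯 : Finset (Finset α)) (h𝒯 : ∀ T ∈ 𝒯, T.card = t) :
    ∑ T ∈ 𝒯, qT p q d d1 θ Lam f Om T ≤ (Lam / θ) ^ t := by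
  classical
  unfold qT
  rw [← E_sum]
  calc E d d1 Om (fun J => ∑ T ∈ 𝒯, E p q (Om \ J) (fun x =>
          if Aev p q θ Lam f T J x then (1 : ℝ) else 0))
      ≤ E d d1 Om (fun _ => (Lam / θ) ^ t) := by
        apply E_mono hd hd1
        intro J _
        rw [← E_sum]
        calc E p q (Om \ J) (fun x => ∑ T ∈ 𝒯, (if Aev p q θ Lam f T J x then (1 : ℝ) else 0))
            ≤ E p q (Om \ J) (fun _ => (Lam / θ) ^ t) := by
              apply E_mono hp hq
              intro x _
              exact sum_ind_le hp hq hθ hLam f J x t 𝒯 h𝒯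
          _ = (Lam / θ) ^ t := E_const hpq _ _
    _ = (Lam / θ) ^ t := E_const hdd _ _

lemma qT_nonneg (hp : 0 ≤ p) (hq : 0 ≤ q) (hd : 0 ≤ d) (hd1 : 0 ≤ d1)
    (f : Finset α → ℝ) (Om T : Finset α) : 0 ≤ qT p q d d1 θ Lam f Om T := by
  classical
  unfold qT
  apply E_nonneg hd hd1
  intro J _
  apply E_nonneg hp hq
  intro x _
  split_ifs <;> norm_num

end counting

section expectation

variable {p q d d1 : ℝ}

/-- Expectation of the weight over the outside values: it is the influence. -/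
lemma E_W_eq (f : Finset α → ℝ) {Om J : Finset α} (hJ : J ⊆ Om) {e : α} (he : e ∈ J) :
    E p q (Om \ J) (fun x => W p q f J x e) = Inf p q f Om e := by
  unfold W Inf
  have hdisj : Disjoint (J.erase e) (Om \ J) :=
    Finset.disjoint_of_subset_left (Finset.erase_subset _ _) Finset.disjoint_sdiff
  have hun : Om.erase e = J.erase e ∪ (Om \ J) := by
    ext a
    simp only [Finset.mem_erase, Finset.mem_union, Finset.mem_sdiff]
    constructor
    · rintro ⟨h1, h2⟩
      by_cases ha : a ∈ J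
      · exact Or.inl ⟨h1, ha⟩
      · exact Or.inr ⟨h2, ha⟩
    · rintro (⟨h1, h2⟩ | ⟨h1, h2⟩)
      · exact ⟨h1, hJ h2⟩
      · exact ⟨fun h => h2 (h ▸ he), h1⟩
  rw [hun, E_union _ _ hdisj]
  apply E_congr
  intro x _
  apply E_congr
  intro y _
  rw [Finset.insert_union]

lemma E_Xi_eq (f : Finset α → ℝ) {Om J : Finset α} (hJ : J ⊆ Om) :
    E p q (Om \ J) (fun x => Xi p q f J x) = ∑ e ∈ J, Inf p q f Om e := by
  unfold Xi
  rw [E_sum]
  exact Finset.sum_congr rfl (fun e he => E_W_eq f hJ he)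

/-- A coordinate belongs to the random set with probability the density. -/
lemma E_mem_eq (hdd : d + d1 = 1) {Om : Finset α} {e : α} (he : e ∈ Om) :
    E d d1 Om (fun J => if e ∈ J then (1 : ℝ) else 0) = d := by
  obtain ⟨A, hA, rfl⟩ : ∃ A, e ∉ A ∧ Om = insert e A :=
    ⟨Om.erase e, by simp, (Finset.insert_erase he).symm⟩
  rw [E_insert d d1 hA]
  have h1 : E d d1 A (fun x => if e ∈ insert e x then (1 : ℝ) else 0) = 1 := by
    rw [E_congr d d1 (G := fun _ => (1 : ℝ)) (fun x _ => by simp)]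
    exact E_const hdd A 1
  have h2 : E d d1 A (fun x => if e ∈ x then (1 : ℝ) else 0) = 0 := by
    rw [E_congr d d1 (G := fun _ => (0 : ℝ)) (fun x hx => by
      have : e ∉ x := fun h => hA (hx h)
      simp [this])]
    exact E_const hdd A 0
  rw [h1, h2]; ring

/-- Linearity in the random set. -/
lemma E_sum_mem_eq (hdd : d + d1 = 1) (Om : Finset α) (c : α → ℝ) :
    E d d1 Om (fun J => ∑ e ∈ J, c e) = d * ∑ e ∈ Om, c e := by
  have h : ∀ J, J ∈ Om.powerset → ∑ e ∈ J, c e = ∑ e ∈ Om, c e * (if e ∈ J then (1 : ℝ) else 0) := by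
    intro J hJ
    have hJ' := Finset.mem_powerset.mp hJ
    simp only [mul_ite, mul_one, mul_zero]
    rw [Finset.sum_ite_mem, Finset.inter_eq_right.mpr hJ']
  have h2 : E d d1 Om (fun J => ∑ e ∈ J, c e)
      = E d d1 Om (fun J => ∑ e ∈ Om, c e * (if e ∈ J then (1 : ℝ) else 0)) :=
    E_congr d d1 (fun x hx => h x (Finset.mem_powerset.mpr hx))
  rw [h2, E_sum, Finset.mul_sum]
  apply Finset.sum_congr rfl
  intro e he
  rw [E_const_mul, E_mem_eq hdd he]
  ring

/-- **Expected total weight**: `E_J E_x Xi = δ I`. -/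
theorem E_E_Xi (hdd : d + d1 = 1) (f : Finset α → ℝ) (Om : Finset α) :
    E d d1 Om (fun J => E p q (Om \ J) (fun x => Xi p q f J x))
      = d * ∑ e ∈ Om, Inf p q f Om e := by
  rw [← E_sum_mem_eq hdd]
  exact E_congr d d1 (fun J hJ => E_Xi_eq f hJ)

open Classical in
/-- **Markov** for the total weight. -/
theorem markov_Xi (hp : 0 ≤ p) (hq : 0 ≤ q) (hd : 0 ≤ d) (hd1 : 0 ≤ d1) (hdd : d + d1 = 1)
    {Lam : ℝ} (hLam : 0 < Lam) (f : Finset α → ℝ) (Om : Finset α) :
    E d d1 Om (fun J => E p q (Om \ J) (fun x => if Lam < Xi p q f J x then (1 : ℝ) else 0))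
      ≤ d * (∑ e ∈ Om, Inf p q f Om e) / Lam := by
  rw [le_div_iff₀ hLam, ← E_E_Xi hdd, ← E_mul_const]
  apply E_mono hd hd1
  intro J _
  rw [← E_mul_const]
  apply E_mono hp hq
  intro x _
  have hXi : 0 ≤ Xi p q f J x := Finset.sum_nonneg (fun e _ => W_nonneg hp hq f J x e)
  split_ifs with h
  · linarith
  · simpa using hXi

end expectation

section orbit

variable {V : Type*} [Fintype V] [DecidableEq V]

/-- **Orbit bound for the event probability**: if the vertex permutations act on the coordinates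
by bijections preserving `Om` and `f`, a set `T` with `v` non-isolated vertices has
`q_T * choose |V| v ≤ (Lam/θ)^|T|`. -/
theorem qT_mul_choose_le {p q d d1 θ Lam : ℝ} (hp : 0 ≤ p) (hq : 0 ≤ q) (hpq : p + q = 1)
    (hd : 0 ≤ d) (hd1 : 0 ≤ d1) (hdd : d + d1 = 1) (hθ : 0 < θ) (hLam : 0 ≤ Lam)
    (ends : α → Finset V) (act : Equiv.Perm V → α → α)
    (hact : ∀ π e, ends (act π e) = (ends e).map π.toEmbedding)
    (hbij : ∀ π, Function.Bijective (act π))
    {f : Finset α → ℝ} (hf : ∀ π x, f (x.image (act π)) = f x)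
    {Om : Finset α} (hOm : ∀ π, Om.image (act π) = Om) (T : Finset α) :
    qT p q d d1 θ Lam f Om T * ((Fintype.card V).choose (Orbit.supp ends T).card : ℝ)
      ≤ (Lam / θ) ^ T.card := by
  classical
  have himg : ∀ (π : Equiv.Perm V) (s : Finset α),
      s.image (act π) = mp (Equiv.ofBijective (act π) (hbij π)) s := by
    intro π s
    rw [mp, Finset.map_eq_image]
    rfl
  have hinv : ∀ π T, qT p q d d1 θ Lam f Om (T.image (act π)) = qT p q d d1 θ Lam f Om T := by
    intro π T
    rw [himg]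
    apply qT_mp
    · intro x
      rw [← himg, hf]
    · rw [← himg, hOm]
  refine Orbit.q_mul_choose_le ends act hact (qT p q d d1 θ Lam f Om) hinv T
    (qT_nonneg hp hq hd hd1 f Om T) _ ?_
  apply sum_qT_le hp hq hpq hd hd1 hdd hθ hLam f Om
  intro T' hT'
  obtain ⟨π, -, rfl⟩ := Finset.mem_image.mp hT'
  exact Finset.card_image_of_injective _ (hbij π).1

end orbit

end Vale.Agent.P063.SymQ
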