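import Vale.Agent.P063.Sym
import Vale.Agent.P063.SymQ
import Vale.Agent.P063.Ranges

/-!
The expected total pivotality under the joint law of the random free set and the outside values,
in terms of the total influence; Markov bound.
-/

namespace Vale.Agent.P063

open Finset

variable {α : Type*} [DecidableEq α]
variable {p q d : ℝ}

lemma piv_eq_W (f : Finset α → ℝ) (J x : Finset α) (e : α) :
    piv p q f J x e = SymQ.W p q f J x e := rfl

lemma Xi_eq_Xi (f : Finset α → ℝ) (J x : Finset α) :
    Xi p q f J x = SymQ.Xi p q f J x := rfl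

/-- The pivotality influence equals the squared influence for Boolean functions. -/
lemma Inf_eq_infl {f : Finset α → ℝ} (hf : ∀ x, f x = 0 ∨ f x = 1) (Om : Finset α) (e : α) :
    SymQ.Inf p q f Om e = infl p q Om f e := by
  unfold SymQ.Inf infl
  apply E_congr
  intro z _
  rcases hf (insert e z) with h1 | h1 <;> rcases hf z with h2 | h2 <;> rw [h1, h2] <;> norm_num

/-- Expected pivotality of a coordinate in the free set, over the outside values. -/
lemma E_piv_eq {f : Finset α → ℝ} (hf : ∀ x, f x = 0 ∨ f x = 1) {Om J : Finset α} (hJ : J ⊆ Om)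
    {e : α} (he : e ∈ J) :
    E p q (Om \ J) (fun x => piv p q f J x e) = infl p q Om f e := by
  rw [← Inf_eq_infl hf]
  exact SymQ.E_W_eq f hJ he

/-- **Expected total pivotality**: `E_J E_x Xi = δ I`. -/
theorem E_E_Xi_eq {f : Finset α → ℝ} (hf : ∀ x, f x = 0 ∨ f x = 1) (Om : Finset α) :
    E d (1 - d) Om (fun J => E p q (Om \ J) (fun x => Xi p q f J x))
      = d * totInfl p q Om f := by
  have h := SymQ.E_E_Xi (p := p) (q := q) (d := d) (d1 := 1 - d) (by ring) f Om
  unfold totInfl
  rw [← Finset.sum_congr rfl (fun e _ => Inf_eq_infl (p := p) (q := q) hf Om e)]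
  exact h

open Classical in
/-- **Markov** for the total pivotality. -/
theorem markov_Xi {f : Finset α → ℝ} (hf : ∀ x, f x = 0 ∨ f x = 1) (hp : 0 ≤ p) (hq : 0 ≤ q)
    (hd : 0 ≤ d) (hd1 : d ≤ 1) {Lam : ℝ} (hLam : 0 < Lam) (Om : Finset α) :
    E d (1 - d) Om (fun J => E p q (Om \ J) (fun x => if Lam < Xi p q f J x then (1 : ℝ) else 0))
      ≤ d * totInfl p q Om f / Lam := by
  have h := SymQ.markov_Xi (p := p) (q := q) (d := d) (d1 := 1 - d) hp hq hd (by linarith)
    (by ring) hLam f Om
  unfold totInfl
  rw [← Finset.sum_congr rfl (fun e _ => Inf_eq_infl (p := p) (q := q) hf Om e)]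
  exact h

end Vale.Agent.P063
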