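import Vale.Agent.P063.TheoremA
import Vale.Agent.P063.MidInst
import Vale.Agent.P063.Exponent
import Vale.Agent.P063.XiMean

/-!
The estimate of the middle range and the derivative bound.
-/

namespace Vale.Agent.P063

open Finset Filter

/-- A function on the edges invariant under relabelling of vertices, image form. -/
lemma indF_image {n : ℕ} {A : Set (Thr.Edge n → Bool)} (hA : Thr.IsGraphProp A)
    (σ : Equiv.Perm (Fin n)) (x : Finset (Thr.Edge n)) :
    indF A (x.image (Thr.Edge.perm σ)) = indF A x := by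
  have h := indF_map hA σ x
  rwa [Finset.map_eq_image] at h

lemma eventually_small_exp (ε : ℝ) (hε : 0 < ε) : ∀ᶠ n : ℕ in atTop,
    Real.exp (-(Real.log n / 128)) ≤ 1 / 2 ∧
      8 * Real.sqrt (2 * Real.exp (-(Real.log n / 128))) ≤ ε / 2 := by
  have hlog : Tendsto (fun n : ℕ => Real.log (n : ℝ)) atTop atTop :=
    Real.tendsto_log_atTop.comp tendsto_natCast_atTop_atTop
  have h1 : Tendsto (fun n : ℕ => Real.log (n : ℝ) / 128) atTop atTop :=
    hlog.atTop_div_const (by norm_num)
  have h2 : Tendsto (fun n : ℕ => Real.exp (-(Real.log (n : ℝ) / 128))) atTop (nhds 0) :=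
    Real.tendsto_exp_neg_atTop_nhds_zero.comp h1
  have hη : 0 < min (1 / 2) (ε ^ 2 / 512) := by positivity
  filter_upwards [h2.eventually (gt_mem_nhds hη)] with n hn
  have h3 : Real.exp (-(Real.log (n : ℝ) / 128)) ≤ 1 / 2 := hn.le.trans (min_le_left _ _)
  have h4 : Real.exp (-(Real.log (n : ℝ) / 128)) ≤ ε ^ 2 / 512 := hn.le.trans (min_le_right _ _)
  refine ⟨h3, ?_⟩
  have h5 : Real.sqrt (2 * Real.exp (-(Real.log (n : ℝ) / 128))) ≤ ε / 16 := by
    rw [Real.sqrt_le_iff]
    refine ⟨by positivity, ?_⟩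
    nlinarith
  linarith

theorem midBound : MidBound := by
  intro ε hε
  set ε0 := min (ε / 32) 1 with hε0
  have h0 : 0 < ε0 := by positivity
  have h1 : ε0 ≤ 1 := min_le_right _ _
  have h2 : ε0 ≤ ε / 32 := min_le_left _ _
  have hlog : Tendsto (fun n : ℕ => Real.log (n : ℝ)) atTop atTop :=
    Real.tendsto_log_atTop.comp tendsto_natCast_atTop_atTop
  have hev := (eventually_small_exp ε hε).and
    ((hlog.eventually Params.eventually_dl_le_one).and
    ((hlog.eventually (Exponent.exponent_eventually h0 h1)).and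
    ((hlog.eventually Exponent.support_sq_le).and
    ((hlog.eventually_ge_atTop (1 : ℝ)).and (eventually_ge_atTop 2)))))
  obtain ⟨n0, hn0⟩ := eventually_atTop.1 hev
  refine ⟨1, one_pos, n0, ?_⟩
  intro n hn A hA p hp0 hp1 hs hI0 hI
  obtain ⟨⟨hsmall, hsmall2⟩, hdl, hexpo, hsupp, hl, hn2⟩ := hn0 n hn
  have P := params_of hp0 hp1
  have hl0 : 0 < Real.log (n : ℝ) := by linarith
  have hnpos : (0 : ℝ) < n := by
    have : (2 : ℝ) ≤ n := by exact_mod_cast hn2
    linarith
  have hs0 : 0 < p * (1 - p) := mul_pos hp0 (by linarith)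
  have hs1 : p * (1 - p) ≤ 1 / 4 := s2_le
  have hr2 : Real.sqrt (p * (1 - p)) ^ 2 = p * (1 - p) := Real.sq_sqrt hs0.le
  set l := Real.log (n : ℝ) with hldef
  set s2 := p * (1 - p) with hs2def
  have hb := Params.bb_pos hs0 hs1
  have hδ : 0 < Params.dl s2 l := by unfold Params.dl; positivity
  have hδ1 : Params.dl s2 l ≤ 1 := hdl s2 hs hs1
  have hM0 : 0 < Params.MM s2 l := by unfold Params.MM Params.bt; positivity
  set δ := Params.dl s2 l with hδdef
  set M := Params.MM s2 l with hMdef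
  set d := ⌊2 * (δ * M)⌋₊ with hddef
  have hd1 : (d : ℝ) ≤ 2 * (δ * M) + 1 := by
    have := Nat.floor_le (show 0 ≤ 2 * (δ * M) by positivity)
    linarith
  have hd2 : 2 * δ * M ≤ ((d + 1 : ℕ) : ℝ) := by
    have := Nat.lt_floor_add_one (2 * (δ * M))
    push_cast
    linarith
  set Lam := δ * l ^ 2 / ε0 with hLamdef
  have hLam : 0 < Lam := by positivity
  set θ := Exponent.thetaOf s2 ε0 Lam d with hθdef
  have hR : 0 < s2 * Real.sqrt ((4 / s2) ^ d) * Lam := by positivity
  have hθ : 0 < θ := by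
    rw [hθdef]
    unfold Exponent.thetaOf
    positivity
  have hv : 4 * (d + 1) ^ 2 ≤ n := by
    have h3 := hsupp s2 hs0 hs1 d (2 * (d + 1)) hd1 le_rfl
    rw [hldef, Real.exp_log hnpos] at h3
    have h4 : ((2 * (d + 1) : ℕ) : ℝ) ^ 2 = ((4 * (d + 1) ^ 2 : ℕ) : ℝ) := by
      push_cast
      ring
    rw [h4] at h3
    exact_mod_cast h3
  have hbudget : Real.log M + (Real.log (4 / Real.sqrt s2 ^ 2) / δ + Real.log (Lam / θ) / 2
      - Real.log n / 64) ≤ -(Real.log n / 128) := by
    rw [hr2]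
    have h3 := hexpo s2 hs hs1 d hd1
    have h4 : Real.log M ≤ Real.log (4 * M) := Real.log_le_log hM0 (by linarith)
    have h5 : -(l / 128) = -l / 128 := by ring
    rw [h5]
    linarith
  have hmid := mid_bound (by omega) P hδ hδ1 hθ hLam (indF A) (indF_zero_or_one A) (indF_image hA)
    (m0 := 512 / δ) (by rw [mul_div_cancel₀ _ hδ.ne']) hd2 (Params.dl_sq_MM_le hs0 hs1 hl0) hM0 hv
    hbudget hsmall
  rw [hr2] at hmid
  have hInf : ∑ e, SymQ.Inf p (1 - p) (indF A) univ e = totInfl p (1 - p) univ (indF A) :=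
    Finset.sum_congr rfl (fun e _ => Inf_eq_infl (indF_zero_or_one A) univ e)
  rw [hInf] at hmid
  set I := totInfl p (1 - p) univ (indF A) with hIdef
  set V := ∑ S ∈ GoodInst.calS (univ : Finset (Thr.Edge n)) (512 / δ) M,
    coef p (1 - p) (Real.sqrt s2) univ (indF A) S ^ 2 with hVdef
  have hV0 : 0 ≤ V := Finset.sum_nonneg fun _ _ => sq_nonneg _
  have hV1 : V ≤ 1 := by
    have h3 : V ≤ ∑ S ∈ (univ : Finset (Thr.Edge n)).powerset,
        coef p (1 - p) (Real.sqrt s2) univ (indF A) S ^ 2 := by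
      apply Finset.sum_le_sum_of_subset_of_nonneg
      · intro S hS
        exact Finset.mem_powerset.2 (GoodInst.calS_subset hS)
      · intro _ _ _
        exact sq_nonneg _
    rw [← parseval_sq P] at h3
    refine h3.trans ?_
    calc E p (1 - p) univ (fun x => indF A x ^ 2) ≤ E p (1 - p) univ (fun _ => 1) := by
          apply E_mono P.hp.le P.hq.le
          intro x _
          rcases indF_zero_or_one A x with h | h <;> rw [h] <;> norm_num
      _ = 1 := E_one P.hpq _
  have hT1 : δ * I / Lam ≤ ε0 := by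
    rw [hLamdef, div_le_iff₀ (by positivity)]
    have hl2 : 0 < l ^ 2 := by positivity
    have h3 : I ≤ l ^ 2 := by linarith
    have h4 : ε0 * (δ * l ^ 2 / ε0) = δ * l ^ 2 := by field_simp
    rw [h4]
    exact mul_le_mul_of_nonneg_left h3 hδ.le
  have hT2 : s2 * Real.sqrt ((4 / s2) ^ d) * Real.sqrt θ * Lam = ε0 := by
    have h3 : Real.sqrt θ = ε0 / (s2 * Real.sqrt ((4 / s2) ^ d) * Lam) := by
      rw [hθdef]
      unfold Exponent.thetaOf
      exact Real.sqrt_sq (by positivity)
    rw [h3]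
    field_simp
  have hT3 : Real.sqrt (2 * Real.exp (-(Real.log n / 128)) * V)
      ≤ Real.sqrt (2 * Real.exp (-(Real.log n / 128))) := by
    apply Real.sqrt_le_sqrt
    have : 0 ≤ 2 * Real.exp (-(Real.log n / 128)) := by positivity
    nlinarith
  have hsub : ∑ S ∈ (univ : Finset (Thr.Edge n)).powerset.filter (fun S =>
        ⌈512 / δ⌉₊ + 1 < S.card ∧ (S.card : ℝ) ≤ M),
      coef p (1 - p) (Real.sqrt s2) univ (indF A) S ^ 2 ≤ V := by
    apply Finset.sum_le_sum_of_subset_of_nonneg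
    · intro S hS
      obtain ⟨h3, h4, h5⟩ := Finset.mem_filter.1 hS
      refine Finset.mem_filter.2 ⟨h3, ?_, h5⟩
      have h6 : 512 / δ ≤ (⌈512 / δ⌉₊ : ℝ) := Nat.le_ceil _
      have h7 : ((⌈512 / δ⌉₊ + 1 : ℕ) : ℝ) ≤ (S.card : ℝ) := by exact_mod_cast h4.le
      push_cast at h7
      linarith
    · intro _ _ _
      exact sq_nonneg _
  refine hsub.trans ?_
  rw [hT2] at hmid
  linarith

/-- The derivative bound. -/
theorem keyBoundMid : Thr.KeyBoundMid := keyBoundMid_of_mid midBound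

end Vale.Agent.P063
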