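import Vale.Agent.P063.Cube

namespace Vale.Agent.P063

open Finset

variable {α : Type*} [DecidableEq α]

/-- Standing hypotheses on the parameters. -/
structure Params (p q r : ℝ) : Prop where
  hp : 0 < p
  hq : 0 < q
  hr : 0 < r
  hpq : p + q = 1
  hrr : r ^ 2 = p * q

namespace Params
variable {p q r : ℝ}

lemma pa_sub (P : Params p q r) : p * (q / r) + q * (-p / r) = 0 := by
  field_simp [P.hr.ne']; ring

lemma pa2 (P : Params p q r) : p * (q / r) ^ 2 + q * (-p / r) ^ 2 = 1 := by
  have hr := P.hr.ne'
  field_simp
  have := P.hrr
  have h2 := P.hpq
  nlinarith [P.hrr, P.hpq]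

lemma r_sq_le (P : Params p q r) : r ^ 2 ≤ 1 / 4 := by
  rw [P.hrr]
  have : q = 1 - p := by linarith [P.hpq]
  rw [this]; nlinarith [sq_nonneg (p - 1 / 2)]

end Params

section chi

variable {p q r : ℝ}

lemma chi_insert_of_not_mem_right {S x : Finset α} {e : α} (he : e ∉ S) :
    chi p q r S (insert e x) = chi p q r S x := by
  unfold chi
  apply Finset.prod_congr rfl
  intro a ha
  have : a ≠ e := fun h => he (h ▸ ha)
  simp [phi, this]

lemma chi_insert_left {S x : Finset α} {e : α} (he : e ∉ S) :
    chi p q r (insert e S) x = phi p q r e x * chi p q r S x := by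
  unfold chi
  rw [Finset.prod_insert he]

lemma phi_insert_self (e : α) (x : Finset α) : phi p q r e (insert e x) = q / r := by
  simp [phi]

lemma phi_of_not_mem {e : α} {x : Finset α} (h : e ∉ x) : phi p q r e x = -p / r := by
  simp [phi, h]

lemma chi_congr {S x y : Finset α} (h : ∀ e ∈ S, (e ∈ x ↔ e ∈ y)) :
    chi p q r S x = chi p q r S y := by
  unfold chi
  apply Finset.prod_congr rfl
  intro e he
  simp [phi, h e he]

/-- Coefficient decomposition, `e ∉ S`. -/
lemma coef_insert_of_not_mem (F : Finset α → ℝ) {A S : Finset α} {e : α}
    (he : e ∉ A) (hS : e ∉ S) :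
    coef p q r (insert e A) F S =
      p * coef p q r A (fun x => F (insert e x)) S + q * coef p q r A F S := by
  unfold coef
  rw [E_insert p q he]
  congr 2
  apply E_congr
  intro x _
  rw [chi_insert_of_not_mem_right hS]

/-- Coefficient decomposition, the set contains `e`. -/
lemma coef_insert_self (P : Params p q r) (F : Finset α → ℝ) {A S : Finset α} {e : α}
    (he : e ∉ A) (hS : e ∉ S) :
    coef p q r (insert e A) F (insert e S) =
      r * (coef p q r A (fun x => F (insert e x)) S - coef p q r A F S) := by
  unfold coef
  rw [E_insert p q he]
  have h1 : E p q A (fun x => F (insert e x) * chi p q r (insert e S) (insert e x))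
      = (q / r) * E p q A (fun x => F (insert e x) * chi p q r S x) := by
    rw [← E_const_mul]
    apply E_congr
    intro x _
    rw [chi_insert_left hS, phi_insert_self, chi_insert_of_not_mem_right hS]; ring
  have h2 : E p q A (fun x => F x * chi p q r (insert e S) x)
      = (-p / r) * E p q A (fun x => F x * chi p q r S x) := by
    rw [← E_const_mul]
    apply E_congr
    intro x hx
    rw [chi_insert_left hS, phi_of_not_mem (fun h => he (hx h))]; ring
  rw [h1, h2]
  have hr := P.hr.ne'
  have hrr := P.hrr
  field_simp
  rw [hrr]; ring

/-- Bilinear Parseval identity. -/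
lemma parseval (P : Params p q r) (A : Finset α) (F G : Finset α → ℝ) :
    E p q A (fun x => F x * G x) =
      ∑ S ∈ A.powerset, coef p q r A F S * coef p q r A G S := by
  induction A using Finset.induction_on generalizing F G with
  | empty =>
    simp [coef, chi]
  | insert e A he ih =>
    rw [E_insert p q he, ih, ih, Finset.sum_powerset_insert he, Finset.mul_sum, Finset.mul_sum,
      ← Finset.sum_add_distrib, ← Finset.sum_add_distrib]
    apply Finset.sum_congr rfl
    intro S hS
    have hSe : e ∉ S := fun h => he (Finset.mem_powerset.mp hS h)
    rw [coef_insert_of_not_mem F he hSe, coef_insert_of_not_mem G he hSe,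
      coef_insert_self P F he hSe, coef_insert_self P G he hSe]
    have hrr := P.hrr
    have hpq := P.hpq
    set a := coef p q r A (fun x => F (insert e x)) S
    set b := coef p q r A F S
    set c := coef p q r A (fun x => G (insert e x)) S
    set d := coef p q r A G S
    have : q = 1 - p := by linarith
    have h3 : r * (a - b) * (r * (c - d)) = (r ^ 2) * ((a - b) * (c - d)) := by ring
    rw [h3, hrr, this]
    ring

/-- Parseval for a single function. -/
lemma parseval_sq (P : Params p q r) (A : Finset α) (F : Finset α → ℝ) :
    E p q A (fun x => F x ^ 2) = ∑ S ∈ A.powerset, coef p q r A F S ^ 2 := by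
  have := parseval P A F F
  simp only [← sq] at this
  exact this

/-- Orthonormality of the characters. -/
lemma coef_chi (P : Params p q r) (A : Finset α) {S T : Finset α} (hS : S ⊆ A) (hT : T ⊆ A) :
    coef p q r A (chi p q r S) T = if S = T then 1 else 0 := by
  induction A using Finset.induction_on generalizing S T with
  | empty =>
    have h1 : S = ∅ := Finset.subset_empty.mp hS
    have h2 : T = ∅ := Finset.subset_empty.mp hT
    subst h1; subst h2
    simp [coef, chi]
  | insert e A he ih =>
    by_cases h1 : e ∈ S <;> by_cases h2 : e ∈ T
    · -- both contain `e`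
      obtain ⟨S', hS', rfl⟩ : ∃ S', e ∉ S' ∧ S = insert e S' :=
        ⟨S.erase e, by simp, (Finset.insert_erase h1).symm⟩
      obtain ⟨T', hT', rfl⟩ : ∃ T', e ∉ T' ∧ T = insert e T' :=
        ⟨T.erase e, by simp, (Finset.insert_erase h2).symm⟩
      have hS'A : S' ⊆ A := fun a ha => by
        have := hS (Finset.mem_insert_of_mem ha)
        rcases Finset.mem_insert.mp this with h | h
        · exact absurd (h ▸ ha) hS'
        · exact h
      have hT'A : T' ⊆ A := fun a ha => by
        have := hT (Finset.mem_insert_of_mem ha)
        rcases Finset.mem_insert.mp this with h | h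
        · exact absurd (h ▸ ha) hT'
        · exact h
      rw [coef_insert_self P _ he hT']
      have e1 : (fun x => chi p q r (insert e S') (insert e x))
          = fun x => (q / r) * chi p q r S' x := by
        funext x
        rw [chi_insert_left hS', phi_insert_self, chi_insert_of_not_mem_right hS']
      have c1 : coef p q r A (fun x => chi p q r (insert e S') (insert e x)) T'
          = (q / r) * coef p q r A (chi p q r S') T' := by
        rw [e1]; unfold coef
        rw [← E_const_mul]; apply E_congr; intro x _; ring
      have c2 : coef p q r A (chi p q r (insert e S')) T'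
          = (-p / r) * coef p q r A (chi p q r S') T' := by
        unfold coef
        rw [← E_const_mul]; apply E_congr; intro x hx
        rw [chi_insert_left hS', phi_of_not_mem (fun h => he (hx h))]; ring
      rw [c1, c2, ih hS'A hT'A]
      have hinj : insert e S' = insert e T' ↔ S' = T' := by
        constructor
        · intro h
          have := congrArg (fun s => Finset.erase s e) h
          simpa [hS', hT'] using this
        · intro h; rw [h]
      simp only [hinj]
      have hr := P.hr.ne'
      split_ifs
      · field_simp; linarith [P.hpq]
      · simp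
    · -- `e` in `S` only
      obtain ⟨S', hS', rfl⟩ : ∃ S', e ∉ S' ∧ S = insert e S' :=
        ⟨S.erase e, by simp, (Finset.insert_erase h1).symm⟩
      have hS'A : S' ⊆ A := fun a ha => by
        have := hS (Finset.mem_insert_of_mem ha)
        rcases Finset.mem_insert.mp this with h | h
        · exact absurd (h ▸ ha) hS'
        · exact h
      have hTA : T ⊆ A := fun a ha => by
        have := hT ha
        rcases Finset.mem_insert.mp this with h | h
        · exact absurd (h ▸ ha) h2
        · exact h
      rw [coef_insert_of_not_mem _ he h2]
      have e1 : (fun x => chi p q r (insert e S') (insert e x))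
          = fun x => (q / r) * chi p q r S' x := by
        funext x
        rw [chi_insert_left hS', phi_insert_self, chi_insert_of_not_mem_right hS']
      have c1 : coef p q r A (fun x => chi p q r (insert e S') (insert e x)) T
          = (q / r) * coef p q r A (chi p q r S') T := by
        rw [e1]; unfold coef
        rw [← E_const_mul]; apply E_congr; intro x _; ring
      have c2 : coef p q r A (chi p q r (insert e S')) T
          = (-p / r) * coef p q r A (chi p q r S') T := by
        unfold coef
        rw [← E_const_mul]; apply E_congr; intro x hx
        rw [chi_insert_left hS', phi_of_not_mem (fun h => he (hx h))]; ring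
      rw [c1, c2, ih hS'A hTA]
      have hne : insert e S' ≠ T := fun h => h2 (h ▸ Finset.mem_insert_self _ _)
      rw [if_neg hne]
      have hr := P.hr.ne'
      split_ifs
      · field_simp; ring
      · simp
    · -- `e` in `T` only
      obtain ⟨T', hT', rfl⟩ : ∃ T', e ∉ T' ∧ T = insert e T' :=
        ⟨T.erase e, by simp, (Finset.insert_erase h2).symm⟩
      have hT'A : T' ⊆ A := fun a ha => by
        have := hT (Finset.mem_insert_of_mem ha)
        rcases Finset.mem_insert.mp this with h | h
        · exact absurd (h ▸ ha) hT'
        · exact h
      have hSA : S ⊆ A := fun a ha => by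
        have := hS ha
        rcases Finset.mem_insert.mp this with h | h
        · exact absurd (h ▸ ha) h1
        · exact h
      rw [coef_insert_self P _ he hT']
      have c1 : coef p q r A (fun x => chi p q r S (insert e x)) T'
          = coef p q r A (chi p q r S) T' := by
        unfold coef
        apply E_congr; intro x _
        simp only [chi_insert_of_not_mem_right h1]
      rw [c1, sub_self, mul_zero]
      have hne : S ≠ insert e T' := fun h => h1 (h ▸ Finset.mem_insert_self _ _)
      rw [if_neg hne]
    · -- neither contains `e`
      have hSA : S ⊆ A := fun a ha => by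
        have := hS ha
        rcases Finset.mem_insert.mp this with h | h
        · exact absurd (h ▸ ha) h1
        · exact h
      have hTA : T ⊆ A := fun a ha => by
        have := hT ha
        rcases Finset.mem_insert.mp this with h | h
        · exact absurd (h ▸ ha) h2
        · exact h
      rw [coef_insert_of_not_mem _ he h2]
      have c1 : coef p q r A (fun x => chi p q r S (insert e x)) T
          = coef p q r A (chi p q r S) T := by
        unfold coef
        apply E_congr; intro x _
        simp only [chi_insert_of_not_mem_right h1]
      rw [c1, ih hSA hTA]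
      have hpq := P.hpq
      split_ifs
      · linarith
      · simp

end chi

/-- Linear combination of characters, with a finite index set. -/
noncomputable def poly (p q r : ℝ) (I : Finset (Finset α)) (c : Finset α → ℝ)
    (x : Finset α) : ℝ := ∑ S ∈ I, c S * chi p q r S x

section poly

variable {p q r : ℝ}

lemma coef_poly (P : Params p q r) {A : Finset α} {I : Finset (Finset α)} (hI : I ⊆ A.powerset)
    (c : Finset α → ℝ) {T : Finset α} (hT : T ⊆ A) :
    coef p q r A (poly p q r I c) T = if T ∈ I then c T else 0 := by
  unfold coef poly
  have : (fun x => (∑ S ∈ I, c S * chi p q r S x) * chi p q r T x)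
      = fun x => ∑ S ∈ I, c S * (chi p q r S x * chi p q r T x) := by
    funext x; rw [Finset.sum_mul]; apply Finset.sum_congr rfl; intro S _; ring
  rw [this, E_sum]
  have h2 : ∀ S ∈ I, E p q A (fun x => c S * (chi p q r S x * chi p q r T x))
      = c S * (if S = T then 1 else 0) := by
    intro S hS
    rw [E_const_mul]
    congr 1
    exact coef_chi P A (Finset.mem_powerset.mp (hI hS)) hT
  rw [Finset.sum_congr rfl h2]
  split_ifs with h
  · rw [Finset.sum_eq_single T]
    · simp
    · intro b _ hb; simp [hb]
    · intro h'; exact absurd h h'
  · apply Finset.sum_eq_zero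
    intro S hS
    have : S ≠ T := fun hh => h (hh ▸ hS)
    simp [this]

/-- Squared norm of a linear combination of characters. -/
lemma E_poly_sq (P : Params p q r) {A : Finset α} {I : Finset (Finset α)} (hI : I ⊆ A.powerset)
    (c : Finset α → ℝ) :
    E p q A (fun x => poly p q r I c x ^ 2) = ∑ S ∈ I, c S ^ 2 := by
  rw [parseval_sq P]
  have : ∀ S ∈ A.powerset, coef p q r A (poly p q r I c) S ^ 2 = if S ∈ I then c S ^ 2 else 0 := by
    intro S hS
    rw [coef_poly P hI c (Finset.mem_powerset.mp hS)]
    split_ifs <;> simp
  rw [Finset.sum_congr rfl this, Finset.sum_ite_mem, Finset.inter_eq_right.mpr hI]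

/-- Pairing of a linear combination of characters with a function. -/
lemma E_poly_mul (P : Params p q r) {A : Finset α} {I : Finset (Finset α)} (hI : I ⊆ A.powerset)
    (c : Finset α → ℝ) (G : Finset α → ℝ) :
    E p q A (fun x => poly p q r I c x * G x) = ∑ S ∈ I, c S * coef p q r A G S := by
  rw [parseval P]
  have : ∀ S ∈ A.powerset, coef p q r A (poly p q r I c) S * coef p q r A G S
      = if S ∈ I then c S * coef p q r A G S else 0 := by
    intro S hS
    rw [coef_poly P hI c (Finset.mem_powerset.mp hS)]
    split_ifs <;> simp
  rw [Finset.sum_congr rfl this, Finset.sum_ite_mem, Finset.inter_eq_right.mpr hI]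

end poly

end Vale.Agent.P063
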