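import Mathlib

/-!
The Margulis-Russo derivative formula for product measures, and the passage from a lower bound on
the derivative to an upper bound on the width of the transition.
-/

namespace Vale.Agent.P063.Russo

open scoped BigOperators
open Finset

variable {E : Type*} [Fintype E] [DecidableEq E]

/-- Weight of one coordinate. -/
def wt (p : ℝ) (b : Bool) : ℝ := if b then p else 1 - p

/-- Weight of a point under the product measure of density `p`. -/
def W (p : ℝ) (x : E → Bool) : ℝ := ∏ e, wt p (x e)

/-- Expectation under the product measure of density `p`. -/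
def Ex (p : ℝ) (f : (E → Bool) → ℝ) : ℝ := ∑ x, W p x * f x

/-- The point with coordinate `e` set to `b`. -/
def setc (x : E → Bool) (e : E) (b : Bool) : E → Bool := Function.update x e b

/-- The discrete derivative. -/
def De (f : (E → Bool) → ℝ) (e : E) (x : E → Bool) : ℝ := f (setc x e true) - f (setc x e false)

/-- Flip of one coordinate. -/
def flip (e : E) (x : E → Bool) : E → Bool := Function.update x e (!x e)

lemma flip_flip (e : E) (x : E → Bool) : flip e (flip e x) = x := by
  funext a
  by_cases h : a = e
  · subst h; simp [flip]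
  · simp [flip, Function.update_of_ne h]

/-- Flip as an equivalence. -/
def flipEquiv (e : E) : (E → Bool) ≃ (E → Bool) :=
  ⟨flip e, flip e, flip_flip e, flip_flip e⟩

/-- The weight of all other coordinates. -/
def Mg (p : ℝ) (e : E) (x : E → Bool) : ℝ := ∏ a ∈ univ.erase e, wt p (x a)

lemma Mg_flip (p : ℝ) (e : E) (x : E → Bool) : Mg p e (flip e x) = Mg p e x := by
  unfold Mg
  refine Finset.prod_congr rfl fun a ha => ?_
  have : a ≠ e := (Finset.mem_erase.1 ha).1
  simp [flip, Function.update_of_ne this]

lemma W_eq (p : ℝ) (e : E) (x : E → Bool) : W p x = wt p (x e) * Mg p e x := by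
  unfold W Mg
  rw [Finset.mul_prod_erase univ (fun a => wt p (x a)) (Finset.mem_univ e)]

lemma De_flip (f : (E → Bool) → ℝ) (e : E) (x : E → Bool) : De f e (flip e x) = De f e x := by
  unfold De setc flip
  simp

lemma sum_half (F : (E → Bool) → ℝ) (e : E) : ∑ x, F x = (∑ x, (F x + F (flip e x))) / 2 := by
  have h : ∑ x, F (flip e x) = ∑ x, F x := (flipEquiv e).sum_comp F
  rw [Finset.sum_add_distrib, h]
  ring

lemma setc_self (x : E → Bool) (e : E) : setc x e (x e) = x := by
  simp [setc]

lemma setc_not (x : E → Bool) (e : E) : setc x e (!x e) = flip e x := rfl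

/-- Expectation of the derivative, with the coordinate summed out. -/
lemma Ex_De (p : ℝ) (f : (E → Bool) → ℝ) (e : E) :
    Ex p (De f e) = (∑ x, Mg p e x * De f e x) / 2 := by
  unfold Ex
  rw [sum_half _ e]
  congr 1
  refine Finset.sum_congr rfl fun x _ => ?_
  rw [De_flip, W_eq p e x, W_eq p e (flip e x), Mg_flip]
  have : wt p (flip e x e) = wt p (!x e) := by simp [flip]
  rw [this]
  cases x e <;> simp [wt] <;> ring

/-- The derivative term of coordinate `e`, after the flip. -/
lemma sum_term (p : ℝ) (f : (E → Bool) → ℝ) (e : E) :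
    ∑ x, (if x e then (1 : ℝ) else -1) * Mg p e x * f x = (∑ x, Mg p e x * De f e x) / 2 := by
  rw [sum_half _ e]
  congr 1
  refine Finset.sum_congr rfl fun x _ => ?_
  rw [Mg_flip]
  have hf : flip e x e = !x e := by simp [flip]
  simp only [hf]
  unfold De
  cases hx : x e
  · have e1 : setc x e false = x := by rw [← hx]; exact setc_self x e
    have e2 : setc x e true = flip e x := by
      have := setc_not x e
      rw [hx] at this
      simpa using this
    rw [e1, e2]
    simp
    ring
  · have e1 : setc x e true = x := by rw [← hx]; exact setc_self x e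
    have e2 : setc x e false = flip e x := by
      have := setc_not x e
      rw [hx] at this
      simpa using this
    rw [e1, e2]
    simp
    ring

lemma hasDerivAt_wt (p : ℝ) (b : Bool) : HasDerivAt (fun t => wt t b) (if b then 1 else -1) p := by
  cases b
  · have h := (hasDerivAt_id' p).const_sub 1
    simpa [wt] using h
  · simpa [wt] using hasDerivAt_id' p

lemma hasDerivAt_W (p : ℝ) (x : E → Bool) :
    HasDerivAt (fun t => W t x) (∑ e, (if x e then (1 : ℝ) else -1) * Mg p e x) p := by
  unfold W
  have h := HasDerivAt.fun_finsetProd (u := univ) (f := fun (e : E) t => wt t (x e))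
    (f' := fun e => if x e then (1 : ℝ) else -1) (x := p) (fun e _ => hasDerivAt_wt p (x e))
  have e1 : (∑ e, (if x e then (1 : ℝ) else -1) * Mg p e x) =
      ∑ i ∈ univ, (∏ j ∈ univ.erase i, wt p (x j)) • (if x i then (1 : ℝ) else -1) := by
    refine Finset.sum_congr rfl fun e _ => ?_
    simp only [Mg, smul_eq_mul]
    ring
  rw [e1]
  exact h

/-- The Margulis-Russo formula: the derivative of the expectation is the total expected derivative. -/
theorem hasDerivAt_Ex (f : (E → Bool) → ℝ) (p : ℝ) :
    HasDerivAt (fun t => Ex t f) (∑ e, Ex p (De f e)) p := by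
  unfold Ex
  have h : HasDerivAt (fun t => ∑ x, W t x * f x)
      (∑ x, (∑ e, (if x e then (1 : ℝ) else -1) * Mg p e x) * f x) p :=
    HasDerivAt.fun_sum (fun x _ => (hasDerivAt_W p x).mul_const (f x))
  have e1 : (∑ e, ∑ x, W p x * De f e x) =
      ∑ x, (∑ e, (if x e then (1 : ℝ) else -1) * Mg p e x) * f x := by
    simp only [Finset.sum_mul]
    conv_rhs => rw [Finset.sum_comm]
    refine Finset.sum_congr rfl fun e _ => ?_
    have h1 := Ex_De p f e
    have h2 := sum_term p f e
    unfold Ex at h1
    rw [h1, h2]
  rw [e1]
  exact h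

end Vale.Agent.P063.Russo
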