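import Mathlib
import Vale.Agent.P063.Russo

/-!
Second moment estimates for a random subset of a graph: with probability at least one quarter a
random subset of density `δ` of an edge set `S` has size about `δ |S|` and touches at least
`δ |S| / 8` vertices, as soon as `δ |S| ≥ 512` and `δ² |S| ≤ 1`.
-/

namespace Vale.Agent.P063.GoodEvent

open scoped BigOperators
open Finset
open Vale.Agent.P063.Russo

variable {E : Type*} [Fintype E] [DecidableEq E]

/-- The indicator that `J` misses `A`. -/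
def miss (A : Finset E) (J : E → Bool) : ℝ := if ∀ e ∈ A, J e = false then 1 else 0

lemma miss_nonneg (A : Finset E) (J : E → Bool) : 0 ≤ miss A J := by
  unfold miss; split_ifs <;> norm_num

lemma miss_eq_prod (A : Finset E) (J : E → Bool) :
    miss A J = ∏ e, (if e ∈ A ∧ J e = true then (0:ℝ) else 1) := by
  unfold miss
  split_ifs with h
  · symm
    apply Finset.prod_eq_one
    intro e _
    rw [if_neg]
    rintro ⟨h1, h2⟩
    have := h e h1
    simp [this] at h2
  · push Not at h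
    obtain ⟨e, he, hJ⟩ := h
    symm
    apply Finset.prod_eq_zero (Finset.mem_univ e)
    rw [if_pos]
    exact ⟨he, by simpa using hJ⟩

lemma miss_mul (A B : Finset E) (J : E → Bool) : miss A J * miss B J = miss (A ∪ B) J := by
  unfold miss
  by_cases h1 : ∀ e ∈ A, J e = false <;> by_cases h2 : ∀ e ∈ B, J e = false
  · have h3 : ∀ e ∈ A ∪ B, J e = false := by
      intro e he
      rcases Finset.mem_union.1 he with h | h
      · exact h1 e h
      · exact h2 e h
    rw [if_pos h1, if_pos h2, if_pos h3]; simp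
  · have h3 : ¬ ∀ e ∈ A ∪ B, J e = false := fun h => h2 fun e he => h e (Finset.mem_union_right _ he)
    rw [if_neg h2, if_neg h3]; simp
  · have h3 : ¬ ∀ e ∈ A ∪ B, J e = false := fun h => h1 fun e he => h e (Finset.mem_union_left _ he)
    rw [if_neg h1, if_neg h3]; simp
  · have h3 : ¬ ∀ e ∈ A ∪ B, J e = false := fun h => h1 fun e he => h e (Finset.mem_union_left _ he)
    rw [if_neg h1, if_neg h3]; simp

lemma Ex_prod (δ : ℝ) (g : E → Bool → ℝ) :
    Ex δ (fun J => ∏ e, g e (J e)) = ∏ e, (δ * g e true + (1 - δ) * g e false) := by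
  unfold Ex W
  simp_rw [← Finset.prod_mul_distrib]
  have := Finset.prod_univ_sum (fun _ : E => (univ : Finset Bool)) (fun e b => wt δ b * g e b)
  rw [Fintype.piFinset_univ] at this
  rw [← this]
  refine Finset.prod_congr rfl fun e _ => ?_
  simp [wt, Fintype.sum_bool]

lemma Ex_miss (δ : ℝ) (A : Finset E) : Ex δ (miss A) = (1 - δ) ^ A.card := by
  have h1 : miss A = fun J => ∏ e, (if e ∈ A ∧ J e = true then (0:ℝ) else 1) :=
    funext (miss_eq_prod A)
  have key := Ex_prod δ (fun e (b : Bool) => if e ∈ A ∧ b = true then (0:ℝ) else 1)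
  rw [h1]
  refine key.trans ?_
  calc _ = ∏ e, (if e ∈ A then 1 - δ else 1) := Finset.prod_congr rfl fun e _ => by
        by_cases he : e ∈ A <;> simp [he]
    _ = _ := by
        rw [Finset.prod_ite_mem, Finset.univ_inter]
        simp

lemma Ex_add (δ : ℝ) (f g : (E → Bool) → ℝ) :
    Ex δ (fun J => f J + g J) = Ex δ f + Ex δ g := by
  unfold Ex
  rw [← Finset.sum_add_distrib]
  exact Finset.sum_congr rfl fun x _ => by ring

lemma Ex_const_mul (δ c : ℝ) (f : (E → Bool) → ℝ) :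
    Ex δ (fun J => c * f J) = c * Ex δ f := by
  unfold Ex
  rw [Finset.mul_sum]
  exact Finset.sum_congr rfl fun x _ => by ring

lemma Ex_sum {I : Type*} (δ : ℝ) (s : Finset I) (f : I → (E → Bool) → ℝ) :
    Ex δ (fun J => ∑ i ∈ s, f i J) = ∑ i ∈ s, Ex δ (f i) := by
  unfold Ex
  simp_rw [Finset.mul_sum]
  rw [Finset.sum_comm]

lemma Ex_one (δ : ℝ) : Ex δ (fun _ : E → Bool => (1:ℝ)) = 1 := by
  have h : (fun _ : E → Bool => (1:ℝ)) = miss ∅ := by
    funext J; simp [miss]
  rw [h, Ex_miss]; simp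

lemma Ex_const (δ c : ℝ) : Ex δ (fun _ : E → Bool => c) = c := by
  have := Ex_const_mul (E := E) δ c (fun _ => 1)
  simp only [mul_one] at this
  rw [this, Ex_one, mul_one]

lemma W_nonneg {δ : ℝ} (h0 : 0 ≤ δ) (h1 : δ ≤ 1) (x : E → Bool) : 0 ≤ W δ x := by
  unfold W
  apply Finset.prod_nonneg
  intro e _
  unfold wt
  split_ifs <;> linarith

lemma Ex_mono {δ : ℝ} (h0 : 0 ≤ δ) (h1 : δ ≤ 1) {f g : (E → Bool) → ℝ} (h : ∀ J, f J ≤ g J) :
    Ex δ f ≤ Ex δ g := by
  unfold Ex
  apply Finset.sum_le_sum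
  intro x _
  exact mul_le_mul_of_nonneg_left (h x) (W_nonneg h0 h1 x)

/-- Term by term bound for the variance. -/
lemma term_bound {δ : ℝ} (h0 : 0 ≤ δ) (h1 : δ ≤ 1) (A B : Finset E) :
    (1 - δ) ^ (A ∪ B).card - (1 - δ) ^ A.card * (1 - δ) ^ B.card ≤ δ * ((A ∩ B).card : ℝ) := by
  have hq0 : 0 ≤ 1 - δ := by linarith
  have hq1 : 1 - δ ≤ 1 := by linarith
  have hc : A.card + B.card = (A ∪ B).card + (A ∩ B).card := (Finset.card_union_add_card_inter A B).symm
  rw [← pow_add, hc, pow_add]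
  have hb : 1 + ((A ∩ B).card : ℝ) * (-δ) ≤ (1 + (-δ)) ^ (A ∩ B).card :=
    one_add_mul_le_pow (by linarith) _
  have hb' : 1 - ((A ∩ B).card : ℝ) * δ ≤ (1 - δ) ^ (A ∩ B).card := by
    have : (1 + (-δ)) = 1 - δ := by ring
    rw [this] at hb
    linarith
  have ha0 : 0 ≤ (1 - δ) ^ (A ∪ B).card := pow_nonneg hq0 _
  have ha1 : (1 - δ) ^ (A ∪ B).card ≤ 1 := pow_le_one₀ hq0 hq1
  have hc0 : 0 ≤ (1 - δ) ^ (A ∩ B).card := pow_nonneg hq0 _
  have hc1 : (1 - δ) ^ (A ∩ B).card ≤ 1 := pow_le_one₀ hq0 hq1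
  nlinarith [mul_nonneg ha0 (sub_nonneg.2 hc1), mul_nonneg (sub_nonneg.2 ha1) (sub_nonneg.2 hc1)]

/-- The general variance bound for a sum of indicators of missing events. -/
lemma var_bound {I : Type*} {δ : ℝ} (h0 : 0 ≤ δ) (h1 : δ ≤ 1) (s : Finset I) (A : I → Finset E) :
    Ex δ (fun J => (∑ i ∈ s, miss (A i) J - ∑ i ∈ s, (1 - δ) ^ (A i).card) ^ 2)
      ≤ δ * ∑ i ∈ s, ∑ j ∈ s, ((A i ∩ A j).card : ℝ) := by
  set μ : ℝ := ∑ i ∈ s, (1 - δ) ^ (A i).card with hμ
  have hexp : (fun J => (∑ i ∈ s, miss (A i) J - μ) ^ 2) = fun J =>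
      (∑ i ∈ s, ∑ j ∈ s, miss (A i ∪ A j) J) + ((-2 * μ) * (∑ i ∈ s, miss (A i) J) + μ ^ 2) := by
    funext J
    have : (∑ i ∈ s, miss (A i) J) ^ 2 = ∑ i ∈ s, ∑ j ∈ s, miss (A i ∪ A j) J := by
      rw [sq, Finset.sum_mul_sum]
      exact Finset.sum_congr rfl fun i _ => Finset.sum_congr rfl fun j _ => miss_mul _ _ _
    rw [← this]
    ring
  rw [hexp, Ex_add, Ex_add, Ex_const, Ex_const_mul, Ex_sum, Ex_sum]
  have hY : ∑ i ∈ s, Ex δ (miss (A i)) = μ := by
    rw [hμ]
    exact Finset.sum_congr rfl fun i _ => Ex_miss δ _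
  have hYY : ∑ i ∈ s, Ex δ (fun J => ∑ j ∈ s, miss (A i ∪ A j) J)
      = ∑ i ∈ s, ∑ j ∈ s, (1 - δ) ^ (A i ∪ A j).card := by
    refine Finset.sum_congr rfl fun i _ => ?_
    rw [Ex_sum]
    exact Finset.sum_congr rfl fun j _ => Ex_miss δ _
  rw [hY, hYY]
  have hμ2 : μ ^ 2 = ∑ i ∈ s, ∑ j ∈ s, (1 - δ) ^ (A i).card * (1 - δ) ^ (A j).card := by
    rw [sq, hμ, Finset.sum_mul_sum]
  have : ∑ i ∈ s, ∑ j ∈ s, (1 - δ) ^ (A i ∪ A j).card - μ ^ 2
      ≤ δ * ∑ i ∈ s, ∑ j ∈ s, ((A i ∩ A j).card : ℝ) := by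
    rw [hμ2, ← Finset.sum_sub_distrib, Finset.mul_sum]
    refine Finset.sum_le_sum fun i _ => ?_
    rw [← Finset.sum_sub_distrib, Finset.mul_sum]
    exact Finset.sum_le_sum fun j _ => term_bound h0 h1 _ _
  nlinarith

/-- Lower bound for the probability of hitting a set of size `d`. -/
lemma hit_bound {δ : ℝ} (h0 : 0 ≤ δ) (h1 : δ ≤ 1) (d : ℕ) :
    (1 - (1 - δ) ^ d) * (1 + δ * d) ≥ δ * d := by
  have hq0 : 0 ≤ 1 - δ := by linarith
  have hB : 1 + (d : ℝ) * δ ≤ (1 + δ) ^ d := one_add_mul_le_pow (by linarith) _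
  have hprod : (1 - δ) ^ d * (1 + δ) ^ d ≤ 1 := by
    rw [← mul_pow]
    apply pow_le_one₀
    · nlinarith
    · nlinarith
  have hp : 0 ≤ (1 - δ) ^ d := pow_nonneg hq0 _
  have : (1 - δ) ^ d * (1 + δ * d) ≤ 1 := by
    calc (1 - δ) ^ d * (1 + δ * d) ≤ (1 - δ) ^ d * (1 + δ) ^ d :=
          mul_le_mul_of_nonneg_left (by linarith) hp
      _ ≤ 1 := hprod
  nlinarith

lemma hit_half {δ : ℝ} (h0 : 0 ≤ δ) (h1 : δ ≤ 1) (d : ℕ) (hd : 1 ≤ δ * d) :
    (1 : ℝ) / 2 ≤ 1 - (1 - δ) ^ d := by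
  have := hit_bound h0 h1 d
  have hq : 0 ≤ 1 - (1 - δ) ^ d := by
    have : (1 - δ) ^ d ≤ 1 := pow_le_one₀ (by linarith) (by linarith)
    linarith
  by_contra hc
  push Not at hc
  nlinarith

lemma hit_linear {δ : ℝ} (h0 : 0 ≤ δ) (h1 : δ ≤ 1) (d : ℕ) (hd : δ * d ≤ 1) :
    δ * d / 2 ≤ 1 - (1 - δ) ^ d := by
  have := hit_bound h0 h1 d
  have hq : 0 ≤ 1 - (1 - δ) ^ d := by
    have : (1 - δ) ^ d ≤ 1 := pow_le_one₀ (by linarith) (by linarith)
    linarith
  nlinarith

variable {V : Type*} [Fintype V] [DecidableEq V]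

/-- The edges of `S` at a vertex. -/
def atv (ends : E → Finset V) (S : Finset E) (u : V) : Finset E :=
  S.filter (fun e => u ∈ ends e)

lemma sum_atv_inter (ends : E → Finset V) (hcard : ∀ e, (ends e).card = 2) (S : Finset E) :
    ∑ u : V, ∑ w : V, ((atv ends S u ∩ atv ends S w).card : ℝ) = 4 * (S.card : ℝ) := by
  have h1 : ∀ u w : V, ((atv ends S u ∩ atv ends S w).card : ℝ)
      = ∑ e ∈ S, (if u ∈ ends e then (1:ℝ) else 0) * (if w ∈ ends e then (1:ℝ) else 0) := by
    intro u w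
    have : atv ends S u ∩ atv ends S w = S.filter (fun e => u ∈ ends e ∧ w ∈ ends e) := by
      ext e
      simp [atv, Finset.mem_inter, Finset.mem_filter]
      tauto
    rw [this, Finset.card_filter]
    push_cast
    refine Finset.sum_congr rfl fun e _ => ?_
    by_cases h1 : u ∈ ends e <;> by_cases h2 : w ∈ ends e <;> simp [h1, h2]
  simp_rw [h1]
  have h2 : ∀ e : E, ∑ u : V, (if u ∈ ends e then (1:ℝ) else 0) = 2 := by
    intro e
    rw [Finset.sum_ite_mem, Finset.univ_inter]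
    simp [hcard e]
  calc ∑ u : V, ∑ w : V, ∑ e ∈ S, (if u ∈ ends e then (1:ℝ) else 0) * (if w ∈ ends e then (1:ℝ) else 0)
      = ∑ e ∈ S, ∑ u : V, ∑ w : V, (if u ∈ ends e then (1:ℝ) else 0) * (if w ∈ ends e then (1:ℝ) else 0) := by
        calc ∑ u : V, ∑ w : V, ∑ e ∈ S, (if u ∈ ends e then (1:ℝ) else 0) * (if w ∈ ends e then (1:ℝ) else 0)
            = ∑ u : V, ∑ e ∈ S, ∑ w : V, (if u ∈ ends e then (1:ℝ) else 0) * (if w ∈ ends e then (1:ℝ) else 0) :=
              Finset.sum_congr rfl fun u _ => Finset.sum_comm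
          _ = _ := Finset.sum_comm
    _ = ∑ e ∈ S, 4 := by
        refine Finset.sum_congr rfl fun e _ => ?_
        rw [← Finset.sum_mul_sum, h2 e]
        norm_num
    _ = 4 * (S.card : ℝ) := by
        simp; ring

/-- The mean number of touched vertices. -/
lemma mean_touched {δ : ℝ} (h0 : 0 ≤ δ) (h1 : δ ≤ 1) (ends : E → Finset V)
    (hcard : ∀ e, (ends e).card = 2) (hinj : Function.Injective ends) (S : Finset E)
    (hsq : δ ^ 2 * (S.card : ℝ) ≤ 1) :
    δ * (S.card : ℝ) / 4 ≤ ∑ u : V, (1 - (1 - δ) ^ (atv ends S u).card) := by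
  classical
  set H : Finset V := univ.filter (fun u => 1 ≤ δ * ((atv ends S u).card : ℝ)) with hH
  have hnn : ∀ d : ℕ, 0 ≤ 1 - (1 - δ) ^ d := by
    intro d
    have : (1 - δ) ^ d ≤ 1 := pow_le_one₀ (by linarith) (by linarith)
    linarith
  have hm0 : (0:ℝ) ≤ (S.card : ℝ) := Nat.cast_nonneg _
  by_cases hcase : (S.card : ℝ) ≤ (H.card : ℝ) ^ 2
  · -- many high degree vertices
    have hH1 : (H.card : ℝ) / 2 ≤ ∑ u : V, (1 - (1 - δ) ^ (atv ends S u).card) := by
      calc (H.card : ℝ) / 2 = ∑ u ∈ H, (1 / 2 : ℝ) := by simp; ring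
        _ ≤ ∑ u ∈ H, (1 - (1 - δ) ^ (atv ends S u).card) := by
            refine Finset.sum_le_sum fun u hu => ?_
            exact hit_half h0 h1 _ (Finset.mem_filter.1 hu).2
        _ ≤ _ := Finset.sum_le_sum_of_subset_of_nonneg (Finset.subset_univ _) fun u _ _ => hnn _
    have hH0 : (0:ℝ) ≤ (H.card : ℝ) := Nat.cast_nonneg _
    have hdm : δ * (S.card : ℝ) ≤ (H.card : ℝ) := by
      have : (δ * (S.card : ℝ)) ^ 2 ≤ (H.card : ℝ) ^ 2 := by
        calc (δ * (S.card : ℝ)) ^ 2 = (δ ^ 2 * (S.card : ℝ)) * (S.card : ℝ) := by ring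
          _ ≤ 1 * (S.card : ℝ) := mul_le_mul_of_nonneg_right hsq hm0
          _ ≤ _ := by linarith
      exact abs_le_of_sq_le_sq' this hH0 |>.2
    linarith
  · push Not at hcase
    -- edges inside H are few
    have hinside : ((S.filter (fun e => ends e ⊆ H)).card : ℝ) ≤ (H.card : ℝ) ^ 2 / 2 := by
      have hle : (S.filter (fun e => ends e ⊆ H)).card ≤ (H.powersetCard 2).card := by
        apply Finset.card_le_card_of_injOn ends
        · intro e he
          have he' := (Finset.mem_filter.1 (Finset.mem_coe.1 he)).2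
          exact Finset.mem_coe.2 (Finset.mem_powersetCard.2 ⟨he', hcard e⟩)
        · exact hinj.injOn
      rw [Finset.card_powersetCard] at hle
      have hcast : ((S.filter (fun e => ends e ⊆ H)).card : ℝ) ≤ ((H.card.choose 2 : ℕ) : ℝ) := by
        exact_mod_cast hle
      rw [Nat.cast_choose_two] at hcast
      have hH0 : (0:ℝ) ≤ (H.card : ℝ) := Nat.cast_nonneg _
      nlinarith
    -- edges with an end outside H
    have hsplit : (S.card : ℝ) = ((S.filter (fun e => ends e ⊆ H)).card : ℝ)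
        + ((S.filter (fun e => ¬ ends e ⊆ H)).card : ℝ) := by
      have := Finset.card_filter_add_card_filter_not (s := S) (fun e => ends e ⊆ H)
      rw [← this]; push_cast; ring
    have hout : ((S.filter (fun e => ¬ ends e ⊆ H)).card : ℝ)
        ≤ ∑ u ∈ univ.filter (fun u => u ∉ H), ((atv ends S u).card : ℝ) := by
      have h2 : ∀ u : V, ((atv ends S u).card : ℝ) = ∑ e ∈ S, (if u ∈ ends e then (1:ℝ) else 0) := by
        intro u
        unfold atv
        rw [Finset.card_filter]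
        push_cast
        rfl
      simp_rw [h2]
      rw [Finset.sum_comm, Finset.card_filter]
      push_cast
      refine Finset.sum_le_sum fun e _ => ?_
      by_cases hne : ends e ⊆ H
      · rw [if_neg (by simpa using hne)]
        exact Finset.sum_nonneg fun _ _ => by split_ifs <;> norm_num
      · rw [if_pos hne]
        obtain ⟨u, hu, huH⟩ := Finset.not_subset.1 hne
        calc (1:ℝ) = if u ∈ ends e then (1:ℝ) else 0 := by simp [hu]
          _ ≤ _ := Finset.single_le_sum (f := fun u => if u ∈ ends e then (1:ℝ) else 0)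
                (fun _ _ => by split_ifs <;> norm_num) (by simp [huH])
    have hlin : δ * (∑ u ∈ univ.filter (fun u => u ∉ H), ((atv ends S u).card : ℝ)) / 2
        ≤ ∑ u : V, (1 - (1 - δ) ^ (atv ends S u).card) := by
      calc δ * (∑ u ∈ univ.filter (fun u => u ∉ H), ((atv ends S u).card : ℝ)) / 2
          = ∑ u ∈ univ.filter (fun u => u ∉ H), δ * ((atv ends S u).card : ℝ) / 2 := by
            rw [Finset.mul_sum, Finset.sum_div]
        _ ≤ ∑ u ∈ univ.filter (fun u => u ∉ H), (1 - (1 - δ) ^ (atv ends S u).card) := by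
            refine Finset.sum_le_sum fun u hu => ?_
            apply hit_linear h0 h1
            have hu' := (Finset.mem_filter.1 hu).2
            have : ¬ (1 ≤ δ * ((atv ends S u).card : ℝ)) := fun hc =>
              hu' (Finset.mem_filter.2 ⟨Finset.mem_univ _, hc⟩)
            push Not at this
            exact this.le
        _ ≤ _ := Finset.sum_le_sum_of_subset_of_nonneg (Finset.subset_univ _) fun u _ _ => hnn _
    have hsum : (S.card : ℝ) / 2 ≤ ∑ u ∈ univ.filter (fun u => u ∉ H), ((atv ends S u).card : ℝ) := by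
      nlinarith
    have : δ * ((S.card : ℝ) / 2) ≤ δ * (∑ u ∈ univ.filter (fun u => u ∉ H), ((atv ends S u).card : ℝ)) :=
      mul_le_mul_of_nonneg_left hsum h0
    linarith

/-- The selected part of `S`. -/
def selected (S : Finset E) (J : E → Bool) : Finset E := S.filter (fun e => J e = true)

/-- The good event. -/
def Good (ends : E → Finset V) (δ : ℝ) (S : Finset E) (J : E → Bool) : Prop :=
  δ * (S.card : ℝ) / 2 ≤ ((selected S J).card : ℝ) ∧ ((selected S J).card : ℝ) ≤ 2 * δ * (S.card : ℝ)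
    ∧ δ * (S.card : ℝ) / 8 ≤ (((selected S J).biUnion ends).card : ℝ)

lemma card_selected (S : Finset E) (J : E → Bool) :
    ((selected S J).card : ℝ) = (S.card : ℝ) - ∑ e ∈ S, miss ({e} : Finset E) J := by
  unfold selected
  rw [Finset.card_filter]
  push_cast
  rw [eq_sub_iff_add_eq, ← Finset.sum_add_distrib, Finset.card_eq_sum_ones]
  push_cast
  refine Finset.sum_congr rfl fun e _ => ?_
  unfold miss
  by_cases h : J e = true <;> simp [h]

lemma card_touched (ends : E → Finset V) (S : Finset E) (J : E → Bool) :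
    (((selected S J).biUnion ends).card : ℝ)
      = (Fintype.card V : ℝ) - ∑ u : V, miss (atv ends S u) J := by
  have h1 : ((selected S J).biUnion ends).card = ∑ u : V, if u ∈ (selected S J).biUnion ends then 1 else 0 := by
    rw [Finset.sum_ite_mem, Finset.univ_inter]; simp
  rw [h1]
  push_cast
  rw [eq_sub_iff_add_eq, ← Finset.sum_add_distrib]
  have h2 : (Fintype.card V : ℝ) = ∑ _u : V, (1:ℝ) := by simp
  rw [h2]
  refine Finset.sum_congr rfl fun u _ => ?_
  unfold miss atv selected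
  by_cases h : u ∈ (S.filter (fun e => J e = true)).biUnion ends
  · have h3 : ¬ ∀ e ∈ S.filter (fun e => u ∈ ends e), J e = false := by
      obtain ⟨e, he, hu⟩ := Finset.mem_biUnion.1 h
      intro hc
      have he' := Finset.mem_filter.1 he
      have := hc e (Finset.mem_filter.2 ⟨he'.1, hu⟩)
      rw [he'.2] at this
      exact absurd this (by simp)
    rw [if_pos h, if_neg h3]; simp
  · have h3 : ∀ e ∈ S.filter (fun e => u ∈ ends e), J e = false := by
      intro e he
      have he' := Finset.mem_filter.1 he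
      by_contra hc
      apply h
      refine Finset.mem_biUnion.2 ⟨e, Finset.mem_filter.2 ⟨he'.1, by simpa using hc⟩, he'.2⟩
    rw [if_neg h, if_pos h3]; simp

open Classical in
/-- **Lemma G.** -/
theorem good_event {δ : ℝ} (h0 : 0 < δ) (h1 : δ ≤ 1) (ends : E → Finset V)
    (hcard : ∀ e, (ends e).card = 2) (hinj : Function.Injective ends) (S : Finset E)
    (hlarge : 512 ≤ δ * (S.card : ℝ)) (hsq : δ ^ 2 * (S.card : ℝ) ≤ 1) :
    (1 : ℝ) / 4 ≤ Ex δ (fun J => if Good ends δ S J then 1 else 0) := by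
  set m : ℝ := (S.card : ℝ) with hm
  set q : ℝ := 1 - δ with hq
  set D : ℝ := δ * m with hD
  have hDpos : 0 < D := by linarith
  -- the two fluctuation functions
  set Y₁ : (E → Bool) → ℝ := fun J => ∑ e ∈ S, miss ({e} : Finset E) J with hY₁
  set μ₁ : ℝ := ∑ e ∈ S, q ^ (({e} : Finset E)).card with hμ₁
  set Y₂ : (E → Bool) → ℝ := fun J => ∑ u : V, miss (atv ends S u) J with hY₂
  set μ₂ : ℝ := ∑ u : V, q ^ (atv ends S u).card with hμ₂
  have hμ₁' : μ₁ = m * q := by
    rw [hμ₁]; simp [hm]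
  -- variance bounds
  have hV₁ : Ex δ (fun J => (Y₁ J - μ₁) ^ 2) ≤ D := by
    have := var_bound h0.le h1 S (fun e : E => ({e} : Finset E))
    refine this.trans (le_of_eq ?_)
    rw [hD]
    congr 1
    have : ∀ i ∈ S, ∑ j ∈ S, ((({i} : Finset E) ∩ {j}).card : ℝ) = 1 := by
      intro i hi
      rw [Finset.sum_eq_single i]
      · simp
      · intro j _ hji
        have : ({i} : Finset E) ∩ {j} = ∅ := by
          ext x
          simp only [Finset.mem_inter, Finset.mem_singleton, Finset.notMem_empty, iff_false]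
          rintro ⟨rfl, rfl⟩
          exact hji rfl
        simp [this]
      · intro h; exact absurd hi h
    rw [Finset.sum_congr rfl this]
    simp [hm]
  have hV₂ : Ex δ (fun J => (Y₂ J - μ₂) ^ 2) ≤ 4 * D := by
    have := var_bound h0.le h1 (univ : Finset V) (atv ends S)
    refine this.trans (le_of_eq ?_)
    rw [sum_atv_inter ends hcard S, hD]
    ring
  have hν : D / 4 ≤ (Fintype.card V : ℝ) - μ₂ := by
    have := mean_touched (V := V) h0.le h1 ends hcard hinj S hsq
    have h3 : ∑ u : V, (1 - (1 - δ) ^ (atv ends S u).card) = (Fintype.card V : ℝ) - μ₂ := by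
      rw [Finset.sum_sub_distrib]
      simp [hμ₂, hq]
    rw [h3] at this
    exact this
  -- pointwise inequality
  have hpt : ∀ J : E → Bool, (1:ℝ) ≤ (if Good ends δ S J then 1 else 0)
      + ((4 / D ^ 2) * (Y₁ J - μ₁) ^ 2 + (64 / D ^ 2) * (Y₂ J - μ₂) ^ 2) := by
    intro J
    have ht1 : 0 ≤ (4 / D ^ 2) * (Y₁ J - μ₁) ^ 2 := by positivity
    have ht2 : 0 ≤ (64 / D ^ 2) * (Y₂ J - μ₂) ^ 2 := by positivity
    by_cases hG : Good ends δ S J
    · rw [if_pos hG]; linarith
    · rw [if_neg hG]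
      have hc1 : ((selected S J).card : ℝ) = m - Y₁ J := card_selected S J
      have hc2 : (((selected S J).biUnion ends).card : ℝ) = (Fintype.card V : ℝ) - Y₂ J :=
        card_touched ends S J
      have hdiff : ((selected S J).card : ℝ) - D = -(Y₁ J - μ₁) := by
        rw [hc1, hμ₁', hD, hq]; ring
      have hD2 : 0 < D ^ 2 := by positivity
      unfold Good at hG
      rw [← hm, ← hD] at hG
      have hcases : ((selected S J).card : ℝ) < D / 2 ∨ 2 * D < ((selected S J).card : ℝ)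
          ∨ (((selected S J).biUnion ends).card : ℝ) < D / 8 := by
        by_contra hcon
        push Not at hcon
        apply hG
        refine ⟨by linarith [hcon.1], ?_, by linarith [hcon.2.2]⟩
        have : 2 * δ * m = 2 * D := by rw [hD]; ring
        rw [this]
        exact hcon.2.1
      have hA : (D / 2) ^ 2 ≤ (Y₁ J - μ₁) ^ 2 → 1 ≤ (4 / D ^ 2) * (Y₁ J - μ₁) ^ 2 := by
        intro h
        calc (1:ℝ) = (4 / D ^ 2) * (D / 2) ^ 2 := by field_simp; ring
          _ ≤ _ := mul_le_mul_of_nonneg_left h (by positivity)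
      have hB : (D / 8) ^ 2 ≤ (Y₂ J - μ₂) ^ 2 → 1 ≤ (64 / D ^ 2) * (Y₂ J - μ₂) ^ 2 := by
        intro h
        calc (1:ℝ) = (64 / D ^ 2) * (D / 8) ^ 2 := by field_simp; ring
          _ ≤ _ := mul_le_mul_of_nonneg_left h (by positivity)
      rcases hcases with hc | hc | hc
      · have : D / 2 ≤ Y₁ J - μ₁ := by linarith
        have := hA (by nlinarith)
        linarith
      · have : D ≤ -(Y₁ J - μ₁) := by linarith
        have := hA (by nlinarith)
        linarith
      · have : D / 8 ≤ Y₂ J - μ₂ := by linarith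
        have := hB (by nlinarith)
        linarith
  -- integrate
  have hint := Ex_mono h0.le h1 hpt
  rw [Ex_one, Ex_add, Ex_add, Ex_const_mul, Ex_const_mul] at hint
  have hE1 : (4 / D ^ 2) * Ex δ (fun J => (Y₁ J - μ₁) ^ 2) ≤ (4 / D ^ 2) * D :=
    mul_le_mul_of_nonneg_left hV₁ (by positivity)
  have hE2 : (64 / D ^ 2) * Ex δ (fun J => (Y₂ J - μ₂) ^ 2) ≤ (64 / D ^ 2) * (4 * D) :=
    mul_le_mul_of_nonneg_left hV₂ (by positivity)
  have hE3 : (4 / D ^ 2) * D + (64 / D ^ 2) * (4 * D) = 260 / D := by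
    field_simp; ring
  have hE4 : 260 / D ≤ 3 / 4 := by
    rw [div_le_iff₀ hDpos]; linarith
  linarith

end Vale.Agent.P063.GoodEvent
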