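import Mathlib
import Vale.Agent.P063.Cube

/-!
Second moment estimates for a random subset of a graph, in the finset cube: with probability at
least one quarter a random subset of density `δ` of an edge set `S` has size about `δ |S|` and
touches at least `δ |S| / 8` vertices, as soon as `δ |S| ≥ 512` and `δ² |S| ≤ 1`.
-/

namespace Vale.Agent.P063.GoodSet

open scoped BigOperators
open Finset
open Vale.Agent.P063

variable {α : Type*} [DecidableEq α]

/-- The indicator that `J` misses `A`. -/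
def miss (A J : Finset α) : ℝ := if ∀ e ∈ A, e ∉ J then 1 else 0

lemma miss_mul (A B J : Finset α) : miss A J * miss B J = miss (A ∪ B) J := by
  unfold miss
  by_cases h1 : ∀ e ∈ A, e ∉ J <;> by_cases h2 : ∀ e ∈ B, e ∉ J
  · have h3 : ∀ e ∈ A ∪ B, e ∉ J := by
      intro e he
      rcases Finset.mem_union.1 he with h | h
      · exact h1 e h
      · exact h2 e h
    rw [if_pos h1, if_pos h2, if_pos h3]; simp
  · have h3 : ¬ ∀ e ∈ A ∪ B, e ∉ J := fun h => h2 fun e he => h e (Finset.mem_union_right _ he)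
    rw [if_neg h2, if_neg h3]; simp
  · have h3 : ¬ ∀ e ∈ A ∪ B, e ∉ J := fun h => h1 fun e he => h e (Finset.mem_union_left _ he)
    rw [if_neg h1, if_neg h3]; simp
  · have h3 : ¬ ∀ e ∈ A ∪ B, e ∉ J := fun h => h1 fun e he => h e (Finset.mem_union_left _ he)
    rw [if_neg h1, if_neg h3]; simp

lemma E_miss (δ : ℝ) (Om : Finset α) : ∀ A : Finset α, A ⊆ Om →
    E δ (1 - δ) Om (miss A) = (1 - δ) ^ A.card := by
  induction Om using Finset.induction_on with
  | empty =>
    intro A hA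
    have : A = ∅ := Finset.subset_empty.1 hA
    subst this
    simp [miss]
  | insert e Om he ih =>
    intro A hA
    rw [E_insert δ (1 - δ) he]
    by_cases heA : e ∈ A
    · have h1 : (fun x => miss A (insert e x)) = fun _ => (0:ℝ) := by
        funext x
        unfold miss
        rw [if_neg]
        intro hc
        exact hc e heA (Finset.mem_insert_self _ _)
      have hsub : A.erase e ⊆ Om := by
        intro a ha
        have ha' := Finset.mem_erase.1 ha
        have := hA ha'.2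
        rcases Finset.mem_insert.1 this with h | h
        · exact absurd h ha'.1
        · exact h
      have h2 : E δ (1 - δ) Om (miss A) = E δ (1 - δ) Om (miss (A.erase e)) := by
        apply E_congr
        intro x hx
        have hex : e ∉ x := fun h => he (hx h)
        unfold miss
        have : (∀ a ∈ A, a ∉ x) ↔ (∀ a ∈ A.erase e, a ∉ x) := by
          constructor
          · intro h a ha; exact h a (Finset.mem_of_mem_erase ha)
          · intro h a ha
            by_cases hae : a = e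
            · rw [hae]; exact hex
            · exact h a (Finset.mem_erase.2 ⟨hae, ha⟩)
        simp only [this]
      rw [h1, h2, ih _ hsub]
      have h3 : E δ (1 - δ) Om (fun _ => (0:ℝ)) = 0 := by
        have := E_const_mul δ (1 - δ) 0 Om (fun _ => (1:ℝ))
        simpa using this
      rw [h3, Finset.card_erase_of_mem heA]
      have hpos : 0 < A.card := Finset.card_pos.2 ⟨e, heA⟩
      obtain ⟨k, hk⟩ : ∃ k, A.card = k + 1 := ⟨A.card - 1, by omega⟩
      rw [hk]
      simp only [Nat.add_sub_cancel]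
      ring
    · have hsub : A ⊆ Om := by
        intro a ha
        rcases Finset.mem_insert.1 (hA ha) with h | h
        · exact absurd (h ▸ ha) heA
        · exact h
      have h1 : (fun x => miss A (insert e x)) = miss A := by
        funext x
        unfold miss
        have : (∀ a ∈ A, a ∉ insert e x) ↔ (∀ a ∈ A, a ∉ x) := by
          constructor
          · intro h a ha hax; exact h a ha (Finset.mem_insert_of_mem hax)
          · intro h a ha hax
            rcases Finset.mem_insert.1 hax with h' | h'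
            · exact heA (h' ▸ ha)
            · exact h a ha h'
        simp only [this]
      rw [h1, ih _ hsub]
      ring

/-- Term by term bound for the variance. -/
lemma term_bound {δ : ℝ} (h0 : 0 ≤ δ) (h1 : δ ≤ 1) (A B : Finset α) :
    (1 - δ) ^ (A ∪ B).card - (1 - δ) ^ A.card * (1 - δ) ^ B.card ≤ δ * ((A ∩ B).card : ℝ) := by
  have hq0 : 0 ≤ 1 - δ := by linarith
  have hq1 : 1 - δ ≤ 1 := by linarith
  have hc : A.card + B.card = (A ∪ B).card + (A ∩ B).card := (Finset.card_union_add_card_inter A B).symm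
  rw [← pow_add, hc, pow_add]
  have hb : 1 + ((A ∩ B).card : ℝ) * (-δ) ≤ (1 + (-δ)) ^ (A ∩ B).card :=
    one_add_mul_le_pow (by linarith) _
  have hb' : 1 - ((A ∩ B).card : ℝ) * δ ≤ (1 - δ) ^ (A ∩ B).card := by
    have : (1 + (-δ)) = 1 - δ := by ring
    rw [this] at hb
    linarith
  have ha0 : 0 ≤ (1 - δ) ^ (A ∪ B).card := pow_nonneg hq0 _
  have ha1 : (1 - δ) ^ (A ∪ B).card ≤ 1 := pow_le_one₀ hq0 hq1
  have hc0 : 0 ≤ (1 - δ) ^ (A ∩ B).card := pow_nonneg hq0 _
  have hc1 : (1 - δ) ^ (A ∩ B).card ≤ 1 := pow_le_one₀ hq0 hq1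
  nlinarith [mul_nonneg ha0 (sub_nonneg.2 hc1), mul_nonneg (sub_nonneg.2 ha1) (sub_nonneg.2 hc1)]

/-- The general variance bound for a sum of indicators of missing events. -/
lemma var_bound {I : Type*} {δ : ℝ} (h0 : 0 ≤ δ) (h1 : δ ≤ 1) (Om : Finset α) (s : Finset I)
    (A : I → Finset α) (hA : ∀ i ∈ s, A i ⊆ Om) :
    E δ (1 - δ) Om (fun J => (∑ i ∈ s, miss (A i) J - ∑ i ∈ s, (1 - δ) ^ (A i).card) ^ 2)
      ≤ δ * ∑ i ∈ s, ∑ j ∈ s, ((A i ∩ A j).card : ℝ) := by
  set μ : ℝ := ∑ i ∈ s, (1 - δ) ^ (A i).card with hμ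
  have hpq : δ + (1 - δ) = 1 := by ring
  have hexp : (fun J => (∑ i ∈ s, miss (A i) J - μ) ^ 2) = fun J =>
      (∑ i ∈ s, ∑ j ∈ s, miss (A i ∪ A j) J) + ((-2 * μ) * (∑ i ∈ s, miss (A i) J) + μ ^ 2) := by
    funext J
    have : (∑ i ∈ s, miss (A i) J) ^ 2 = ∑ i ∈ s, ∑ j ∈ s, miss (A i ∪ A j) J := by
      rw [sq, Finset.sum_mul_sum]
      exact Finset.sum_congr rfl fun i _ => Finset.sum_congr rfl fun j _ => miss_mul _ _ _
    rw [← this]
    ring
  rw [hexp, E_add, E_add, E_const hpq, E_const_mul, E_sum, E_sum]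
  have hY : ∑ i ∈ s, E δ (1 - δ) Om (miss (A i)) = μ := by
    rw [hμ]
    exact Finset.sum_congr rfl fun i hi => E_miss δ Om _ (hA i hi)
  have hYY : ∑ i ∈ s, E δ (1 - δ) Om (fun J => ∑ j ∈ s, miss (A i ∪ A j) J)
      = ∑ i ∈ s, ∑ j ∈ s, (1 - δ) ^ (A i ∪ A j).card := by
    refine Finset.sum_congr rfl fun i hi => ?_
    rw [E_sum]
    exact Finset.sum_congr rfl fun j hj => E_miss δ Om _ (Finset.union_subset (hA i hi) (hA j hj))
  rw [hY, hYY]
  have hμ2 : μ ^ 2 = ∑ i ∈ s, ∑ j ∈ s, (1 - δ) ^ (A i).card * (1 - δ) ^ (A j).card := by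
    rw [sq, hμ, Finset.sum_mul_sum]
  have : ∑ i ∈ s, ∑ j ∈ s, (1 - δ) ^ (A i ∪ A j).card - μ ^ 2
      ≤ δ * ∑ i ∈ s, ∑ j ∈ s, ((A i ∩ A j).card : ℝ) := by
    rw [hμ2, ← Finset.sum_sub_distrib, Finset.mul_sum]
    refine Finset.sum_le_sum fun i _ => ?_
    rw [← Finset.sum_sub_distrib, Finset.mul_sum]
    exact Finset.sum_le_sum fun j _ => term_bound h0 h1 _ _
  nlinarith

/-- Lower bound for the probability of hitting a set of size `d`. -/
lemma hit_bound {δ : ℝ} (h0 : 0 ≤ δ) (h1 : δ ≤ 1) (d : ℕ) :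
    (1 - (1 - δ) ^ d) * (1 + δ * d) ≥ δ * d := by
  have hq0 : 0 ≤ 1 - δ := by linarith
  have hB : 1 + (d : ℝ) * δ ≤ (1 + δ) ^ d := one_add_mul_le_pow (by linarith) _
  have hprod : (1 - δ) ^ d * (1 + δ) ^ d ≤ 1 := by
    rw [← mul_pow]
    apply pow_le_one₀
    · nlinarith
    · nlinarith
  have hp : 0 ≤ (1 - δ) ^ d := pow_nonneg hq0 _
  have : (1 - δ) ^ d * (1 + δ * d) ≤ 1 := by
    calc (1 - δ) ^ d * (1 + δ * d) ≤ (1 - δ) ^ d * (1 + δ) ^ d :=
          mul_le_mul_of_nonneg_left (by linarith) hp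
      _ ≤ 1 := hprod
  nlinarith

lemma hit_half {δ : ℝ} (h0 : 0 ≤ δ) (h1 : δ ≤ 1) (d : ℕ) (hd : 1 ≤ δ * d) :
    (1 : ℝ) / 2 ≤ 1 - (1 - δ) ^ d := by
  have := hit_bound h0 h1 d
  have hq : 0 ≤ 1 - (1 - δ) ^ d := by
    have : (1 - δ) ^ d ≤ 1 := pow_le_one₀ (by linarith) (by linarith)
    linarith
  by_contra hc
  push Not at hc
  nlinarith

lemma hit_linear {δ : ℝ} (h0 : 0 ≤ δ) (h1 : δ ≤ 1) (d : ℕ) (hd : δ * d ≤ 1) :
    δ * d / 2 ≤ 1 - (1 - δ) ^ d := by
  have := hit_bound h0 h1 d
  have hq : 0 ≤ 1 - (1 - δ) ^ d := by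
    have : (1 - δ) ^ d ≤ 1 := pow_le_one₀ (by linarith) (by linarith)
    linarith
  nlinarith

variable {V : Type*} [Fintype V] [DecidableEq V]

/-- The edges of `S` at a vertex. -/
def atv (ends : α → Finset V) (S : Finset α) (u : V) : Finset α :=
  S.filter (fun e => u ∈ ends e)

lemma sum_atv_inter (ends : α → Finset V) (S : Finset α) (hcard : ∀ e ∈ S, (ends e).card = 2) :
    ∑ u : V, ∑ w : V, ((atv ends S u ∩ atv ends S w).card : ℝ) = 4 * (S.card : ℝ) := by
  have h1 : ∀ u w : V, ((atv ends S u ∩ atv ends S w).card : ℝ)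
      = ∑ e ∈ S, (if u ∈ ends e then (1:ℝ) else 0) * (if w ∈ ends e then (1:ℝ) else 0) := by
    intro u w
    have : atv ends S u ∩ atv ends S w = S.filter (fun e => u ∈ ends e ∧ w ∈ ends e) := by
      ext e
      simp [atv, Finset.mem_inter, Finset.mem_filter]
      tauto
    rw [this, Finset.card_filter]
    push_cast
    refine Finset.sum_congr rfl fun e _ => ?_
    by_cases h1 : u ∈ ends e <;> by_cases h2 : w ∈ ends e <;> simp [h1, h2]
  simp_rw [h1]
  have h2 : ∀ e ∈ S, ∑ u : V, (if u ∈ ends e then (1:ℝ) else 0) = 2 := by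
    intro e he
    rw [Finset.sum_ite_mem, Finset.univ_inter]
    simp [hcard e he]
  calc ∑ u : V, ∑ w : V, ∑ e ∈ S, (if u ∈ ends e then (1:ℝ) else 0) * (if w ∈ ends e then (1:ℝ) else 0)
      = ∑ e ∈ S, ∑ u : V, ∑ w : V, (if u ∈ ends e then (1:ℝ) else 0) * (if w ∈ ends e then (1:ℝ) else 0) := by
        calc ∑ u : V, ∑ w : V, ∑ e ∈ S, (if u ∈ ends e then (1:ℝ) else 0) * (if w ∈ ends e then (1:ℝ) else 0)
            = ∑ u : V, ∑ e ∈ S, ∑ w : V, (if u ∈ ends e then (1:ℝ) else 0) * (if w ∈ ends e then (1:ℝ) else 0) :=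
              Finset.sum_congr rfl fun u _ => Finset.sum_comm
          _ = _ := Finset.sum_comm
    _ = ∑ e ∈ S, 4 := by
        refine Finset.sum_congr rfl fun e he => ?_
        rw [← Finset.sum_mul_sum, h2 e he]
        norm_num
    _ = 4 * (S.card : ℝ) := by
        simp; ring

/-- The mean number of touched vertices. -/
lemma mean_touched {δ : ℝ} (h0 : 0 ≤ δ) (h1 : δ ≤ 1) (ends : α → Finset V)
    (S : Finset α) (hcard : ∀ e ∈ S, (ends e).card = 2) (hinj : Set.InjOn ends (S : Set α))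
    (hsq : δ ^ 2 * (S.card : ℝ) ≤ 1) :
    δ * (S.card : ℝ) / 4 ≤ ∑ u : V, (1 - (1 - δ) ^ (atv ends S u).card) := by
  classical
  set H : Finset V := univ.filter (fun u => 1 ≤ δ * ((atv ends S u).card : ℝ)) with hH
  have hnn : ∀ d : ℕ, 0 ≤ 1 - (1 - δ) ^ d := by
    intro d
    have : (1 - δ) ^ d ≤ 1 := pow_le_one₀ (by linarith) (by linarith)
    linarith
  have hm0 : (0:ℝ) ≤ (S.card : ℝ) := Nat.cast_nonneg _
  by_cases hcase : (S.card : ℝ) ≤ (H.card : ℝ) ^ 2
  · -- many high degree vertices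
    have hH1 : (H.card : ℝ) / 2 ≤ ∑ u : V, (1 - (1 - δ) ^ (atv ends S u).card) := by
      calc (H.card : ℝ) / 2 = ∑ u ∈ H, (1 / 2 : ℝ) := by simp; ring
        _ ≤ ∑ u ∈ H, (1 - (1 - δ) ^ (atv ends S u).card) := by
            refine Finset.sum_le_sum fun u hu => ?_
            exact hit_half h0 h1 _ (Finset.mem_filter.1 hu).2
        _ ≤ _ := Finset.sum_le_sum_of_subset_of_nonneg (Finset.subset_univ _) fun u _ _ => hnn _
    have hH0 : (0:ℝ) ≤ (H.card : ℝ) := Nat.cast_nonneg _
    have hdm : δ * (S.card : ℝ) ≤ (H.card : ℝ) := by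
      have : (δ * (S.card : ℝ)) ^ 2 ≤ (H.card : ℝ) ^ 2 := by
        calc (δ * (S.card : ℝ)) ^ 2 = (δ ^ 2 * (S.card : ℝ)) * (S.card : ℝ) := by ring
          _ ≤ 1 * (S.card : ℝ) := mul_le_mul_of_nonneg_right hsq hm0
          _ ≤ _ := by linarith
      exact abs_le_of_sq_le_sq' this hH0 |>.2
    linarith
  · push Not at hcase
    -- edges inside H are few
    have hinside : ((S.filter (fun e => ends e ⊆ H)).card : ℝ) ≤ (H.card : ℝ) ^ 2 / 2 := by
      have hle : (S.filter (fun e => ends e ⊆ H)).card ≤ (H.powersetCard 2).card := by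
        apply Finset.card_le_card_of_injOn ends
        · intro e he
          have he' := Finset.mem_filter.1 (Finset.mem_coe.1 he)
          exact Finset.mem_coe.2 (Finset.mem_powersetCard.2 ⟨he'.2, hcard e he'.1⟩)
        · intro a ha b hb hab
          exact hinj (Finset.mem_coe.2 (Finset.mem_filter.1 (Finset.mem_coe.1 ha)).1)
            (Finset.mem_coe.2 (Finset.mem_filter.1 (Finset.mem_coe.1 hb)).1) hab
      rw [Finset.card_powersetCard] at hle
      have hcast : ((S.filter (fun e => ends e ⊆ H)).card : ℝ) ≤ ((H.card.choose 2 : ℕ) : ℝ) := by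
        exact_mod_cast hle
      rw [Nat.cast_choose_two] at hcast
      have hH0 : (0:ℝ) ≤ (H.card : ℝ) := Nat.cast_nonneg _
      nlinarith
    -- edges with an end outside H
    have hsplit : (S.card : ℝ) = ((S.filter (fun e => ends e ⊆ H)).card : ℝ)
        + ((S.filter (fun e => ¬ ends e ⊆ H)).card : ℝ) := by
      have := Finset.card_filter_add_card_filter_not (s := S) (fun e => ends e ⊆ H)
      rw [← this]; push_cast; ring
    have hout : ((S.filter (fun e => ¬ ends e ⊆ H)).card : ℝ)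
        ≤ ∑ u ∈ univ.filter (fun u => u ∉ H), ((atv ends S u).card : ℝ) := by
      have h2 : ∀ u : V, ((atv ends S u).card : ℝ) = ∑ e ∈ S, (if u ∈ ends e then (1:ℝ) else 0) := by
        intro u
        unfold atv
        rw [Finset.card_filter]
        push_cast
        rfl
      simp_rw [h2]
      rw [Finset.sum_comm, Finset.card_filter]
      push_cast
      refine Finset.sum_le_sum fun e _ => ?_
      by_cases hne : ends e ⊆ H
      · rw [if_neg (by simpa using hne)]
        exact Finset.sum_nonneg fun _ _ => by split_ifs <;> norm_num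
      · rw [if_pos hne]
        obtain ⟨u, hu, huH⟩ := Finset.not_subset.1 hne
        calc (1:ℝ) = if u ∈ ends e then (1:ℝ) else 0 := by simp [hu]
          _ ≤ _ := Finset.single_le_sum (f := fun u => if u ∈ ends e then (1:ℝ) else 0)
                (fun _ _ => by split_ifs <;> norm_num) (by simp [huH])
    have hlin : δ * (∑ u ∈ univ.filter (fun u => u ∉ H), ((atv ends S u).card : ℝ)) / 2
        ≤ ∑ u : V, (1 - (1 - δ) ^ (atv ends S u).card) := by
      calc δ * (∑ u ∈ univ.filter (fun u => u ∉ H), ((atv ends S u).card : ℝ)) / 2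
          = ∑ u ∈ univ.filter (fun u => u ∉ H), δ * ((atv ends S u).card : ℝ) / 2 := by
            rw [Finset.mul_sum, Finset.sum_div]
        _ ≤ ∑ u ∈ univ.filter (fun u => u ∉ H), (1 - (1 - δ) ^ (atv ends S u).card) := by
            refine Finset.sum_le_sum fun u hu => ?_
            apply hit_linear h0 h1
            have hu' := (Finset.mem_filter.1 hu).2
            have : ¬ (1 ≤ δ * ((atv ends S u).card : ℝ)) := fun hc =>
              hu' (Finset.mem_filter.2 ⟨Finset.mem_univ _, hc⟩)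
            push Not at this
            exact this.le
        _ ≤ _ := Finset.sum_le_sum_of_subset_of_nonneg (Finset.subset_univ _) fun u _ _ => hnn _
    have hsum : (S.card : ℝ) / 2 ≤ ∑ u ∈ univ.filter (fun u => u ∉ H), ((atv ends S u).card : ℝ) := by
      nlinarith
    have : δ * ((S.card : ℝ) / 2) ≤ δ * (∑ u ∈ univ.filter (fun u => u ∉ H), ((atv ends S u).card : ℝ)) :=
      mul_le_mul_of_nonneg_left hsum h0
    linarith

/-- The good event: the trace of `J` on `S` has about the expected size and touches many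
vertices. -/
def Good (ends : α → Finset V) (δ : ℝ) (S J : Finset α) : Prop :=
  δ * (S.card : ℝ) / 2 ≤ ((S ∩ J).card : ℝ) ∧ ((S ∩ J).card : ℝ) ≤ 2 * δ * (S.card : ℝ)
    ∧ δ * (S.card : ℝ) / 8 ≤ (((S ∩ J).biUnion ends).card : ℝ)

lemma card_selected (S J : Finset α) :
    ((S ∩ J).card : ℝ) = (S.card : ℝ) - ∑ e ∈ S, miss ({e} : Finset α) J := by
  have h1 : S ∩ J = S.filter (fun e => e ∈ J) := by
    ext a; simp [Finset.mem_inter, Finset.mem_filter]
  rw [h1, Finset.card_filter]
  push_cast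
  rw [eq_sub_iff_add_eq, ← Finset.sum_add_distrib, Finset.card_eq_sum_ones]
  push_cast
  refine Finset.sum_congr rfl fun e _ => ?_
  unfold miss
  by_cases h : e ∈ J <;> simp [h]

lemma card_touched (ends : α → Finset V) (S J : Finset α) :
    (((S ∩ J).biUnion ends).card : ℝ)
      = (Fintype.card V : ℝ) - ∑ u : V, miss (atv ends S u) J := by
  have h1 : ((S ∩ J).biUnion ends).card = ∑ u : V, if u ∈ (S ∩ J).biUnion ends then 1 else 0 := by
    rw [Finset.sum_ite_mem, Finset.univ_inter]; simp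
  rw [h1]
  push_cast
  rw [eq_sub_iff_add_eq, ← Finset.sum_add_distrib]
  have h2 : (Fintype.card V : ℝ) = ∑ _u : V, (1:ℝ) := by simp
  rw [h2]
  refine Finset.sum_congr rfl fun u _ => ?_
  unfold miss atv
  by_cases h : u ∈ (S ∩ J).biUnion ends
  · have h3 : ¬ ∀ e ∈ S.filter (fun e => u ∈ ends e), e ∉ J := by
      obtain ⟨e, he, hu⟩ := Finset.mem_biUnion.1 h
      intro hc
      have he' := Finset.mem_inter.1 he
      exact hc e (Finset.mem_filter.2 ⟨he'.1, hu⟩) he'.2
    rw [if_pos h, if_neg h3]; simp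
  · have h3 : ∀ e ∈ S.filter (fun e => u ∈ ends e), e ∉ J := by
      intro e he hc
      have he' := Finset.mem_filter.1 he
      apply h
      exact Finset.mem_biUnion.2 ⟨e, Finset.mem_inter.2 ⟨he'.1, hc⟩, he'.2⟩
    rw [if_neg h, if_pos h3]; simp

/-- **Lemma G**, in the finset cube over `Om`. -/
theorem good_event {δ : ℝ} (h0 : 0 < δ) (h1 : δ ≤ 1) (Om S : Finset α) (hS : S ⊆ Om)
    (ends : α → Finset V) (hcard : ∀ e ∈ S, (ends e).card = 2) (hinj : Set.InjOn ends (S : Set α))
    (hlarge : 512 ≤ δ * (S.card : ℝ)) (hsq : δ ^ 2 * (S.card : ℝ) ≤ 1)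
    [DecidablePred (Good ends δ S)] :
    (1 : ℝ) / 4 ≤ E δ (1 - δ) Om (fun J => if Good ends δ S J then 1 else 0) := by
  set m : ℝ := (S.card : ℝ) with hm
  set q : ℝ := 1 - δ with hq
  set D : ℝ := δ * m with hD
  have hDpos : 0 < D := by linarith
  have hq0 : 0 ≤ q := by rw [hq]; linarith
  have hpq : δ + q = 1 := by rw [hq]; ring
  -- the two fluctuation functions
  set Y₁ : Finset α → ℝ := fun J => ∑ e ∈ S, miss ({e} : Finset α) J with hY₁
  set μ₁ : ℝ := ∑ e ∈ S, q ^ (({e} : Finset α)).card with hμ₁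
  set Y₂ : Finset α → ℝ := fun J => ∑ u : V, miss (atv ends S u) J with hY₂
  set μ₂ : ℝ := ∑ u : V, q ^ (atv ends S u).card with hμ₂
  have hμ₁' : μ₁ = m * q := by
    rw [hμ₁]; simp [hm]
  -- variance bounds
  have hV₁ : E δ q Om (fun J => (Y₁ J - μ₁) ^ 2) ≤ D := by
    have := var_bound h0.le h1 Om S (fun e : α => ({e} : Finset α))
      (fun e he => Finset.singleton_subset_iff.2 (hS he))
    refine this.trans (le_of_eq ?_)
    rw [hD]
    congr 1
    have : ∀ i ∈ S, ∑ j ∈ S, ((({i} : Finset α) ∩ {j}).card : ℝ) = 1 := by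
      intro i hi
      rw [Finset.sum_eq_single i]
      · simp
      · intro j _ hji
        have : ({i} : Finset α) ∩ {j} = ∅ := by
          ext x
          simp only [Finset.mem_inter, Finset.mem_singleton, Finset.notMem_empty, iff_false]
          rintro ⟨rfl, rfl⟩
          exact hji rfl
        simp [this]
      · intro h; exact absurd hi h
    rw [Finset.sum_congr rfl this]
    simp [hm]
  have hV₂ : E δ q Om (fun J => (Y₂ J - μ₂) ^ 2) ≤ 4 * D := by
    have := var_bound h0.le h1 Om (univ : Finset V) (atv ends S)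
      (fun u _ => (Finset.filter_subset _ _).trans hS)
    refine this.trans (le_of_eq ?_)
    rw [sum_atv_inter ends S hcard, hD]
    ring
  have hν : D / 4 ≤ (Fintype.card V : ℝ) - μ₂ := by
    have := mean_touched (V := V) h0.le h1 ends S hcard hinj hsq
    have h3 : ∑ u : V, (1 - (1 - δ) ^ (atv ends S u).card) = (Fintype.card V : ℝ) - μ₂ := by
      rw [Finset.sum_sub_distrib]
      simp [hμ₂, hq]
    rw [h3] at this
    exact this
  -- pointwise inequality
  have hpt : ∀ J : Finset α, (1:ℝ) ≤ (if Good ends δ S J then 1 else 0)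
      + ((4 / D ^ 2) * (Y₁ J - μ₁) ^ 2 + (64 / D ^ 2) * (Y₂ J - μ₂) ^ 2) := by
    intro J
    have ht1 : 0 ≤ (4 / D ^ 2) * (Y₁ J - μ₁) ^ 2 := by positivity
    have ht2 : 0 ≤ (64 / D ^ 2) * (Y₂ J - μ₂) ^ 2 := by positivity
    by_cases hG : Good ends δ S J
    · rw [if_pos hG]; linarith
    · rw [if_neg hG]
      have hc1 : ((S ∩ J).card : ℝ) = m - Y₁ J := card_selected S J
      have hc2 : (((S ∩ J).biUnion ends).card : ℝ) = (Fintype.card V : ℝ) - Y₂ J :=
        card_touched ends S J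
      have hdiff : ((S ∩ J).card : ℝ) - D = -(Y₁ J - μ₁) := by
        rw [hc1, hμ₁', hD, hq]; ring
      have hD2 : 0 < D ^ 2 := by positivity
      unfold Good at hG
      rw [← hm, ← hD] at hG
      have hcases : ((S ∩ J).card : ℝ) < D / 2 ∨ 2 * D < ((S ∩ J).card : ℝ)
          ∨ (((S ∩ J).biUnion ends).card : ℝ) < D / 8 := by
        by_contra hcon
        push Not at hcon
        apply hG
        refine ⟨by linarith [hcon.1], ?_, by linarith [hcon.2.2]⟩
        have : 2 * δ * m = 2 * D := by rw [hD]; ring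
        rw [this]
        exact hcon.2.1
      have hA : (D / 2) ^ 2 ≤ (Y₁ J - μ₁) ^ 2 → 1 ≤ (4 / D ^ 2) * (Y₁ J - μ₁) ^ 2 := by
        intro h
        calc (1:ℝ) = (4 / D ^ 2) * (D / 2) ^ 2 := by field_simp; ring
          _ ≤ _ := mul_le_mul_of_nonneg_left h (by positivity)
      have hB : (D / 8) ^ 2 ≤ (Y₂ J - μ₂) ^ 2 → 1 ≤ (64 / D ^ 2) * (Y₂ J - μ₂) ^ 2 := by
        intro h
        calc (1:ℝ) = (64 / D ^ 2) * (D / 8) ^ 2 := by field_simp; ring
          _ ≤ _ := mul_le_mul_of_nonneg_left h (by positivity)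
      rcases hcases with hc | hc | hc
      · have : D / 2 ≤ Y₁ J - μ₁ := by linarith
        have := hA (by nlinarith)
        linarith
      · have : D ≤ -(Y₁ J - μ₁) := by linarith
        have := hA (by nlinarith)
        linarith
      · have : D / 8 ≤ Y₂ J - μ₂ := by linarith
        have := hB (by nlinarith)
        linarith
  -- integrate
  have hint := E_mono h0.le hq0 (A := Om) (fun J _ => hpt J)
  rw [E_one hpq, E_add, E_add, E_const_mul, E_const_mul] at hint
  have hE1 : (4 / D ^ 2) * E δ q Om (fun J => (Y₁ J - μ₁) ^ 2) ≤ (4 / D ^ 2) * D :=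
    mul_le_mul_of_nonneg_left hV₁ (by positivity)
  have hE2 : (64 / D ^ 2) * E δ q Om (fun J => (Y₂ J - μ₂) ^ 2) ≤ (64 / D ^ 2) * (4 * D) :=
    mul_le_mul_of_nonneg_left hV₂ (by positivity)
  have hE3 : (4 / D ^ 2) * D + (64 / D ^ 2) * (4 * D) = 260 / D := by
    field_simp; ring
  have hE4 : 260 / D ≤ 3 / 4 := by
    rw [div_le_iff₀ hDpos]; linarith
  linarith

end Vale.Agent.P063.GoodSet
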