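import Vale.Agent.P063.Bonami

/-!
# The pivot lemma

For `e` outside `A`, `g` Boolean-valued on the cube over `insert e A`, `D y = g (insert e y) - g y`
and `W` the mean of `|D|`, the Fourier weight of `g` on a family of sets containing `e` is at most
`r ^ 2 * sqrt K * W ^ (3/2)`, whenever `K` is a fourth moment constant for the family.
-/

namespace Vale.Agent.P063

open Finset

variable {α : Type*} [DecidableEq α]

section pivot

variable {p q r : ℝ}

/-- The core inequality: `D` takes values in `{0, 1, -1}` on the cube, `K` a fourth moment constant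
for the low part of `D`. -/
theorem pivot_core (P : Params p q r) {A : Finset α} {I : Finset (Finset α)}
    (hI : I ⊆ A.powerset) (D : Finset α → ℝ)
    (hD : ∀ x, x ⊆ A → D x = 0 ∨ D x = 1 ∨ D x = -1) {K : ℝ}
    (hB : E p q A (fun x => poly p q r I (coef p q r A D) x ^ 4) ≤
      K * (∑ S ∈ I, coef p q r A D S ^ 2) ^ 2) :
    ∑ S ∈ I, coef p q r A D S ^ 2 ≤
      Real.sqrt K * (E p q A (fun x => |D x|) * Real.sqrt (E p q A (fun x => |D x|))) := by
  have hp := P.hp.le
  have hq := P.hq.le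
  set h : Finset α → ℝ := poly p q r I (coef p q r A D) with hh
  set Z : Finset α → ℝ := fun x => |D x| with hZ
  set Sg : ℝ := ∑ S ∈ I, coef p q r A D S ^ 2 with hSgd
  set W : ℝ := E p q A Z with hW
  have hSg0 : 0 ≤ Sg := Finset.sum_nonneg fun S _ => sq_nonneg _
  have hW0 : 0 ≤ W := E_nonneg hp hq fun x _ => abs_nonneg _
  -- the pairing
  have h1 : E p q A (fun x => h x * D x) = Sg := by
    rw [hh, E_poly_mul P hI]
    apply Finset.sum_congr rfl
    intro S _
    ring
  have hZ2 : ∀ x, x ⊆ A → Z x ^ 2 = Z x := by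
    intro x hx
    rcases hD x hx with h0 | h0 | h0 <;> simp [hZ, h0]
  have hDZ : ∀ x, x ⊆ A → D x ^ 2 = Z x := by
    intro x hx
    rcases hD x hx with h0 | h0 | h0 <;> simp [hZ, h0]
  -- first Cauchy-Schwarz: `Sg ^ 2 ≤ E (h ^ 2 Z) * W`
  have h2 : Sg ^ 2 ≤ E p q A (fun x => h x ^ 2 * Z x) * W := by
    have hcs := E_cs hp hq A (fun x => h x * Z x) D
    have e1 : E p q A (fun x => (h x * Z x) * D x) = Sg := by
      rw [← h1]
      apply E_congr
      intro x hx
      rcases hD x hx with h0 | h0 | h0 <;> simp [hZ, h0]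
    have e2 : E p q A (fun x => (h x * Z x) ^ 2) = E p q A (fun x => h x ^ 2 * Z x) := by
      apply E_congr
      intro x hx
      rw [mul_pow, hZ2 x hx]
    have e3 : E p q A (fun x => D x ^ 2) = W := E_congr p q hDZ
    rw [e1, e2, e3] at hcs
    exact hcs
  -- second Cauchy-Schwarz: `E (h ^ 2 Z) ^ 2 ≤ E h ^ 4 * W`
  have h3 : E p q A (fun x => h x ^ 2 * Z x) ^ 2 ≤ E p q A (fun x => h x ^ 4) * W := by
    have hcs := E_cs hp hq A (fun x => h x ^ 2) Z
    have e1 : E p q A (fun x => (h x ^ 2) ^ 2) = E p q A (fun x => h x ^ 4) := by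
      apply E_congr
      intro x _
      ring
    have e2 : E p q A (fun x => Z x ^ 2) = W := E_congr p q hZ2
    rw [e1, e2] at hcs
    exact hcs
  have hF0 : 0 ≤ E p q A (fun x => h x ^ 2 * Z x) :=
    E_nonneg hp hq fun x _ => mul_nonneg (sq_nonneg _) (abs_nonneg _)
  -- combine
  have h4 : (Sg ^ 2) ^ 2 ≤ K * Sg ^ 2 * W ^ 3 := by
    calc (Sg ^ 2) ^ 2 ≤ (E p q A (fun x => h x ^ 2 * Z x) * W) ^ 2 :=
          pow_le_pow_left₀ (sq_nonneg _) h2 2
      _ = E p q A (fun x => h x ^ 2 * Z x) ^ 2 * W ^ 2 := by ring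
      _ ≤ (E p q A (fun x => h x ^ 4) * W) * W ^ 2 :=
          mul_le_mul_of_nonneg_right h3 (sq_nonneg _)
      _ ≤ ((K * Sg ^ 2) * W) * W ^ 2 := by
          apply mul_le_mul_of_nonneg_right _ (sq_nonneg _)
          exact mul_le_mul_of_nonneg_right hB hW0
      _ = K * Sg ^ 2 * W ^ 3 := by ring
  by_cases hSgpos : Sg = 0
  · rw [hSgpos]
    exact mul_nonneg (Real.sqrt_nonneg _) (mul_nonneg hW0 (Real.sqrt_nonneg _))
  have hSg2 : 0 < Sg ^ 2 := by positivity
  have h5 : Sg ^ 2 ≤ K * W ^ 3 := by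
    have : Sg ^ 2 * Sg ^ 2 ≤ (K * W ^ 3) * Sg ^ 2 := by nlinarith [h4]
    exact le_of_mul_le_mul_right this hSg2
  have h6 : Sg ≤ Real.sqrt (K * W ^ 3) := Real.le_sqrt_of_sq_le h5
  have hK0 : 0 ≤ K := by
    by_contra hneg
    push Not at hneg
    have : K * W ^ 3 ≤ 0 := mul_nonpos_of_nonpos_of_nonneg hneg.le (by positivity)
    nlinarith
  have h7 : Real.sqrt (K * W ^ 3) = Real.sqrt K * (W * Real.sqrt W) := by
    rw [Real.sqrt_mul hK0]
    congr 1
    have : W ^ 3 = W ^ 2 * W := by ring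
    rw [this, Real.sqrt_mul (by positivity), Real.sqrt_sq hW0]
  rw [h7] at h6
  exact h6

/-- The pivot lemma on the cube over `insert e A`. -/
theorem pivot_insert (P : Params p q r) {A : Finset α} {e : α} (he : e ∉ A)
    {I : Finset (Finset α)} (hI : I ⊆ A.powerset) (g : Finset α → ℝ)
    (hg : ∀ x, g x = 0 ∨ g x = 1) {K : ℝ}
    (hB : ∀ c : Finset α → ℝ, E p q A (fun x => poly p q r I c x ^ 4) ≤
      K * (∑ S ∈ I, c S ^ 2) ^ 2) :
    ∑ S ∈ I, coef p q r (insert e A) g (insert e S) ^ 2 ≤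
      r ^ 2 * (Real.sqrt K * (E p q A (fun y => |g (insert e y) - g y|) *
        Real.sqrt (E p q A (fun y => |g (insert e y) - g y|)))) := by
  set D : Finset α → ℝ := fun y => g (insert e y) - g y with hDdef
  have hD : ∀ x, x ⊆ A → D x = 0 ∨ D x = 1 ∨ D x = -1 := by
    intro x _
    rcases hg (insert e x) with h1 | h1 <;> rcases hg x with h2 | h2 <;> simp [hDdef, h1, h2]
  have hcoef : ∀ S ∈ I, coef p q r (insert e A) g (insert e S) = r * coef p q r A D S := by
    intro S hS
    have hSe : e ∉ S := fun h => he (Finset.mem_powerset.mp (hI hS) h)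
    rw [coef_insert_self P g he hSe]
    congr 1
    unfold coef
    rw [← E_sub]
    apply E_congr
    intro x _
    simp only [hDdef]
    ring
  have hmain := pivot_core P hI D hD (hB (coef p q r A D))
  have e1 : ∑ S ∈ I, coef p q r (insert e A) g (insert e S) ^ 2
      = r ^ 2 * ∑ S ∈ I, coef p q r A D S ^ 2 := by
    rw [Finset.mul_sum]
    apply Finset.sum_congr rfl
    intro S hS
    rw [hcoef S hS, mul_pow]
  rw [e1]
  exact mul_le_mul_of_nonneg_left hmain (sq_nonneg r)

/-- The pivot lemma on the cube over `J`, for a family of subsets of `J` containing `e`. -/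
theorem pivot (P : Params p q r) {J : Finset α} {e : α} (heJ : e ∈ J)
    {Θ : Finset (Finset α)} (hΘ : Θ ⊆ J.powerset) (hΘe : ∀ T ∈ Θ, e ∈ T)
    (g : Finset α → ℝ) (hg : ∀ x, g x = 0 ∨ g x = 1) {K : ℝ}
    (hB : ∀ c : Finset α → ℝ,
      E p q (J.erase e) (fun x => poly p q r (Θ.image fun T => T.erase e) c x ^ 4) ≤
        K * (∑ S ∈ Θ.image (fun T => T.erase e), c S ^ 2) ^ 2) :
    ∑ T ∈ Θ, coef p q r J g T ^ 2 ≤
      r ^ 2 * (Real.sqrt K * (E p q (J.erase e) (fun y => |g (insert e y) - g y|) *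
        Real.sqrt (E p q (J.erase e) (fun y => |g (insert e y) - g y|)))) := by
  have hins : insert e (J.erase e) = J := Finset.insert_erase heJ
  have hI : Θ.image (fun T => T.erase e) ⊆ (J.erase e).powerset := by
    intro S hS
    obtain ⟨T, hT, rfl⟩ := Finset.mem_image.mp hS
    exact Finset.mem_powerset.mpr (Finset.erase_subset_erase e (Finset.mem_powerset.mp (hΘ hT)))
  have hmain := pivot_insert P (Finset.notMem_erase e J) hI g hg hB
  rw [hins] at hmain
  have hinj : Set.InjOn (fun T : Finset α => T.erase e) (Θ : Set (Finset α)) := by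
    intro T hT T' hT' h
    have h1 := Finset.insert_erase (hΘe T hT)
    have h2 := Finset.insert_erase (hΘe T' hT')
    simp only at h
    rw [← h1, ← h2, h]
  rw [Finset.sum_image hinj] at hmain
  have e1 : ∑ T ∈ Θ, coef p q r J g (insert e (T.erase e)) ^ 2 = ∑ T ∈ Θ, coef p q r J g T ^ 2 := by
    apply Finset.sum_congr rfl
    intro T hT
    rw [Finset.insert_erase (hΘe T hT)]
  rw [e1] at hmain
  exact hmain

/-- The pivot lemma with the hypercontractive constant: all sets of the family have at most `d + 1`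
elements. -/
theorem pivot_bonami (P : Params p q r) {J : Finset α} {e : α} (heJ : e ∈ J)
    {Θ : Finset (Finset α)} (hΘ : Θ ⊆ J.powerset) (hΘe : ∀ T ∈ Θ, e ∈ T) (d : ℕ)
    (hd : ∀ T ∈ Θ, T.card ≤ d + 1) (g : Finset α → ℝ) (hg : ∀ x, g x = 0 ∨ g x = 1) :
    ∑ T ∈ Θ, coef p q r J g T ^ 2 ≤
      r ^ 2 * (Real.sqrt ((4 / r ^ 2) ^ d) * (E p q (J.erase e) (fun y => |g (insert e y) - g y|) *
        Real.sqrt (E p q (J.erase e) (fun y => |g (insert e y) - g y|)))) := by
  apply pivot P heJ hΘ hΘe g hg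
  intro c
  apply bonami P (J.erase e) d
  intro S hS
  obtain ⟨T, hT, rfl⟩ := Finset.mem_image.mp hS
  refine ⟨Finset.erase_subset_erase e (Finset.mem_powerset.mp (hΘ hT)), ?_⟩
  have h1 := Finset.card_erase_of_mem (hΘe T hT)
  have h2 := hd T hT
  omega

end pivot

end Vale.Agent.P063
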