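import Vale.Agent.P063.Middle
import Vale.Agent.P063.SymQ
import Vale.Agent.P063.Pivot

/-!
# The middle range, concrete form
-/

namespace Vale.Agent.P063

open Finset

variable {α : Type*} [DecidableEq α]

section
variable {p q r δ θ Lam : ℝ} {A : Finset α} {f : Finset α → ℝ}

/-- The `T`-event complement. -/
def badEv (p q θ Lam : ℝ) (f : Finset α → ℝ) (J x T : Finset α) : Prop :=
  ¬ SymQ.Aev p q θ Lam f T J x

lemma L_subset (p q θ : ℝ) (f : Finset α → ℝ) (J x : Finset α) : SymQ.L p q θ f J x ⊆ J := by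
  classical
  unfold SymQ.L
  exact Finset.filter_subset _ _

open Classical in
/-- The middle probability is the event probability of `SymQ`. -/
lemma qq_eq_qT (T : Finset α) :
    qq A (badEv p q θ Lam f) p q δ T = SymQ.qT p q δ (1 - δ) θ Lam f A T := by
  unfold qq SymQ.qT EE
  apply E_congr
  intro J _
  apply E_congr
  intro x _
  apply if_congr _ rfl rfl
  unfold badEv
  constructor
  · rintro ⟨_, h⟩
    exact not_not.mp h
  · intro h
    exact ⟨Finset.Subset.trans h.1 (L_subset _ _ _ _ _ _), not_not.mpr h⟩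

/-- Pointwise control of the `h`-mass on the bad event. -/
lemma bad_pointwise (P : Params p q r) (hθ : 0 < θ) (hLam : 0 < Lam)
    (hf : ∀ x, f x = 0 ∨ f x = 1) {calT : Finset (Finset α)} {d : ℕ}
    (hT : ∀ T ∈ calT, T.card ≤ d + 1) (J x : Finset α)
    [∀ T, Decidable (T ⊆ J ∧ badEv p q θ Lam f J x T)] [Decidable (Lam < SymQ.Xi p q f J x)] :
    ∑ T ∈ calT, (if T ⊆ J ∧ badEv p q θ Lam f J x T then hh p q r f J T x ^ 2 else 0)
      ≤ (if Lam < SymQ.Xi p q f J x then (1:ℝ) else 0)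
        + r ^ 2 * Real.sqrt ((4 / r ^ 2) ^ d) * Real.sqrt θ * Lam := by
  classical
  have hp := P.hp.le
  have hq := P.hq.le
  have hf2 : ∀ x, f x ^ 2 ≤ 1 := by
    intro x; rcases hf x with h | h <;> rw [h] <;> norm_num
  have hC : 0 ≤ r ^ 2 * Real.sqrt ((4 / r ^ 2) ^ d) * Real.sqrt θ * Lam := by positivity
  by_cases hX : Lam < SymQ.Xi p q f J x
  · rw [if_pos hX]
    have h1 : ∑ T ∈ calT, (if T ⊆ J ∧ badEv p q θ Lam f J x T then hh p q r f J T x ^ 2 else 0)
        ≤ ∑ T ∈ calT, (if T ⊆ J then hh p q r f J T x ^ 2 else 0) := by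
      apply Finset.sum_le_sum
      intro T _
      by_cases h2 : T ⊆ J <;> by_cases h3 : badEv p q θ Lam f J x T <;> simp [h2, h3]
      exact sq_nonneg _
    have h2 := sum_hh_sq_le (p := p) (q := q) (r := r) calT P hf2 J x
    linarith
  · rw [if_neg hX, zero_add]
    have hX' : SymQ.Xi p q f J x ≤ Lam := not_lt.mp hX
    set L := SymQ.L p q θ f J x with hL
    set W := SymQ.W p q f J x with hW
    have hW0 : ∀ e, 0 ≤ W e := fun e => SymQ.W_nonneg hp hq f J x e
    -- assign `T` to the elements outside the list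
    have h1 : ∀ T ∈ calT, (if T ⊆ J ∧ badEv p q θ Lam f J x T then hh p q r f J T x ^ 2 else 0)
        ≤ ∑ e ∈ J \ L, (if T ⊆ J ∧ e ∈ T then hh p q r f J T x ^ 2 else 0) := by
      intro T _
      by_cases h2 : T ⊆ J ∧ badEv p q θ Lam f J x T
      · rw [if_pos h2]
        have h3 : ¬ T ⊆ L := by
          intro h4
          exact h2.2 ⟨h4, hX'⟩
        obtain ⟨e, he, he'⟩ := Finset.not_subset.mp h3
        have h4 : e ∈ J \ L := Finset.mem_sdiff.mpr ⟨h2.1 he, he'⟩
        have h5 : hh p q r f J T x ^ 2 = if T ⊆ J ∧ e ∈ T then hh p q r f J T x ^ 2 else 0 := by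
          rw [if_pos ⟨h2.1, he⟩]
        refine le_trans (le_of_eq h5) ?_
        exact Finset.single_le_sum (f := fun e' => if T ⊆ J ∧ e' ∈ T then
          hh p q r f J T x ^ 2 else 0) (fun e' _ => by
            show 0 ≤ (if T ⊆ J ∧ e' ∈ T then hh p q r f J T x ^ 2 else 0)
            split_ifs <;> positivity) h4
      · rw [if_neg h2]
        apply Finset.sum_nonneg
        intro e' _
        split_ifs <;> positivity
    refine le_trans (Finset.sum_le_sum h1) ?_
    rw [Finset.sum_comm]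
    -- the pivot lemma for each element outside the list
    have h2 : ∀ e ∈ J \ L, ∑ T ∈ calT, (if T ⊆ J ∧ e ∈ T then hh p q r f J T x ^ 2 else 0)
        ≤ r ^ 2 * Real.sqrt ((4 / r ^ 2) ^ d) * Real.sqrt θ * W e := by
      intro e he
      obtain ⟨heJ, heL⟩ := Finset.mem_sdiff.mp he
      rw [← Finset.sum_filter]
      have h3 := pivot_bonami (p := p) (q := q) (r := r) P heJ
        (Θ := calT.filter fun T => T ⊆ J ∧ e ∈ T)
        (fun T hT' => Finset.mem_powerset.mpr (Finset.mem_filter.mp hT').2.1)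
        (fun T hT' => (Finset.mem_filter.mp hT').2.2) d
        (fun T hT' => hT T (Finset.mem_filter.mp hT').1)
        (fun y => f (y ∪ x)) (fun y => hf _)
      have hWe : E p q (J.erase e) (fun y => |f (insert e y ∪ x) - f (y ∪ x)|) = W e := rfl
      simp only [hh]
      simp only [hWe] at h3
      refine le_trans h3 ?_
      have h4 : W e < θ := by
        by_contra h5
        apply heL
        rw [hL]
        unfold SymQ.L
        exact Finset.mem_filter.mpr ⟨heJ, not_lt.mp h5⟩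
      have h5 : Real.sqrt (W e) ≤ Real.sqrt θ := Real.sqrt_le_sqrt h4.le
      have h6 : W e * Real.sqrt (W e) ≤ W e * Real.sqrt θ :=
        mul_le_mul_of_nonneg_left h5 (hW0 e)
      have h7 : 0 ≤ r ^ 2 * Real.sqrt ((4 / r ^ 2) ^ d) := by positivity
      calc r ^ 2 * (Real.sqrt ((4 / r ^ 2) ^ d) * (W e * Real.sqrt (W e)))
          = (r ^ 2 * Real.sqrt ((4 / r ^ 2) ^ d)) * (W e * Real.sqrt (W e)) := by ring
        _ ≤ (r ^ 2 * Real.sqrt ((4 / r ^ 2) ^ d)) * (W e * Real.sqrt θ) :=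
            mul_le_mul_of_nonneg_left h6 h7
        _ = _ := by ring
    refine le_trans (Finset.sum_le_sum h2) ?_
    rw [← Finset.mul_sum]
    apply mul_le_mul_of_nonneg_left _ (by positivity)
    have h3 : ∑ e ∈ J \ L, W e ≤ ∑ e ∈ J, W e :=
      Finset.sum_le_sum_of_subset_of_nonneg Finset.sdiff_subset fun e _ _ => hW0 e
    exact le_trans h3 hX'

open Classical in
/-- The bound for `Bad`: Term 1 and Term 2. -/
theorem Bad_le (P : Params p q r) (h0 : 0 ≤ δ) (h1 : δ ≤ 1) (hθ : 0 < θ) (hLam : 0 < Lam)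
    (hf : ∀ x, f x = 0 ∨ f x = 1) {calT : Finset (Finset α)} {d : ℕ}
    (hT : ∀ T ∈ calT, T.card ≤ d + 1) :
    Bad A f calT (badEv p q θ Lam f) p q r δ
      ≤ δ * (∑ e ∈ A, SymQ.Inf p q f A e) / Lam
        + r ^ 2 * Real.sqrt ((4 / r ^ 2) ^ d) * Real.sqrt θ * Lam := by
  have hp := P.hp.le
  have hq := P.hq.le
  unfold Bad
  rw [← EE_sum]
  have h2 : EE p q δ A (fun J x => ∑ T ∈ calT,
        if T ⊆ J ∧ badEv p q θ Lam f J x T then hh p q r f J T x ^ 2 else 0)
      ≤ EE p q δ A (fun J x => (if Lam < SymQ.Xi p q f J x then (1:ℝ) else 0)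
        + r ^ 2 * Real.sqrt ((4 / r ^ 2) ^ d) * Real.sqrt θ * Lam) :=
    EE_mono hp hq h0 h1 fun J x => bad_pointwise P hθ hLam hf hT J x
  refine le_trans h2 ?_
  rw [EE_add]
  apply add_le_add
  · exact SymQ.markov_Xi hp hq h0 (by linarith) (by ring) hLam f A
  · unfold EE
    simp only [E_const P.hpq]
    rw [E_const (by ring)]

/-- Summing the per-`T` bound over `T` and over `S`. -/
theorem RR_le {calS calT : Finset (Finset α)} {D : ℕ → ℕ} {d M : ℕ} (g : ℕ → ℝ)
    (hg0 : ∀ t, 0 ≤ g t) (Y : Finset α → ℝ)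
    (hg : ∀ T ∈ calT, Y T ≤ g T.card)
    (hT : ∀ T ∈ calT, 1 ≤ T.card ∧ T.card ≤ d + 1)
    (hM : ∀ S ∈ calS, S.card ≤ M) :
    ∑ T ∈ calT, Y T * bb A f calS p q r D T
      ≤ (∑ t ∈ Finset.Icc 1 (d + 1), (M : ℝ) ^ t * g t) * ∑ S ∈ calS, coef p q r A f S ^ 2 := by
  classical
  have h1 : ∀ T ∈ calT, Y T * bb A f calS p q r D T
      ≤ ∑ S ∈ calS, (if T ⊆ S then g T.card * coef p q r A f S ^ 2 else 0) := by
    intro T hT'
    unfold bb
    rw [Finset.mul_sum, ← Finset.sum_filter]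
    have h2 : ∑ S ∈ calS.filter (fun S => T ⊆ S ∧ S.card ≤ D T.card), Y T * coef p q r A f S ^ 2
        ≤ ∑ S ∈ calS.filter (fun S => T ⊆ S ∧ S.card ≤ D T.card), g T.card * coef p q r A f S ^ 2 :=
      Finset.sum_le_sum fun S _ => mul_le_mul_of_nonneg_right (hg T hT') (sq_nonneg _)
    refine le_trans h2 ?_
    apply Finset.sum_le_sum_of_subset_of_nonneg
    · intro S hS
      obtain ⟨h3, h4, _⟩ := Finset.mem_filter.mp hS
      exact Finset.mem_filter.mpr ⟨h3, h4⟩
    · intro S _ _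
      have := hg0 T.card
      positivity
  refine le_trans (Finset.sum_le_sum h1) ?_
  rw [Finset.sum_comm, Finset.mul_sum]
  apply Finset.sum_le_sum
  intro S hS
  have h3 : ∑ T ∈ calT, (if T ⊆ S then g T.card * coef p q r A f S ^ 2 else 0)
      = (∑ T ∈ calT.filter (fun T => T ⊆ S), g T.card) * coef p q r A f S ^ 2 := by
    rw [← Finset.sum_filter, Finset.sum_mul]
  rw [h3]
  apply mul_le_mul_of_nonneg_right _ (sq_nonneg _)
  -- count the `T` inside `S`
  have hmaps : ∀ T ∈ calT.filter (fun T => T ⊆ S), T.card ∈ Finset.Icc 1 (d + 1) := by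
    intro T hT'
    exact Finset.mem_Icc.mpr (hT T (Finset.mem_filter.mp hT').1)
  rw [← Finset.sum_fiberwise_of_maps_to hmaps]
  apply Finset.sum_le_sum
  intro t ht
  have h4 : ∑ T ∈ (calT.filter (fun T => T ⊆ S)).filter (fun T => T.card = t), g T.card
      = (((calT.filter (fun T => T ⊆ S)).filter (fun T => T.card = t)).card : ℝ) * g t := by
    rw [Finset.sum_congr rfl (g := fun _ => g t)]
    · simp
    · intro T hT'
      rw [(Finset.mem_filter.mp hT').2]
  rw [h4]
  apply mul_le_mul_of_nonneg_right _ (hg0 t)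
  have h5 : (calT.filter (fun T => T ⊆ S)).filter (fun T => T.card = t) ⊆ S.powersetCard t := by
    intro T hT'
    obtain ⟨h6, h7⟩ := Finset.mem_filter.mp hT'
    exact Finset.mem_powersetCard.mpr ⟨(Finset.mem_filter.mp h6).2, h7⟩
  have h6 := Finset.card_le_card h5
  rw [Finset.card_powersetCard] at h6
  have h7 : S.card.choose t ≤ S.card ^ t := Nat.choose_le_pow _ _
  have h8 : S.card ^ t ≤ M ^ t := Nat.pow_le_pow_left (hM S hS) t
  have h9 := le_trans h6 (le_trans h7 h8)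
  exact_mod_cast h9

open Classical in
/-- **The middle range, concrete form.** -/
theorem middle_concrete (P : Params p q r) (h0 : 0 ≤ δ) (h1 : δ ≤ 1) (hθ : 0 < θ) (hLam : 0 < Lam)
    (hf : ∀ x, f x = 0 ∨ f x = 1) {calS calT : Finset (Finset α)}
    (good : Finset α → Finset α → Prop) (D : ℕ → ℕ) {d : ℕ}
    (hT : ∀ T ∈ calT, T.card ≤ d + 1)
    (hS : ∀ S ∈ calS, S ⊆ A)
    (hgood : ∀ S ∈ calS, ∀ J, J ⊆ A → good S J → S ∩ J ∈ calT)
    (hD : ∀ S ∈ calS, ∀ J, J ⊆ A → good S J → S.card ≤ D (S ∩ J).card)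
    (hPg : ∀ S ∈ calS, 1 / 4 ≤ E δ (1 - δ) A (fun J => if good S J then (1:ℝ) else 0)) :
    ∑ S ∈ calS, coef p q r A f S ^ 2
      ≤ 4 * (δ * (∑ e ∈ A, SymQ.Inf p q f A e) / Lam
        + r ^ 2 * Real.sqrt ((4 / r ^ 2) ^ d) * Real.sqrt θ * Lam
        + 2 * Real.sqrt (∑ T ∈ calT, Real.sqrt (SymQ.qT p q δ (1 - δ) θ Lam f A T
            * (4 / r ^ 2) ^ D T.card) * bb A f calS p q r D T)) := by
  have hf2 : ∀ x, f x ^ 2 ≤ 1 := by
    intro x; rcases hf x with h | h <;> rw [h] <;> norm_num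
  have hBd : 0 ≤ 4 / r ^ 2 := by have := P.hr; positivity
  have hB : ∀ (A' : Finset α) (I : Finset (Finset α)) (c : Finset α → ℝ) (d : ℕ),
      I ⊆ A'.powerset → (∀ S ∈ I, S.card ≤ d) →
      E p q A' (fun x => poly p q r I c x ^ 4) ≤ (4 / r ^ 2) ^ d * (∑ S ∈ I, c S ^ 2) ^ 2 := by
    intro A' I c d hI hd
    exact bonami P A' d I (fun S hS => ⟨Finset.mem_powerset.mp (hI hS), hd S hS⟩) c
  have h := middle_core A f calS calT good (badEv p q θ Lam f) P h0 h1 hBd D hB hf2 hS hgood hD hPg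
  refine le_trans h ?_
  apply mul_le_mul_of_nonneg_left _ (by norm_num)
  have h2 : RR A f calS calT (badEv p q θ Lam f) p q r δ (4 / r ^ 2) D
      = ∑ T ∈ calT, Real.sqrt (SymQ.qT p q δ (1 - δ) θ Lam f A T
            * (4 / r ^ 2) ^ D T.card) * bb A f calS p q r D T := by
    unfold RR
    apply Finset.sum_congr rfl
    intro T _
    rw [qq_eq_qT]
  rw [h2]
  have h3 := Bad_le (A := A) P h0 h1 hθ hLam hf hT
  linarith

end

end Vale.Agent.P063
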