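import Vale.Agent.P063.TheoremA
import Vale.Agent.P063.MiddleFinal
import Vale.Agent.P063.Exponent
import Vale.Agent.P063.GoodInst
import Vale.Agent.P063.XiMean

/-!
The estimate of the middle range of levels, from the pairing theorem, the symmetric list bound
and the summation of the third term.
-/

namespace Vale.Agent.P063

open Finset Filter
open Vale.Agent.P063.Params Vale.Agent.P063.Exponent

/-- The final bound for the summation of the third term, uniformly in the ground type. -/
theorem term3_uniform {eps0 : ℝ} (h0 : 0 < eps0) (h1 : eps0 ≤ 1) :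
    ∀ᶠ n : ℕ in atTop, ∀ s2 : ℝ, 1 / (2 * (Real.log n) ^ 2) ≤ s2 → s2 ≤ 1 / 4 → ∀ d : ℕ,
      (d : ℝ) ≤ 2 * (dl s2 (Real.log n) * MM s2 (Real.log n)) + 1 →
      ∀ (α : Type) [DecidableEq α] (calS calT : Finset (Finset α)) (c q : Finset α → ℝ)
        (D v : Finset α → ℕ),
        (∀ S ∈ calS, 0 ≤ c S) → (∀ S ∈ calS, (S.card : ℝ) ≤ MM s2 (Real.log n)) →
        (∀ T ∈ calT, T.Nonempty ∧ 0 ≤ q T ∧ T.card ≤ 16 * v T ∧ v T ≤ 2 * (d + 1) ∧
            (D T : ℝ) ≤ 2 * T.card / dl s2 (Real.log n) ∧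
            q T * (n.choose (v T) : ℝ)
              ≤ (Lam0 s2 (Real.log n) eps0
                  / thetaOf s2 eps0 (Lam0 s2 (Real.log n) eps0) d) ^ T.card) →
      ∑ T ∈ calT, (Real.sqrt (q T) * Real.sqrt ((4 / s2) ^ D T)) * ∑ S ∈ calS with T ⊆ S, c S
        ≤ Real.exp (- Real.log n / 128) / 2 * ∑ S ∈ calS, c S := by
  have hlog : Tendsto (fun n : ℕ => Real.log (n : ℝ)) atTop atTop :=
    Real.tendsto_log_atTop.comp tendsto_natCast_atTop_atTop
  filter_upwards [hlog.eventually (exponent_eventually h0 h1), hlog.eventually support_sq_le,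
    hlog.eventually_ge_atTop (1 : ℝ), eventually_gt_atTop 0]
    with n hexpo hsupp hl hn s2 hs1 hs2 d hd α _ calS calT c q D v hc hS hT
  set ell := Real.log (n : ℝ) with hell
  have hl0 : 0 < ell := by linarith
  have hs0 : 0 < s2 := lt_of_lt_of_le (by positivity) hs1
  have hb2 : 2 ≤ Params.bb s2 := two_le_bb hs0 hs2
  have hb0 : 0 < Params.bb s2 := by linarith
  have hδ : 0 < dl s2 ell := by unfold dl; positivity
  have hM0 : 0 < MM s2 ell := by unfold MM bt; positivity
  have hB1 : 1 ≤ 4 / s2 := by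
    rw [le_div_iff₀ hs0]; linarith
  have hB0 : 0 < 4 / s2 := by linarith
  set Lam := Lam0 s2 ell eps0 with hLam
  have hLam0 : 0 < Lam := by
    rw [hLam]; unfold Lam0; positivity
  have hth : 0 < thetaOf s2 eps0 Lam d := by
    unfold thetaOf; positivity
  have hR : 0 < Lam / thetaOf s2 eps0 Lam d := by positivity
  set x := Real.log (4 / s2) / dl s2 ell + Real.log (Lam / thetaOf s2 eps0 Lam d) / 2 - ell / 64
    with hx
  have hex := hexpo s2 hs1 hs2 d hd
  have hexx : Real.log (4 * MM s2 ell) + x ≤ - ell / 128 := by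
    have h2 : Lam = dl s2 ell * ell ^ 2 / eps0 := rfl
    rw [hx, h2]
    linarith
  set ρ := Real.exp x with hρ
  have hρ0 : 0 < ρ := Real.exp_pos _
  have hkey : 4 * MM s2 ell * ρ ≤ Real.exp (- ell / 128) := by
    have h4M : 0 < 4 * MM s2 ell := by positivity
    calc 4 * MM s2 ell * ρ = Real.exp (Real.log (4 * MM s2 ell) + x) := by
          rw [Real.exp_add, Real.exp_log h4M]
      _ ≤ Real.exp (- ell / 128) := Real.exp_le_exp.mpr hexx
  have hexp1 : Real.exp (- ell / 128) ≤ 1 := by
    rw [Real.exp_le_one_iff]; linarith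
  set M := ⌊MM s2 ell⌋₊ with hMdef
  have hMle : (M : ℝ) ≤ MM s2 ell := Nat.floor_le hM0.le
  have hSM : ∀ S ∈ calS, S.card ≤ M := fun S hSm => Nat.le_floor (hS S hSm)
  have hMρ : (M : ℝ) * ρ ≤ 1 / 2 := by
    have := mul_le_mul_of_nonneg_right hMle hρ0.le
    nlinarith
  have hsw := swap_geom calS calT c (fun T => Real.sqrt (q T) * Real.sqrt ((4 / s2) ^ D T)) hc
    hρ0.le M ?_ (fun T hTm => (hT T hTm).1) hSM hMρ
  · refine hsw.trans ?_
    apply mul_le_mul_of_nonneg_right _ (Finset.sum_nonneg hc)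
    have := mul_le_mul_of_nonneg_right hMle hρ0.le
    have h3 : -Real.log n / 128 = - ell / 128 := rfl
    rw [h3]
    nlinarith
  · intro T hTm
    obtain ⟨_, hq0, htv, hvd, hD, hq⟩ := hT T hTm
    have hnR : (0 : ℝ) < n := by exact_mod_cast hn
    have hv2 : (v T) ^ 2 ≤ n := by
      have h5 := hsupp s2 hs0 hs2 d (v T) hd hvd
      rw [hell, Real.exp_log hnR] at h5
      exact_mod_cast h5
    exact per_T hn hv2 htv hq0 hR hB1 hδ hD hq

variable {n : ℕ}

/-- The two ends of an edge. -/
abbrev endsE (n : ℕ) : Thr.Edge n → Finset (Fin n) := fun e => e.1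

/-- The eventual smallness of the last term. -/
lemma eventually_exp_small (ε : ℝ) (hε : 0 < ε) :
    ∀ᶠ n : ℕ in atTop, 8 * Real.sqrt (Real.exp (- Real.log n / 128) / 2) ≤ ε / 2 := by
  have hlog : Tendsto (fun n : ℕ => Real.log (n : ℝ)) atTop atTop :=
    Real.tendsto_log_atTop.comp tendsto_natCast_atTop_atTop
  set a : ℝ := (ε / 16) ^ 2 with ha
  have ha0 : 0 < a := by positivity
  filter_upwards [hlog.eventually_ge_atTop (- 128 * Real.log a)] with n hn
  have h1 : Real.exp (- Real.log n / 128) ≤ a := by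
    calc Real.exp (- Real.log n / 128) ≤ Real.exp (Real.log a) :=
          Real.exp_le_exp.2 (by linarith)
      _ = a := Real.exp_log ha0
  have h2 : Real.exp (- Real.log n / 128) / 2 ≤ (ε / 16) ^ 2 := by
    have := Real.exp_pos (- Real.log n / 128)
    rw [← ha]
    linarith
  have h3 : Real.sqrt (Real.exp (- Real.log n / 128) / 2) ≤ ε / 16 := by
    rw [Real.sqrt_le_iff]
    exact ⟨by positivity, h2⟩
  linarith

/-- **The middle range.** -/
theorem midBound : MidBound := by
  intro ε hε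
  set eps0 : ℝ := min 1 (ε / 16) with heps0
  have he0 : 0 < eps0 := lt_min one_pos (by positivity)
  have he1 : eps0 ≤ 1 := min_le_left _ _
  have he2 : eps0 ≤ ε / 16 := min_le_right _ _
  have hlog : Tendsto (fun n : ℕ => Real.log (n : ℝ)) atTop atTop :=
    Real.tendsto_log_atTop.comp tendsto_natCast_atTop_atTop
  obtain ⟨n0, hn0⟩ := eventually_atTop.1 ((hlog.eventually eventually_dl_le_one).and
    ((term3_uniform he0 he1).and ((eventually_exp_small ε hε).and
      ((hlog.eventually_ge_atTop (1 : ℝ)).and (eventually_ge_atTop 2)))))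
  refine ⟨1, one_pos, n0, ?_⟩
  intro n hn A hA p hp0 hp1 hs hI0 hI
  obtain ⟨hdl1, ht3, hexp', hl, hn2⟩ := hn0 n hn
  set l := Real.log (n : ℝ) with hldef
  set s2 := p * (1 - p) with hs2def
  have hs0 : 0 < s2 := mul_pos hp0 (by linarith)
  have hs1 : s2 ≤ 1 / 4 := s2_le
  have P := params_of hp0 hp1
  have hr2 : Real.sqrt s2 ^ 2 = s2 := Real.sq_sqrt hs0.le
  have hl0 : 0 < l := by linarith
  have hb := bb_pos hs0 hs1
  set δ := dl s2 l with hδ
  set M := MM s2 l with hM
  have hδ0 : 0 < δ := by rw [hδ]; unfold dl; positivity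
  have hδ1 : δ ≤ 1 := hdl1 s2 hs hs1
  have hM0 : 0 < M := by rw [hM]; unfold MM bt; positivity
  have hδM : δ ^ 2 * M ≤ 1 := dl_sq_MM_le hs0 hs1 hl0
  set d := ⌈2 * δ * M⌉₊ with hd
  have hd1 : 2 * δ * M ≤ (d : ℝ) := Nat.le_ceil _
  have hd2 : (d : ℝ) ≤ 2 * (δ * M) + 1 := by
    have := (Nat.ceil_lt_add_one (show 0 ≤ 2 * δ * M by positivity)).le
    rw [← hd] at this
    linarith
  set m0 := 512 / δ with hm0
  have hδm0 : δ * m0 = 512 := by rw [hm0]; field_simp
  set Lam := Lam0 s2 l eps0 with hLam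
  have hLam0 : 0 < Lam := by rw [hLam]; unfold Lam0; positivity
  set θ := thetaOf s2 eps0 Lam d with hθ
  have hB0 : 0 < 4 / s2 := by positivity
  have hθ0 : 0 < θ := by rw [hθ]; unfold thetaOf; positivity
  set f := indF A with hfdef
  have hf : ∀ x, f x = 0 ∨ f x = 1 := indF_zero_or_one A
  set calS' := GoodInst.calS (univ : Finset (Thr.Edge n)) m0 M with hcalS
  set calT' := GoodInst.calT (endsE n) (univ : Finset (Thr.Edge n)) d with hcalT
  set D : ℕ → ℕ := GoodInst.DD δ with hD
  have hmain := middle_concrete (A := (univ : Finset (Thr.Edge n))) (f := f) P hδ0.le hδ1 hθ0 hLam0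
    hf (calS := calS') (calT := calT') (GoodSet.Good (endsE n) δ) D (d := d)
    (fun T hT => ((GoodInst.calT_spec hT).2.2.1).trans (Nat.le_succ d))
    (fun S hS => GoodInst.calS_subset hS)
    (fun S hS J _ hG => GoodInst.good_mem_calT hδ0 (by rw [hδm0]; norm_num) hd1 hS hG)
    (fun S hS J _ hG => GoodInst.good_card_le hδ0 hG)
    (fun S hS => @GoodInst.quarter_le_Pg _ _ _ _ _ (endsE n) δ m0 M univ hδ0 hδ1
      (by rw [hδm0]) hδM (fun e => e.2) Subtype.val_injective
      (fun _ _ => Classical.propDecidable _) S hS)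
  rw [hr2] at hmain
  -- the total mass of the family
  have hmass : ∑ S ∈ calS', coef p (1 - p) (Real.sqrt s2) univ f S ^ 2 ≤ 1 := by
    have h1 : ∑ S ∈ calS', coef p (1 - p) (Real.sqrt s2) univ f S ^ 2
        ≤ ∑ S ∈ (univ : Finset (Thr.Edge n)).powerset,
          coef p (1 - p) (Real.sqrt s2) univ f S ^ 2 :=
      Finset.sum_le_sum_of_subset_of_nonneg (Finset.filter_subset _ _)
        (fun S _ _ => sq_nonneg _)
    refine h1.trans ?_
    rw [← parseval_sq P]
    calc E p (1 - p) univ (fun x => f x ^ 2) ≤ E p (1 - p) univ (fun _ => (1 : ℝ)) := by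
          apply E_mono P.hp.le P.hq.le
          intro x _
          rcases hf x with h | h <;> rw [h] <;> norm_num
      _ = 1 := E_const P.hpq _ _
  have hmass0 : 0 ≤ ∑ S ∈ calS', coef p (1 - p) (Real.sqrt s2) univ f S ^ 2 :=
    Finset.sum_nonneg fun _ _ => sq_nonneg _
  -- the third term
  have hsum3 : ∑ T ∈ calT', Real.sqrt (SymQ.qT p (1 - p) δ (1 - δ) θ Lam f univ T
        * (4 / s2) ^ D T.card) * bb univ f calS' p (1 - p) (Real.sqrt s2) D T
      ≤ Real.exp (- l / 128) / 2 := by
    have h3 := ht3 s2 hs hs1 d hd2 (Thr.Edge n) calS' calT'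
      (fun S => coef p (1 - p) (Real.sqrt s2) univ f S ^ 2)
      (fun T => SymQ.qT p (1 - p) δ (1 - δ) θ Lam f univ T)
      (fun T => D T.card) (fun T => (T.biUnion (endsE n)).card)
      (fun S _ => sq_nonneg _) (fun S hS => GoodInst.calS_card_le hS) ?_
    · have hE : 0 ≤ Real.exp (- l / 128) / 2 := by positivity
      refine le_trans ?_ (h3.trans ?_)
      · apply Finset.sum_le_sum
        intro T _
        have hq0 : 0 ≤ SymQ.qT p (1 - p) δ (1 - δ) θ Lam f univ T :=
          SymQ.qT_nonneg P.hp.le P.hq.le hδ0.le (by linarith) f univ T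
        rw [Real.sqrt_mul hq0]
        apply mul_le_mul_of_nonneg_left _ (by positivity)
        unfold bb
        apply Finset.sum_le_sum_of_subset_of_nonneg
        · intro S hS
          obtain ⟨h4, h5, _⟩ := Finset.mem_filter.mp hS
          exact Finset.mem_filter.mpr ⟨h4, h5⟩
        · intro S _ _
          exact sq_nonneg _
      · calc Real.exp (- l / 128) / 2 * _ ≤ Real.exp (- l / 128) / 2 * 1 :=
              mul_le_mul_of_nonneg_left hmass hE
          _ = _ := mul_one _
    · intro T hT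
      obtain ⟨h1, h2, h3, h4⟩ := GoodInst.calT_spec hT
      have hne : T.Nonempty := Finset.card_pos.mp h2
      refine ⟨hne, SymQ.qT_nonneg P.hp.le P.hq.le hδ0.le (by linarith) f univ T, h4, ?_,
        GoodInst.DD_le hδ0 _, ?_⟩
      · have h5 := GoodInst.card_biUnion_le (ends := endsE n) (fun e => e.2) T
        omega
      · have h6 := SymQ.qT_mul_choose_le (p := p) (q := 1 - p) (d := δ) (d1 := 1 - δ)
          (θ := θ) (Lam := Lam) P.hp.le P.hq.le P.hpq hδ0.le (by linarith) (by ring) hθ0 hLam0.le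
          (endsE n) (fun π e => Edge.permEquiv π e) (fun π e => rfl)
          (fun π => (Edge.permEquiv π).bijective)
          (f := f)
          (fun π x => by
            have : x.image (fun e => Edge.permEquiv π e)
                = x.map (Edge.permEquiv π).toEmbedding := by
              rw [Finset.map_eq_image]; rfl
            rw [this]
            exact indF_map hA π x)
          (Om := univ)
          (fun π => Finset.image_univ_of_surjective (Edge.permEquiv π).surjective) T
        rw [Fintype.card_fin] at h6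
        exact h6
  -- the first term
  have hterm1 : δ * (∑ e ∈ (univ : Finset (Thr.Edge n)), SymQ.Inf p (1 - p) f univ e) / Lam
      ≤ eps0 := by
    have h1 : ∑ e ∈ (univ : Finset (Thr.Edge n)), SymQ.Inf p (1 - p) f univ e
        = totInfl p (1 - p) univ f := by
      unfold totInfl
      exact Finset.sum_congr rfl (fun e _ => Inf_eq_infl hf univ e)
    rw [h1, div_le_iff₀ hLam0, hLam]
    unfold Lam0
    have hl2 : 0 < l ^ 2 := by positivity
    have h2 : eps0 * (δ * l ^ 2 / eps0) = δ * l ^ 2 := by field_simp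
    rw [h2]
    apply mul_le_mul_of_nonneg_left _ hδ0.le
    linarith
  -- the second term
  have hterm2 : s2 * Real.sqrt ((4 / s2) ^ d) * Real.sqrt θ * Lam = eps0 := by
    have hX : 0 < Real.sqrt ((4 / s2) ^ d) := Real.sqrt_pos.2 (by positivity)
    have h1 : Real.sqrt θ = eps0 / (s2 * Real.sqrt ((4 / s2) ^ d) * Lam) := by
      rw [hθ]
      unfold thetaOf
      exact Real.sqrt_sq (by positivity)
    rw [h1]
    field_simp
  -- conclusion
  have hle : ∑ S ∈ (univ : Finset (Thr.Edge n)).powerset.filter (fun S =>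
        ⌈512 / δ⌉₊ + 1 < S.card ∧ (S.card : ℝ) ≤ M),
      coef p (1 - p) (Real.sqrt s2) univ f S ^ 2
      ≤ ∑ S ∈ calS', coef p (1 - p) (Real.sqrt s2) univ f S ^ 2 := by
    apply Finset.sum_le_sum_of_subset_of_nonneg
    · intro S hS
      obtain ⟨h1, h2, h3⟩ := Finset.mem_filter.mp hS
      refine Finset.mem_filter.mpr ⟨h1, ?_, h3⟩
      have h4 : (512 / δ : ℝ) ≤ (⌈512 / δ⌉₊ : ℝ) := Nat.le_ceil _
      have h5 : ((⌈512 / δ⌉₊ + 1 : ℕ) : ℝ) < (S.card : ℝ) := by exact_mod_cast h2
      push_cast at h5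
      rw [hm0]
      linarith
    · intro S _ _
      exact sq_nonneg _
  refine hle.trans (hmain.trans ?_)
  rw [hterm2]
  have hsqrt : Real.sqrt (∑ T ∈ calT', Real.sqrt (SymQ.qT p (1 - p) δ (1 - δ) θ Lam f univ T
        * (4 / s2) ^ D T.card) * bb univ f calS' p (1 - p) (Real.sqrt s2) D T)
      ≤ Real.sqrt (Real.exp (- l / 128) / 2) := Real.sqrt_le_sqrt hsum3
  have h8 : 8 * Real.sqrt (Real.exp (- l / 128) / 2) ≤ ε / 2 := hexp'
  linarith

end Vale.Agent.P063
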