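import Mathlib

/-!
Explicit real inequalities for the parameters of the threshold width argument.
Throughout `ell` is `log n`, `s2 = p (1 - p)` lies in `[1 / (2 ell ^ 2), 1 / 4]`,
`b = log (4 / s2)`, `del = 4096 * b / ell`, `M = beta * s2 * ell ^ 2`, `beta = 2 ^ (-40)`.
-/

namespace Vale.Agent.P063.Params

open Filter Real

/-- The logarithm of the hypercontractive constant. -/
noncomputable def bb (s2 : ℝ) : ℝ := Real.log (4 / s2)

/-- The density of the random restriction. -/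
noncomputable def dl (s2 ell : ℝ) : ℝ := 4096 * bb s2 / ell

/-- The absolute small constant. -/
noncomputable def bt : ℝ := 1 / 2 ^ 40

/-- The top of the middle range of levels. -/
noncomputable def MM (s2 ell : ℝ) : ℝ := bt * s2 * ell ^ 2

lemma bb_pos {s2 : ℝ} (h0 : 0 < s2) (h1 : s2 ≤ 1 / 4) : 0 < bb s2 := by
  unfold bb
  apply Real.log_pos
  rw [lt_div_iff₀ h0]
  linarith

lemma two_le_bb {s2 : ℝ} (h0 : 0 < s2) (h1 : s2 ≤ 1 / 4) : 2 ≤ bb s2 := by
  unfold bb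
  have h16 : (16 : ℝ) ≤ 4 / s2 := by
    rw [le_div_iff₀ h0]; linarith
  have : Real.log 16 ≤ Real.log (4 / s2) := Real.log_le_log (by norm_num) h16
  have h2 : Real.log 16 = 4 * Real.log 2 := by
    rw [show (16 : ℝ) = 2 ^ 4 by norm_num, Real.log_pow]; norm_num
  have := Real.log_two_gt_d9
  linarith

/-- `log t ≤ 2 * sqrt t` for positive `t`. -/
lemma log_le_two_sqrt {t : ℝ} (ht : 0 < t) : Real.log t ≤ 2 * Real.sqrt t := by
  have hs : 0 < Real.sqrt t := Real.sqrt_pos.2 ht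
  have h1 : Real.log (Real.sqrt t) ≤ Real.sqrt t - 1 := Real.log_le_sub_one_of_pos hs
  have h2 : Real.log (Real.sqrt t) = Real.log t / 2 := Real.log_sqrt ht.le
  linarith

/-- `s2 * b ^ 2 ≤ 16`. -/
lemma s2_bb_sq_le {s2 : ℝ} (h0 : 0 < s2) (h1 : s2 ≤ 1 / 4) : s2 * bb s2 ^ 2 ≤ 16 := by
  have hb := (bb_pos h0 h1).le
  have ht : 0 < 4 / s2 := by positivity
  have h2 : bb s2 ≤ 2 * Real.sqrt (4 / s2) := log_le_two_sqrt ht
  have h3 : bb s2 ^ 2 ≤ (2 * Real.sqrt (4 / s2)) ^ 2 := by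
    exact pow_le_pow_left₀ hb h2 2
  have h4 : (2 * Real.sqrt (4 / s2)) ^ 2 = 4 * (4 / s2) := by
    rw [mul_pow, Real.sq_sqrt ht.le]; norm_num
  rw [h4] at h3
  calc s2 * bb s2 ^ 2 ≤ s2 * (4 * (4 / s2)) := by
        exact mul_le_mul_of_nonneg_left h3 h0.le
    _ = 16 := by field_simp; norm_num

/-- `del ^ 2 * M ≤ 1`, that is `del * sqrt M ≤ 1`. -/
lemma dl_sq_MM_le {s2 ell : ℝ} (h0 : 0 < s2) (h1 : s2 ≤ 1 / 4) (hl : 0 < ell) :
    dl s2 ell ^ 2 * MM s2 ell ≤ 1 := by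
  have h := s2_bb_sq_le h0 h1
  have : dl s2 ell ^ 2 * MM s2 ell = 4096 ^ 2 * bt * (s2 * bb s2 ^ 2) := by
    unfold dl MM; field_simp
  rw [this]
  unfold bt
  nlinarith

/-- `del * M * b` is a very small multiple of `ell`. -/
lemma dl_MM_bb_le {s2 ell : ℝ} (h0 : 0 < s2) (h1 : s2 ≤ 1 / 4) (hl : 0 < ell) :
    dl s2 ell * MM s2 ell * bb s2 ≤ ell / 2 ^ 20 := by
  have h := s2_bb_sq_le h0 h1
  have : dl s2 ell * MM s2 ell * bb s2 = 4096 * bt * (s2 * bb s2 ^ 2) * ell := by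
    unfold dl MM; field_simp
  rw [this]
  unfold bt
  have h2 : (4096 : ℝ) * (1 / 2 ^ 40) * (s2 * bb s2 ^ 2) ≤ 1 / 2 ^ 20 := by
    nlinarith
  calc (4096 : ℝ) * (1 / 2 ^ 40) * (s2 * bb s2 ^ 2) * ell ≤ 1 / 2 ^ 20 * ell :=
        mul_le_mul_of_nonneg_right h2 hl.le
    _ = ell / 2 ^ 20 := by ring

/-- `2 * b / del` equals `ell / 2048`. -/
lemma two_bb_div_dl {s2 ell : ℝ} (h0 : 0 < s2) (h1 : s2 ≤ 1 / 4) (hl : 0 < ell) :
    2 * bb s2 / dl s2 ell = ell / 2048 := by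
  have hb := (bb_pos h0 h1).ne'
  unfold dl
  field_simp
  norm_num

/-- `b * (512 / del) = ell / 8`. -/
lemma bb_m0 {s2 ell : ℝ} (h0 : 0 < s2) (h1 : s2 ≤ 1 / 4) (hl : 0 < ell) :
    bb s2 * (512 / dl s2 ell) = ell / 8 := by
  have hb := (bb_pos h0 h1).ne'
  unfold dl
  field_simp
  norm_num

/-- For large `ell`, with `s2 ≥ 1 / (2 ell ^ 2)`, the density is at most one. -/
lemma eventually_dl_le_one :
    ∀ᶠ ell : ℝ in atTop, ∀ s2 : ℝ, 1 / (2 * ell ^ 2) ≤ s2 → s2 ≤ 1 / 4 → dl s2 ell ≤ 1 := by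
  have hlog : ∀ᶠ ell : ℝ in atTop, 4096 * (Real.log 8 + 2 * Real.log ell) ≤ ell := by
    have h1 := Real.isLittleO_log_id_atTop
    have h2 := h1.bound (show (0 : ℝ) < 1 / 16384 by norm_num)
    have h3 : ∀ᶠ ell : ℝ in atTop, 16384 * Real.log 8 ≤ ell := eventually_ge_atTop _
    filter_upwards [h2, h3, eventually_ge_atTop (1 : ℝ)] with ell h4 h5 h6
    have h7 : Real.log ell ≤ 1 / 16384 * ell := by
      have := (le_abs_self _).trans h4
      simpa [abs_of_nonneg (by linarith : (0 : ℝ) ≤ ell)] using this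
    have h8 : 0 ≤ Real.log 8 := Real.log_nonneg (by norm_num)
    linarith
  filter_upwards [hlog, eventually_ge_atTop (1 : ℝ)] with ell h1 h2 s2 hs1 hs2
  have hl : 0 < ell := by linarith
  have h0 : 0 < s2 := lt_of_lt_of_le (by positivity) hs1
  unfold dl
  rw [div_le_one hl]
  have h3 : bb s2 ≤ Real.log 8 + 2 * Real.log ell := by
    unfold bb
    have h4 : 4 / s2 ≤ 8 * ell ^ 2 := by
      rw [div_le_iff₀ h0]
      have : 1 ≤ 2 * ell ^ 2 * s2 := by
        rw [div_le_iff₀ (by positivity)] at hs1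
        linarith
      nlinarith
    have h5 : Real.log (4 / s2) ≤ Real.log (8 * ell ^ 2) :=
      Real.log_le_log (by positivity) h4
    rw [Real.log_mul (by norm_num) (by positivity), Real.log_pow] at h5
    simpa using h5
  linarith

end Vale.Agent.P063.Params
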