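import Vale.Agent.P063.MiddleFinal
import Vale.Agent.P063.GoodInst
import Vale.Agent.P063.T3Sum
import Vale.Agent.P063.QBound

/-!
The weight of a set `T` in the third term, for edge sets of the complete graph: combines the orbit
bound for the listing probability with the degree bound.
-/

namespace Vale.Agent.P063.PerT

open Finset
open Vale.Agent.P063

variable {n : ℕ} {p q r δ θ Λ : ℝ}

/-- The two ends of an edge. -/
abbrev ends (e : Thr.Edge n) : Finset (Fin n) := e.1

lemma ends_card (e : Thr.Edge n) : (ends e).card = 2 := e.2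

lemma ends_inj : Function.Injective (ends (n := n)) := Subtype.val_injective

lemma act_bij (σ : Equiv.Perm (Fin n)) : Function.Bijective (Thr.Edge.perm σ) :=
  (edgeEquiv σ).bijective

lemma univ_image (σ : Equiv.Perm (Fin n)) :
    (univ : Finset (Thr.Edge n)).image (Thr.Edge.perm σ) = univ :=
  Finset.image_univ_of_surjective (act_bij σ).2

/-- **Per-set weight.** -/
theorem perT_bound (P : Params p q r) (hδ0 : 0 < δ) (hδ1 : δ ≤ 1) (hθ : 0 < θ) (hΛ : 0 < Λ)
    (hn : 1 ≤ n) {d : ℕ} (hd : (2 * d) ^ 2 ≤ n)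
    (f : Finset (Thr.Edge n) → ℝ)
    (hf : ∀ (σ : Equiv.Perm (Fin n)) x, f (x.image (Thr.Edge.perm σ)) = f x)
    {T : Finset (Thr.Edge n)} (hT : T ∈ GoodInst.calT ends univ d) :
    Real.sqrt (SymQ.qT p q δ (1 - δ) θ Λ f univ T * (4 / r ^ 2) ^ (GoodInst.DD δ T.card))
      ≤ Real.exp ((T.card : ℝ) * (Real.log (4 / r ^ 2) / δ + Real.log (Λ / θ) / 2
          - Real.log n / 64)) := by
  obtain ⟨-, h1, h2, h3⟩ := GoodInst.calT_spec hT
  have hq0 : 0 ≤ SymQ.qT p q δ (1 - δ) θ Λ f univ T :=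
    SymQ.qT_nonneg P.hp.le P.hq.le hδ0.le (by linarith) f univ T
  have hchoose : SymQ.qT p q δ (1 - δ) θ Λ f univ T
      * ((Fintype.card (Fin n)).choose (Orbit.supp (ends (n := n)) T).card : ℝ) ≤ (Λ / θ) ^ T.card :=
    SymQ.qT_mul_choose_le (p := p) (q := q) (d := δ) (d1 := 1 - δ) (θ := θ) (Lam := Λ)
      P.hp.le P.hq.le P.hpq hδ0.le (by linarith) (by ring) hθ hΛ.le
      (ends (n := n)) (Thr.Edge.perm) (fun σ e => rfl) act_bij hf univ_image T
  have hcardV : Fintype.card (Fin n) = n := Fintype.card_fin n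
  rw [hcardV] at hchoose
  have hv : (Orbit.supp (ends (n := n)) T).card ≤ 2 * d := by
    have := GoodInst.card_biUnion_le (ends := ends (n := n)) ends_card T
    unfold Orbit.supp
    omega
  have hv2 : (Orbit.supp (ends (n := n)) T).card ^ 2 ≤ n :=
    (Nat.pow_le_pow_left hv 2).trans hd
  have hq := T3Sum.q_le_of_choose hn hv2 (t := T.card) h3 hchoose hq0
  have hB : (1:ℝ) ≤ 4 / r ^ 2 := by
    have := sixteen_le P
    linarith
  have hw := T3Sum.weight_le (D := GoodInst.DD δ T.card) hB hδ0 (div_pos hΛ hθ)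
    (GoodInst.DD_le hδ0 _) hq0 hq
  rw [mul_comm]
  exact hw

end Vale.Agent.P063.PerT
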