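import Vale.Agent.P063.Bonami

namespace Vale.Agent.P063

open Finset

variable {α : Type*} [DecidableEq α]
variable {p q r : ℝ}

/-- Image of a finset under a permutation. -/
abbrev mp (π : α ≃ α) (x : Finset α) : Finset α := x.map π.toEmbedding

lemma mp_insert (π : α ≃ α) (e : α) (x : Finset α) : mp π (insert e x) = insert (π e) (mp π x) := by
  simp [mp, Finset.map_insert]

lemma mp_union (π : α ≃ α) (x y : Finset α) : mp π (x ∪ y) = mp π x ∪ mp π y := by
  simp [mp, Finset.map_union]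

lemma mp_sdiff (π : α ≃ α) (x y : Finset α) : mp π (x \ y) = mp π x \ mp π y := by
  simp [mp, Finset.map_sdiff]

lemma mp_erase (π : α ≃ α) (x : Finset α) (e : α) : mp π (x.erase e) = (mp π x).erase (π e) := by
  simp [mp, Finset.map_erase]

lemma mem_mp (π : α ≃ α) (e : α) (x : Finset α) : π e ∈ mp π x ↔ e ∈ x := by
  simp [mp]

lemma mp_subset (π : α ≃ α) {x y : Finset α} : mp π x ⊆ mp π y ↔ x ⊆ y := by
  simp [mp]

lemma mp_card (π : α ≃ α) (x : Finset α) : (mp π x).card = x.card := by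
  simp [mp]

/-- Change of variables for the expectation. -/
lemma E_map (p q : ℝ) (π : α ≃ α) (A : Finset α) (F : Finset α → ℝ) :
    E p q (mp π A) F = E p q A (fun x => F (mp π x)) := by
  induction A using Finset.induction_on generalizing F with
  | empty => simp [mp]
  | insert e A he ih =>
    have he' : π e ∉ mp π A := by rw [mem_mp]; exact he
    rw [mp_insert, E_insert p q he', E_insert p q he, ih, ih]
    congr 2
    apply E_congr
    intro x _
    rw [mp_insert]

/-- Characters are compatible with permutations. -/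
lemma chi_mp (π : α ≃ α) (S x : Finset α) : chi p q r (mp π S) (mp π x) = chi p q r S x := by
  unfold chi
  rw [Finset.prod_map]
  apply Finset.prod_congr rfl
  intro e _
  simp only [phi, Equiv.coe_toEmbedding, mem_mp]

/-- Invariance of the Fourier coefficients under a symmetry of `f`. -/
lemma coef_mp (π : α ≃ α) {Ω : Finset α} (hΩ : mp π Ω = Ω) {f : Finset α → ℝ}
    (hf : ∀ x, f (mp π x) = f x) (S : Finset α) :
    coef p q r Ω f (mp π S) = coef p q r Ω f S := by
  unfold coef
  conv_lhs => rw [← hΩ]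
  rw [E_map]
  apply E_congr
  intro x _
  rw [hf, chi_mp]

section pivot

variable (p q)

/-- Pivotality of `e` for the function `y ↦ f (y ∪ x)` on subsets of `J`. -/
noncomputable def piv (f : Finset α → ℝ) (J x : Finset α) (e : α) : ℝ :=
  E p q (J.erase e) (fun y => |f (insert e y ∪ x) - f (y ∪ x)|)

/-- Total pivotality. -/
noncomputable def Xi (f : Finset α → ℝ) (J x : Finset α) : ℝ := ∑ e ∈ J, piv p q f J x e

/-- Coordinates with large pivotality. -/
noncomputable def heavy (θ : ℝ) (f : Finset α → ℝ) (J x : Finset α) : Finset α :=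
  J.filter (fun e => θ ≤ piv p q f J x e)

/-- The event that `T` is listed. -/
def Listed (Λ θ : ℝ) (f : Finset α → ℝ) (J x T : Finset α) : Prop :=
  T ⊆ heavy p q θ f J x ∧ Xi p q f J x ≤ Λ

open Classical in
/-- Probability of the event `Listed` under the joint law of `(J, x)`. -/
noncomputable def listProb (δ Λ θ : ℝ) (Ω : Finset α) (f : Finset α → ℝ) (T : Finset α) : ℝ :=
  E δ (1 - δ) Ω (fun J => E p q (Ω \ J) (fun x => if Listed p q Λ θ f J x T then 1 else 0))

end pivot

lemma piv_mp (π : α ≃ α) {f : Finset α → ℝ} (hf : ∀ x, f (mp π x) = f x)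
    (J x : Finset α) (e : α) :
    piv p q f (mp π J) (mp π x) (π e) = piv p q f J x e := by
  unfold piv
  rw [← mp_erase, E_map]
  apply E_congr
  intro y _
  rw [← mp_insert, ← mp_union, ← mp_union, hf, hf]

lemma Xi_mp (π : α ≃ α) {f : Finset α → ℝ} (hf : ∀ x, f (mp π x) = f x) (J x : Finset α) :
    Xi p q f (mp π J) (mp π x) = Xi p q f J x := by
  unfold Xi
  rw [Finset.sum_map]
  apply Finset.sum_congr rfl
  intro e _
  exact piv_mp π hf J x e

lemma heavy_mp (π : α ≃ α) {f : Finset α → ℝ} (hf : ∀ x, f (mp π x) = f x) (θ : ℝ)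
    (J x : Finset α) :
    heavy p q θ f (mp π J) (mp π x) = mp π (heavy p q θ f J x) := by
  ext a
  obtain ⟨e, rfl⟩ := π.surjective a
  simp only [heavy, Finset.mem_filter, mem_mp, piv_mp π hf]

lemma Listed_mp (π : α ≃ α) {f : Finset α → ℝ} (hf : ∀ x, f (mp π x) = f x) (Λ θ : ℝ)
    (J x T : Finset α) :
    Listed p q Λ θ f (mp π J) (mp π x) (mp π T) ↔ Listed p q Λ θ f J x T := by
  unfold Listed
  rw [heavy_mp π hf, mp_subset, Xi_mp π hf]

/-- Invariance of the listing probability. -/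
lemma listProb_mp (δ Λ θ : ℝ) (π : α ≃ α) {Ω : Finset α} (hΩ : mp π Ω = Ω) {f : Finset α → ℝ}
    (hf : ∀ x, f (mp π x) = f x) (T : Finset α) :
    listProb p q δ Λ θ Ω f (mp π T) = listProb p q δ Λ θ Ω f T := by
  classical
  unfold listProb
  conv_lhs => rw [← hΩ]
  rw [E_map]
  apply E_congr
  intro J _
  have : mp π Ω \ mp π J = mp π (Ω \ J) := (mp_sdiff π Ω J).symm
  rw [this, E_map]
  apply E_congr
  intro x _
  simp only [Listed_mp π hf]

/-- Pivotality is nonnegative. -/
lemma piv_nonneg (hp : 0 ≤ p) (hq : 0 ≤ q) (f : Finset α → ℝ) (J x : Finset α) (e : α) :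
    0 ≤ piv p q f J x e := by
  unfold piv
  exact E_nonneg hp hq fun y _ => abs_nonneg _

/-- Counting: the heavy set has size at most `Xi / θ`. -/
lemma card_heavy_le (hp : 0 ≤ p) (hq : 0 ≤ q) {θ : ℝ} (hθ : 0 < θ) (f : Finset α → ℝ)
    (J x : Finset α) :
    ((heavy p q θ f J x).card : ℝ) * θ ≤ Xi p q f J x := by
  unfold Xi heavy
  calc ((J.filter (fun e => θ ≤ piv p q f J x e)).card : ℝ) * θ
      = ∑ e ∈ J.filter (fun e => θ ≤ piv p q f J x e), θ := by
        rw [Finset.sum_const, nsmul_eq_mul]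
    _ ≤ ∑ e ∈ J.filter (fun e => θ ≤ piv p q f J x e), piv p q f J x e :=
        Finset.sum_le_sum fun e he => (Finset.mem_filter.mp he).2
    _ ≤ ∑ e ∈ J, piv p q f J x e :=
        Finset.sum_le_sum_of_subset_of_nonneg (Finset.filter_subset _ _)
          fun e _ _ => piv_nonneg hp hq f J x e

open Classical in
/-- For a fixed `(J, x)`, at most `(Λ/θ)^t` sets of size `t` are listed. -/
lemma sum_listed_le (hp : 0 ≤ p) (hq : 0 ≤ q) {Λ θ : ℝ} (hθ : 0 < θ) (hΛ : 0 ≤ Λ)
    (f : Finset α → ℝ) (J x : Finset α) (t : ℕ) (O : Finset (Finset α))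
    (hO : ∀ T ∈ O, T.card = t) :
    ((O.filter (fun T => Listed p q Λ θ f J x T)).card : ℝ) ≤ (Λ / θ) ^ t := by
  have hpos : (0 : ℝ) ≤ Λ / θ := div_nonneg hΛ hθ.le
  by_cases hXi : Xi p q f J x ≤ Λ
  · have hcard : ((heavy p q θ f J x).card : ℝ) ≤ Λ / θ := by
      rw [le_div_iff₀ hθ]
      exact (card_heavy_le hp hq hθ f J x).trans hXi
    have hsub : O.filter (fun T => Listed p q Λ θ f J x T) ⊆
        (heavy p q θ f J x).powersetCard t := by
      intro T hT
      obtain ⟨h1, h2⟩ := Finset.mem_filter.mp hT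
      exact Finset.mem_powersetCard.mpr ⟨h2.1, hO T h1⟩
    have h1 : ((O.filter (fun T => Listed p q Λ θ f J x T)).card : ℝ) ≤
        ((heavy p q θ f J x).card.choose t : ℝ) := by
      have := Finset.card_le_card hsub
      rw [Finset.card_powersetCard] at this
      exact_mod_cast this
    have h2 : ((heavy p q θ f J x).card.choose t : ℝ) ≤ ((heavy p q θ f J x).card : ℝ) ^ t := by
      exact_mod_cast Nat.choose_le_pow _ _
    exact h1.trans (h2.trans (pow_le_pow_left₀ (Nat.cast_nonneg _) hcard t))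
  · have hempty : O.filter (fun T => Listed p q Λ θ f J x T) = ∅ := by
      apply Finset.filter_eq_empty_iff.mpr
      intro T _ hL
      exact hXi hL.2
    rw [hempty]
    simp only [Finset.card_empty, Nat.cast_zero]
    positivity

/-- The expected number of listed sets of size `t` in a family is at most `(Λ/θ)^t`. -/
lemma sum_listProb_le (hp : 0 ≤ p) (hq : 0 ≤ q) (hpq : p + q = 1) {δ Λ θ : ℝ} (hδ0 : 0 ≤ δ)
    (hδ1 : δ ≤ 1) (hθ : 0 < θ) (hΛ : 0 ≤ Λ) (Ω : Finset α) (f : Finset α → ℝ) (t : ℕ)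
    (O : Finset (Finset α)) (hO : ∀ T ∈ O, T.card = t) :
    ∑ T ∈ O, listProb p q δ Λ θ Ω f T ≤ (Λ / θ) ^ t := by
  classical
  unfold listProb
  rw [← E_sum]
  have hδ' : δ + (1 - δ) = 1 := by ring
  calc E δ (1 - δ) Ω (fun J => ∑ T ∈ O, E p q (Ω \ J)
          (fun x => if Listed p q Λ θ f J x T then (1:ℝ) else 0))
      ≤ E δ (1 - δ) Ω (fun _ => (Λ / θ) ^ t) := by
        apply E_mono hδ0 (by linarith)
        intro J _
        rw [← E_sum]
        calc E p q (Ω \ J) (fun x => ∑ T ∈ O, if Listed p q Λ θ f J x T then (1:ℝ) else 0)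
            ≤ E p q (Ω \ J) (fun _ => (Λ / θ) ^ t) := by
              apply E_mono hp hq
              intro x _
              rw [Finset.sum_boole]
              exact sum_listed_le hp hq hθ hΛ f J x t O hO
          _ = _ := E_const hpq _ _
    _ = _ := E_const hδ' _ _

/-- Bound of `listProb` by the orbit size. -/
theorem listProb_le_of_orbit (hp : 0 ≤ p) (hq : 0 ≤ q) (hpq : p + q = 1) {δ Λ θ : ℝ} (hδ0 : 0 ≤ δ)
    (hδ1 : δ ≤ 1) (hθ : 0 < θ) (hΛ : 0 ≤ Λ) (Ω : Finset α) (f : Finset α → ℝ) (T : Finset α)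
    (O : Finset (Finset α)) (hO : ∀ T' ∈ O, T'.card = T.card)
    (hinv : ∀ T' ∈ O, listProb p q δ Λ θ Ω f T' = listProb p q δ Λ θ Ω f T) :
    (O.card : ℝ) * listProb p q δ Λ θ Ω f T ≤ (Λ / θ) ^ T.card := by
  have h := sum_listProb_le hp hq hpq hδ0 hδ1 hθ hΛ Ω f T.card O hO
  rw [Finset.sum_congr rfl hinv, Finset.sum_const, nsmul_eq_mul] at h
  exact h

end Vale.Agent.P063
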