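import Mathlib

/-!
Summation step of the third term: a geometric weight on nonempty subsets of bounded sets.
-/

namespace Vale.Agent.P063.TermThree

open Finset

variable {α : Type*} [DecidableEq α]

/-- Sum of `x ^ |T|` over the nonempty subsets of `S`. -/
lemma sum_nonempty_subsets (S : Finset α) (x : ℝ) :
    ∑ T ∈ S.powerset.erase ∅, x ^ T.card = (1 + x) ^ S.card - 1 := by
  have h := Finset.sum_pow_mul_eq_add_pow x (1 : ℝ) S
  simp only [one_pow, mul_one] at h
  rw [add_comm 1 x, ← h, ← Finset.sum_erase_add _ _ (Finset.empty_mem_powerset S)]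
  simp

/-- `(1 + x) ^ m - 1 ≤ 2 M x` when `m ≤ M`, `0 ≤ x`, `M x ≤ 1/2`. -/
lemma one_add_pow_sub_one_le {x : ℝ} {m : ℕ} {M : ℝ} (hx : 0 ≤ x) (hm : (m : ℝ) ≤ M)
    (hMx : M * x ≤ 1 / 2) : (1 + x) ^ m - 1 ≤ 2 * M * x := by
  have h1 : (1 + x) ^ m ≤ Real.exp (m * x) := by
    rw [Real.exp_nat_mul]
    exact pow_le_pow_left₀ (by linarith) (by linarith [Real.add_one_le_exp x]) m
  have hm0 : (0 : ℝ) ≤ m := Nat.cast_nonneg m
  have hmx : (m : ℝ) * x ≤ M * x := mul_le_mul_of_nonneg_right hm hx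
  have hy0 : 0 ≤ M * x := le_trans (mul_nonneg hm0 hx) hmx
  have h2 : Real.exp (M * x) ≤ 1 + 2 * (M * x) := by
    -- convexity on `[0,1]`: `exp y ≤ 1 + 2 y`
    have hy1 : M * x ≤ 1 / 2 := hMx
    have h3 : Real.exp (M * x) ≤ 1 / (1 - M * x / 2) ^ 2 := by
      have h4 : Real.exp (M * x / 2) ≤ 1 / (1 - M * x / 2) := by
        have h5 : (1 - M * x / 2) ≤ Real.exp (-(M * x / 2)) := by
          have := Real.add_one_le_exp (-(M * x / 2))
          linarith
        have hpos : 0 < 1 - M * x / 2 := by linarith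
        rw [le_div_iff₀ hpos]
        calc Real.exp (M * x / 2) * (1 - M * x / 2)
            ≤ Real.exp (M * x / 2) * Real.exp (-(M * x / 2)) :=
              mul_le_mul_of_nonneg_left h5 (Real.exp_pos _).le
          _ = 1 := by rw [← Real.exp_add]; simp
      have h6 : Real.exp (M * x) = Real.exp (M * x / 2) ^ 2 := by
        rw [← Real.exp_nat_mul]; congr 1; push_cast; ring
      rw [h6]
      have hpos : 0 < 1 - M * x / 2 := by linarith
      calc Real.exp (M * x / 2) ^ 2 ≤ (1 / (1 - M * x / 2)) ^ 2 :=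
            pow_le_pow_left₀ (Real.exp_pos _).le h4 2
        _ = 1 / (1 - M * x / 2) ^ 2 := by rw [one_div_pow]
    have hpos : 0 < 1 - M * x / 2 := by linarith
    have h7 : 1 / (1 - M * x / 2) ^ 2 ≤ 1 + 2 * (M * x) := by
      rw [div_le_iff₀ (by positivity)]
      set y := M * x with hy
      have h9 : 0 ≤ y * (1 - 7 / 4 * y + y ^ 2 / 2) := by
        apply mul_nonneg hy0
        nlinarith [sq_nonneg y]
      nlinarith [h9]
    exact h3.trans h7
  have h8 : Real.exp (m * x) ≤ Real.exp (M * x) := Real.exp_le_exp.2 hmx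
  have : (1 + x) ^ m - 1 ≤ 2 * (M * x) := by linarith
  linarith

/-- **Summation.** `G` is a nonnegative weight on a family `calT` of nonempty sets with
`G T ≤ x ^ |T|`, `c` is a nonnegative weight on a family `calS` of sets of size at most `M`, and
`b T = ∑_{S ∈ calS, T ⊆ S} c S`. Then `∑_T G T * b T ≤ 2 M x ∑_S c S`. -/
theorem sum_G_mul_b_le (calT calS : Finset (Finset α)) (G c : Finset α → ℝ) {x M : ℝ}
    (hx : 0 ≤ x) (hMx : M * x ≤ 1 / 2) (hM : ∀ S ∈ calS, (S.card : ℝ) ≤ M)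
    (hT0 : ∀ T ∈ calT, T ≠ ∅) (hG0 : ∀ T ∈ calT, 0 ≤ G T) (hG : ∀ T ∈ calT, G T ≤ x ^ T.card)
    (hc : ∀ S ∈ calS, 0 ≤ c S) :
    ∑ T ∈ calT, G T * ∑ S ∈ calS.filter (fun S => T ⊆ S), c S
      ≤ 2 * M * x * ∑ S ∈ calS, c S := by
  have h1 : ∑ T ∈ calT, G T * ∑ S ∈ calS.filter (fun S => T ⊆ S), c S
      = ∑ S ∈ calS, c S * ∑ T ∈ calT.filter (fun T => T ⊆ S), G T := by
    simp_rw [Finset.mul_sum, Finset.sum_filter]
    rw [Finset.sum_comm]
    refine Finset.sum_congr rfl fun S _ => ?_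
    refine Finset.sum_congr rfl fun T _ => ?_
    split_ifs <;> ring
  rw [h1, Finset.mul_sum]
  refine Finset.sum_le_sum fun S hS => ?_
  have h2 : ∑ T ∈ calT.filter (fun T => T ⊆ S), G T ≤ 2 * M * x := by
    have hsub : calT.filter (fun T => T ⊆ S) ⊆ S.powerset.erase ∅ := by
      intro T hT
      obtain ⟨h3, h4⟩ := Finset.mem_filter.1 hT
      exact Finset.mem_erase.2 ⟨hT0 T h3, Finset.mem_powerset.2 h4⟩
    calc ∑ T ∈ calT.filter (fun T => T ⊆ S), G T
        ≤ ∑ T ∈ calT.filter (fun T => T ⊆ S), x ^ T.card :=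
          Finset.sum_le_sum fun T hT => hG T (Finset.mem_filter.1 hT).1
      _ ≤ ∑ T ∈ S.powerset.erase ∅, x ^ T.card :=
          Finset.sum_le_sum_of_subset_of_nonneg hsub fun T _ _ => pow_nonneg hx _
      _ = (1 + x) ^ S.card - 1 := sum_nonempty_subsets S x
      _ ≤ 2 * M * x := one_add_pow_sub_one_le hx (hM S hS) hMx
  calc c S * ∑ T ∈ calT.filter (fun T => T ⊆ S), G T
      ≤ c S * (2 * M * x) := mul_le_mul_of_nonneg_left h2 (hc S hS)
    _ = 2 * M * x * c S := by ring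

end Vale.Agent.P063.TermThree
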