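import Vale.Agent.P063.Bridge
import Vale.Agent.P063.Pivot
import Vale.Agent.P063.Params

/-!
The low range and the high range of the spectrum, and the assembly of the derivative bound
`Thr.KeyBoundMid` from a bound on the middle range.
-/

namespace Vale.Agent.P063

open Finset

section general

variable {α : Type*} [DecidableEq α] {p q r : ℝ}

/-- For a Boolean function the mean absolute difference is the influence. -/
lemma E_abs_eq_infl {g : Finset α → ℝ} (hg : ∀ x, g x = 0 ∨ g x = 1) (A : Finset α) (e : α) :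
    E p q (A.erase e) (fun y => |g (insert e y) - g y|) = infl p q A g e := by
  unfold infl
  apply E_congr
  intro y _
  rcases hg (insert e y) with h1 | h1 <;> rcases hg y with h2 | h2 <;> rw [h1, h2] <;> norm_num

/-- The low range, for a Boolean function all of whose influences coincide. -/
theorem low_bound (P : Params p q r) {A : Finset α} {g : Finset α → ℝ}
    (hg : ∀ x, g x = 0 ∨ g x = 1) (d : ℕ) {W : ℝ} (hW : ∀ e ∈ A, infl p q A g e = W) :
    ∑ S ∈ A.powerset.filter (fun S => S.Nonempty ∧ S.card ≤ d + 1), coef p q r A g S ^ 2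
      ≤ (A.card : ℝ) * (r ^ 2 * (Real.sqrt ((4 / r ^ 2) ^ d) * (W * Real.sqrt W))) := by
  apply low_range
  intro e he
  have h := pivot_bonami P he (Θ := A.powerset.filter (fun T => e ∈ T ∧ T.card ≤ d + 1))
    (Finset.filter_subset _ _) (fun T hT => (Finset.mem_filter.mp hT).2.1) d
    (fun T hT => (Finset.mem_filter.mp hT).2.2) g hg
  rwa [E_abs_eq_infl hg, hW e he] at h

/-- The splitting of the nonempty part of the spectrum. -/
theorem spectrum_split (A : Finset α) (F : Finset α → ℝ) (d : ℕ) (M : ℝ) :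
    ∑ S ∈ A.powerset.filter (fun S => S.Nonempty), coef p q r A F S ^ 2
      ≤ ∑ S ∈ A.powerset.filter (fun S => S.Nonempty ∧ S.card ≤ d), coef p q r A F S ^ 2
        + ∑ S ∈ A.powerset.filter (fun S => d < S.card ∧ (S.card : ℝ) ≤ M), coef p q r A F S ^ 2
        + ∑ S ∈ A.powerset.filter (fun S => M < (S.card : ℝ)), coef p q r A F S ^ 2 := by
  simp only [Finset.sum_filter]
  rw [← Finset.sum_add_distrib, ← Finset.sum_add_distrib]
  apply Finset.sum_le_sum
  intro S _
  have h0 := sq_nonneg (coef p q r A F S)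
  by_cases h1 : S.Nonempty
  · by_cases h2 : S.card ≤ d
    · simp only [h1, h2, and_self, if_true]
      have h3 : 0 ≤ (if d < S.card ∧ (S.card : ℝ) ≤ M then coef p q r A F S ^ 2 else 0) := by
        split_ifs <;> simp [h0]
      have h4 : 0 ≤ (if M < (S.card : ℝ) then coef p q r A F S ^ 2 else 0) := by
        split_ifs <;> simp [h0]
      linarith
    · have h5 : d < S.card := not_le.mp h2
      by_cases h6 : (S.card : ℝ) ≤ M
      · simp only [h1, h2, h5, h6, and_self, and_false, if_true, if_false, not_lt.mpr h6]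
        simp
      · simp only [h1, h2, h5, h6, and_self, and_false, if_true, if_false, not_le.mp h6]
        simp
  · simp only [h1, false_and, if_false]
    have h3 : 0 ≤ (if d < S.card ∧ (S.card : ℝ) ≤ M then coef p q r A F S ^ 2 else 0) := by
      split_ifs <;> simp [h0]
    have h4 : 0 ≤ (if M < (S.card : ℝ) then coef p q r A F S ^ 2 else 0) := by
      split_ifs <;> simp [h0]
    linarith

end general

section graph

variable {n : ℕ}

lemma card_edge : Fintype.card (Thr.Edge n) = n.choose 2 := by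
  unfold Thr.Edge
  rw [Fintype.card_finset_len, Fintype.card_fin]

lemma sq_le_four_choose (hn : 2 ≤ n) : (n : ℝ) ^ 2 ≤ 4 * (n.choose 2 : ℝ) := by
  have h := Nat.choose_two_right n
  have h2 : 2 * n.choose 2 = n * (n - 1) := by
    rw [h]
    exact Nat.mul_div_cancel' (Nat.even_mul_pred_self n).two_dvd
  have h3 : (2 : ℝ) * (n.choose 2 : ℝ) = (n : ℝ) * ((n : ℝ) - 1) := by
    have : ((2 * n.choose 2 : ℕ) : ℝ) = ((n * (n - 1) : ℕ) : ℝ) := by rw [h2]
    push_cast at this
    rw [Nat.cast_sub (by omega)] at this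
    simpa using this
  have hn' : (2 : ℝ) ≤ n := by exact_mod_cast hn
  nlinarith

/-- The parameters of a point `p`. -/
lemma params_of {p : ℝ} (hp0 : 0 < p) (hp1 : p < 1) :
    Params p (1 - p) (Real.sqrt (p * (1 - p))) where
  hp := hp0
  hq := by linarith
  hr := Real.sqrt_pos.2 (mul_pos hp0 (by linarith))
  hpq := by ring
  hrr := Real.sq_sqrt (mul_pos hp0 (by linarith)).le

lemma s2_le {p : ℝ} : p * (1 - p) ≤ 1 / 4 := by nlinarith [sq_nonneg (p - 1 / 2)]

/-- Every influence of a graph property is the total influence over the number of edges. -/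
lemma infl_eq_div (hn : 2 ≤ n) {A : Set (Thr.Edge n → Bool)} (hA : Thr.IsGraphProp A) (p q : ℝ)
    (e : Thr.Edge n) :
    infl p q univ (indF A) e = totInfl p q univ (indF A) / (n.choose 2 : ℝ) := by
  have h := infl_eq_avg hA p q e
  rw [card_edge] at h
  have hc : (0 : ℝ) < n.choose 2 := by
    exact_mod_cast Nat.choose_pos hn
  rw [eq_div_iff hc.ne', ← h]
  ring

/-- The low range in the concrete parameters. -/
theorem low_concrete (hn : 2 ≤ n) {A : Set (Thr.Edge n → Bool)} (hA : Thr.IsGraphProp A)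
    {p : ℝ} (hp0 : 0 < p) (hp1 : p < 1) (hl : 1 ≤ Real.log n)
    (hs : 1 / (2 * (Real.log n) ^ 2) ≤ p * (1 - p))
    (hI0 : 0 ≤ totInfl p (1 - p) univ (indF A))
    (hI : totInfl p (1 - p) univ (indF A) ≤ (Real.log n) ^ 2) :
    ∑ S ∈ (univ : Finset (Thr.Edge n)).powerset.filter (fun S => S.Nonempty ∧
        S.card ≤ ⌈512 / Params.dl (p * (1 - p)) (Real.log n)⌉₊ + 1),
      coef p (1 - p) (Real.sqrt (p * (1 - p))) univ (indF A) S ^ 2
      ≤ 3 / 2 * (Real.log n) ^ 4 * Real.exp (-(15 / 16 * Real.log n)) := by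
  set l := Real.log n with hldef
  set s2 := p * (1 - p) with hs2def
  set I := totInfl p (1 - p) univ (indF A) with hIdef
  have P := params_of hp0 hp1
  have hl0 : 0 < l := by linarith
  have hs0 : 0 < s2 := mul_pos hp0 (by linarith)
  have hs1 : s2 ≤ 1 / 4 := s2_le
  have hr2 : Real.sqrt s2 ^ 2 = s2 := Real.sq_sqrt hs0.le
  have hb := Params.bb_pos hs0 hs1
  have hdl : 0 < Params.dl s2 l := by
    unfold Params.dl; positivity
  set d := ⌈512 / Params.dl s2 l⌉₊ with hd
  have hN : (0 : ℝ) < n.choose 2 := by exact_mod_cast Nat.choose_pos hn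
  have hN2 := sq_le_four_choose hn
  have hcard : ((univ : Finset (Thr.Edge n)).card : ℝ) = (n.choose 2 : ℝ) := by
    rw [Finset.card_univ, card_edge]
  have hlow := low_bound P (indF_zero_or_one A) d (W := I / (n.choose 2 : ℝ))
    (A := (univ : Finset (Thr.Edge n))) (fun e _ => infl_eq_div hn hA p (1 - p) e)
  refine le_trans hlow ?_
  rw [hcard, hr2]
  set N : ℝ := (n.choose 2 : ℝ) with hNdef
  have hnpos : (0 : ℝ) < n := by
    have : (2 : ℝ) ≤ n := by exact_mod_cast hn
    linarith
  have hexpl : Real.exp l = n := Real.exp_log hnpos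
  -- the power of `B`
  have hB0 : 0 < 4 / s2 := by positivity
  have hdle : (d : ℝ) ≤ 512 / Params.dl s2 l + 1 := by
    have := Nat.ceil_lt_add_one (show 0 ≤ 512 / Params.dl s2 l by positivity)
    exact this.le
  have hsqrtB : Real.sqrt ((4 / s2) ^ d) ≤ Real.exp (l / 16) * (3 * l) := by
    have h1 : (4 / s2) ^ d = Real.exp (d * Params.bb s2) := by
      unfold Params.bb
      rw [Real.exp_nat_mul, Real.exp_log hB0]
    have h2 : Real.sqrt ((4 / s2) ^ d) = Real.exp (d * Params.bb s2 / 2) := by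
      rw [h1, Real.exp_half]
    have h3 : (d : ℝ) * Params.bb s2 / 2 ≤ l / 16 + Params.bb s2 / 2 := by
      have h4 := Params.bb_m0 hs0 hs1 hl0
      nlinarith
    have h5 : Real.exp (Params.bb s2 / 2) = Real.sqrt (4 / s2) := by
      rw [Real.exp_half]
      unfold Params.bb
      rw [Real.exp_log hB0]
    have h6 : Real.sqrt (4 / s2) ≤ 3 * l := by
      rw [Real.sqrt_le_iff]
      refine ⟨by positivity, ?_⟩
      have h7 : 1 ≤ 2 * l ^ 2 * s2 := by
        rw [div_le_iff₀ (by positivity)] at hs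
        linarith
      rw [div_le_iff₀ hs0]
      nlinarith
    rw [h2]
    calc Real.exp ((d : ℝ) * Params.bb s2 / 2) ≤ Real.exp (l / 16 + Params.bb s2 / 2) :=
          Real.exp_le_exp.2 h3
      _ = Real.exp (l / 16) * Real.exp (Params.bb s2 / 2) := Real.exp_add _ _
      _ ≤ Real.exp (l / 16) * (3 * l) := by
          rw [h5]
          exact mul_le_mul_of_nonneg_left h6 (Real.exp_pos _).le
  -- the square root of the influence of one edge
  have hsqrtW : Real.sqrt (I / N) ≤ 2 * l * Real.exp (-l) := by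
    rw [Real.sqrt_le_iff]
    refine ⟨by positivity, ?_⟩
    rw [Real.exp_neg, hexpl, mul_pow, inv_pow, div_le_iff₀ hN]
    have hn2 : (0 : ℝ) < (n : ℝ) ^ 2 := by positivity
    have h1 : (2 * l) ^ 2 * ((n : ℝ) ^ 2)⁻¹ * N = 4 * N / (n : ℝ) ^ 2 * l ^ 2 := by
      field_simp
      ring
    rw [h1]
    have h2 : 1 ≤ 4 * N / (n : ℝ) ^ 2 := by
      rw [le_div_iff₀ hn2]
      linarith
    nlinarith [sq_nonneg l]
  have heq : N * (s2 * (Real.sqrt ((4 / s2) ^ d) * (I / N * Real.sqrt (I / N))))
      = s2 * Real.sqrt ((4 / s2) ^ d) * I * Real.sqrt (I / N) := by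
    field_simp
  rw [heq]
  have hR0 : 0 ≤ Real.sqrt ((4 / s2) ^ d) := Real.sqrt_nonneg _
  have hW0 : 0 ≤ Real.sqrt (I / N) := Real.sqrt_nonneg _
  have hexp : Real.exp (l / 16) * Real.exp (-l) = Real.exp (-(15 / 16 * l)) := by
    rw [← Real.exp_add]
    congr 1
    ring
  calc s2 * Real.sqrt ((4 / s2) ^ d) * I * Real.sqrt (I / N)
      ≤ (1 / 4) * (Real.exp (l / 16) * (3 * l)) * l ^ 2 * (2 * l * Real.exp (-l)) := by
        apply mul_le_mul _ hsqrtW hW0 (by positivity)
        apply mul_le_mul _ hI hI0 (by positivity)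
        exact mul_le_mul hs1 hsqrtB hR0 (by norm_num)
    _ = 3 / 2 * l ^ 4 * (Real.exp (l / 16) * Real.exp (-l)) := by ring
    _ = 3 / 2 * l ^ 4 * Real.exp (-(15 / 16 * l)) := by rw [hexp]

/-- The estimate of the middle range of levels which is needed for the derivative bound. -/
def MidBound : Prop :=
  ∀ ε : ℝ, 0 < ε → ∃ c : ℝ, 0 < c ∧ ∃ n0 : ℕ, ∀ n : ℕ, n0 ≤ n →
    ∀ A : Set (Thr.Edge n → Bool), Thr.IsGraphProp A →
    ∀ p : ℝ, 0 < p → p < 1 → 1 / (2 * (Real.log n) ^ 2) ≤ p * (1 - p) →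
    0 < totInfl p (1 - p) univ (indF A) →
    totInfl p (1 - p) univ (indF A) ≤ c * (Real.log n) ^ 2 →
    ∑ S ∈ (univ : Finset (Thr.Edge n)).powerset.filter (fun S =>
        ⌈512 / Params.dl (p * (1 - p)) (Real.log n)⌉₊ + 1 < S.card ∧
          (S.card : ℝ) ≤ Params.MM (p * (1 - p)) (Real.log n)),
      coef p (1 - p) (Real.sqrt (p * (1 - p))) univ (indF A) S ^ 2 ≤ ε

lemma eventually_low (v : ℝ) (hv : 0 < v) : ∀ᶠ n : ℕ in Filter.atTop,
    1 ≤ Real.log n ∧ 3 / 2 * (Real.log n) ^ 4 * Real.exp (-(15 / 16 * Real.log n)) ≤ v / 8 := by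
  have hlog : Filter.Tendsto (fun n : ℕ => Real.log n) Filter.atTop Filter.atTop :=
    Real.tendsto_log_atTop.comp tendsto_natCast_atTop_atTop
  have h1 : Filter.Tendsto (fun y : ℝ => y ^ 4 * Real.exp (-y)) Filter.atTop (nhds 0) :=
    Real.tendsto_pow_mul_exp_neg_atTop_nhds_zero 4
  have h2 : Filter.Tendsto (fun l : ℝ => 15 / 16 * l) Filter.atTop Filter.atTop :=
    Filter.tendsto_id.const_mul_atTop (by norm_num)
  have h3 := h1.comp h2
  have h4 : ∀ᶠ l : ℝ in Filter.atTop, (15 / 16 * l) ^ 4 * Real.exp (-(15 / 16 * l)) < v / 16 := by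
    have := h3.eventually (gt_mem_nhds (show (0 : ℝ) < v / 16 by positivity))
    simpa using this
  have h5 := hlog.eventually (h4.and (Filter.eventually_ge_atTop (1 : ℝ)))
  filter_upwards [h5] with n hn
  obtain ⟨h6, h7⟩ := hn
  refine ⟨h7, ?_⟩
  set l := Real.log n
  have hE := Real.exp_pos (-(15 / 16 * l))
  have h8 : (15 / 16 * l) ^ 4 = (15 / 16) ^ 4 * l ^ 4 := by ring
  rw [h8] at h6
  have h9 : 0 ≤ l ^ 4 * Real.exp (-(15 / 16 * l)) := by positivity
  nlinarith

/-- The derivative bound from the estimate of the middle range. -/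
theorem keyBoundMid_of_mid (h : MidBound) : Thr.KeyBoundMid := by
  intro v hv
  obtain ⟨c1, hc1, n1, hmid⟩ := h (v / 8) (by positivity)
  obtain ⟨n2, hn2⟩ := Filter.eventually_atTop.1 (eventually_low v hv)
  have hbt : 0 < Params.bt := by unfold Params.bt; positivity
  refine ⟨min c1 (min 1 (Params.bt * v / 4)), by positivity, max (max n1 n2) 2, ?_⟩
  intro n hn A hA p hp0 hp1 hs hvar
  by_contra hlt
  have hlt' := not_le.mp hlt
  have hn1 : n1 ≤ n := le_trans (le_trans (le_max_left _ _) (le_max_left _ _)) hn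
  have hn2' : n2 ≤ n := le_trans (le_trans (le_max_right _ _) (le_max_left _ _)) hn
  have hn3 : 2 ≤ n := le_trans (le_max_right _ _) hn
  obtain ⟨hl, hlow0⟩ := hn2 n hn2'
  rw [totalInf_eq p A hA.increasing] at hlt'
  have P := params_of hp0 hp1
  have hVar := variance_eq P (univ : Finset (Thr.Edge n)) (indF A)
  rw [var_eq] at hVar
  have hPoin := poincare P (univ : Finset (Thr.Edge n)) (indF A)
  have hsplit := spectrum_split (p := p) (q := 1 - p) (r := Real.sqrt (p * (1 - p)))
    (univ : Finset (Thr.Edge n)) (indF A)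
    (⌈512 / Params.dl (p * (1 - p)) (Real.log n)⌉₊ + 1) (Params.MM (p * (1 - p)) (Real.log n))
  have hl0 : 0 < Real.log n := by linarith
  have hs0 : 0 < p * (1 - p) := mul_pos hp0 (by linarith)
  have hs1 : p * (1 - p) ≤ 1 / 4 := s2_le
  have hr2 : Real.sqrt (p * (1 - p)) ^ 2 = p * (1 - p) := Real.sq_sqrt hs0.le
  have hMM : 0 < Params.MM (p * (1 - p)) (Real.log n) := by
    unfold Params.MM; positivity
  have hH := high_range P (univ : Finset (Thr.Edge n)) (indF A) hMM
  rw [← hVar] at hPoin hsplit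
  rw [hr2] at hPoin hH
  set I := totInfl p (1 - p) univ (indF A) with hIdef
  have hI0 : 0 < I := by
    by_contra hh
    have : p * (1 - p) * I ≤ 0 := mul_nonpos_of_nonneg_of_nonpos hs0.le (not_lt.mp hh)
    linarith
  have hl2 : 0 < Real.log n ^ 2 := by positivity
  have hc1' : I ≤ c1 * Real.log n ^ 2 :=
    hlt'.le.trans (mul_le_mul_of_nonneg_right (min_le_left _ _) hl2.le)
  have hc2 : I ≤ Real.log n ^ 2 := by
    have := hlt'.le.trans (mul_le_mul_of_nonneg_right
      ((min_le_right _ _).trans (min_le_left _ _)) hl2.le)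
    linarith
  have hc3 : I ≤ Params.bt * v / 4 * Real.log n ^ 2 :=
    hlt'.le.trans (mul_le_mul_of_nonneg_right
      ((min_le_right _ _).trans (min_le_right _ _)) hl2.le)
  have hL := low_concrete hn3 hA hp0 hp1 hl hs hI0.le hc2
  have hM := hmid n hn1 A hA p hp0 hp1 hs hI0 hc1'
  have hH2 : p * (1 - p) * I / Params.MM (p * (1 - p)) (Real.log n) ≤ v / 4 := by
    rw [div_le_iff₀ hMM]
    unfold Params.MM
    have : p * (1 - p) * I ≤ p * (1 - p) * (Params.bt * v / 4 * Real.log n ^ 2) :=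
      mul_le_mul_of_nonneg_left hc3 hs0.le
    calc p * (1 - p) * I ≤ p * (1 - p) * (Params.bt * v / 4 * Real.log n ^ 2) := this
      _ = v / 4 * (Params.bt * (p * (1 - p)) * Real.log n ^ 2) := by ring
  linarith

end graph

end Vale.Agent.P063
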